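import Vale.Agent.P317.Lor

/-! Nodes of the hypercube, option weights and the Markov kernel (definitions). -/

namespace Vale.Agent.P317

open Finset

variable {n : ℕ}

/-- the doubled ground set -/
abbrev El (n : ℕ) := Fin n × Bool

/-- the transversal chosen by `x`, outside the coordinates in `X` -/
def St (X : Finset (Fin n)) (x : Fin n → Bool) : Finset (El n) :=
  univ.filter fun e => e.1 ∉ X ∧ x e.1 = e.2

/-- points whose coordinates from `k` on are `false` -/
def U (n k : ℕ) : Finset (Fin n → Bool) := univ.filter fun x => ∀ i : Fin n, k ≤ i.val → x i = false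

def flp (j : Fin n) (x : Fin n → Bool) : Fin n → Bool := Function.update x j (!x j)

variable (w : Finset (El n) → ℝ)

/-- weight of a full transversal -/
def wt (x : Fin n → Bool) : ℝ := w (St ∅ x)

/-- weight of the option which gives the value `c` to the special coordinate `k` -/
def al (k : Fin n) (x : Fin n → Bool) (c : Bool) : ℝ := w (insert (k, c) (St {k} x))

/-- weight of the option which doubles the coordinate `j` -/
def ga (k j : Fin n) (x : Fin n → Bool) : ℝ := w (insert (j, !x j) (St {k} x))

/-- partition function of level `k` -/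
def Za (k : ℕ) : ℝ := ∑ x ∈ U n k, wt w x

def ZZ (k : Fin n) : ℝ := ∑ x ∈ U n k, (al w k x false + al w k x true)

noncomputable def WW (k j : Fin n) : ℝ := (∑ x ∈ U n k, ga w k j x) / 2

/-- stationary weight of a node -/
def om (k : Fin n) (ρ : Fin n → ℝ) (x : Fin n → Bool) : ℝ :=
  al w k x false + al w k x true + ∑ j ∈ Iio k, ρ j * ga w k j x

def Om (k : Fin n) (ρ : Fin n → ℝ) : ℝ := ∑ x ∈ U n k, om w k ρ x

/-- Dirichlet energy in direction `j` -/
noncomputable def Ed (k j : Fin n) (h : (Fin n → Bool) → ℝ) : ℝ :=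
  (∑ x ∈ U n k, ga w k j x * (h x - h (flp j x)) ^ 2) / 2

/-- the Markov kernel -/
noncomputable def Pk (k : Fin n) (ρ : Fin n → ℝ) (h : (Fin n → Bool) → ℝ) (x : Fin n → Bool) : ℝ :=
  ((al w k x false + al w k x true) * h x + ∑ j ∈ Iio k, ρ j * ga w k j x * h (flp j x)) /
    om w k ρ x

/-- the Cesaro average of the powers of the kernel -/
noncomputable def Pbar (k : Fin n) (ρ : Fin n → ℝ) (L : ℕ) (h : (Fin n → Bool) → ℝ)
    (x : Fin n → Bool) : ℝ :=
  (∑ t ∈ range L, (Pk w k ρ)^[t] h x) / L

/-- choosing the value of the special coordinate -/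
noncomputable def Lf (k : Fin n) (g : (Fin n → Bool) → ℝ) (x : Fin n → Bool) : ℝ :=
  (al w k x false * g (Function.update x k false) + al w k x true * g (Function.update x k true)) /
    (al w k x false + al w k x true)

/-- choosing an option: `0` for the special coordinate, `j + 1` for doubling `j` -/
noncomputable def Op (k : Fin n) (ρ : Fin n → ℝ) (g : ℕ → ℝ) (x : Fin n → Bool) : ℝ :=
  ((al w k x false + al w k x true) * g 0 + ∑ j ∈ Iio k, ρ j * ga w k j x * g (j.val + 1)) /
    om w k ρ x

/-- expectation under the level `k` Gibbs measure -/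
noncomputable def nuE (k : ℕ) (g : (Fin n → Bool) → ℝ) : ℝ :=
  (∑ x ∈ U n k, wt w x * g x) / Za w k

/-- expectation under the stationary measure of the kernel -/
noncomputable def omE (k : Fin n) (ρ : Fin n → ℝ) (g : (Fin n → Bool) → ℝ) : ℝ :=
  (∑ x ∈ U n k, om w k ρ x * g x) / Om w k ρ

end Vale.Agent.P317
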