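import Vale.Agent.P317.Prog
import Vale.Agent.P317.Node

/-! The algorithm (definitions). -/

namespace Vale.Agent.P317

open Prog

/-- queries -/
abbrev Qy := Bool × List Bool

/-- greedy computation of the rank of the set coded by `s` -/
def rankP (side : Bool) (n : ℕ) (s : List Bool) : Prog Qy ℕ :=
  bind (foldP (List.range n)
    (fun (cur : List Bool) i => if s.getD i false = true then
      bind (askP (side, cur.set i true)) fun b => .ret (if b = true then cur.set i true else cur)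
      else .ret cur)
    (List.replicate n false)) fun cur => .ret (cur.countP fun b => b)

def nulP (n : ℕ) (X Y : List Bool) : Prog Qy ℕ :=
  bind (rankP false n X) fun r1 => bind (rankP true n (List.replicate n true)) fun r =>
    bind (rankP true n Y) fun r2 => .ret ((X.countP (fun b => b) - r1) + (r - r2))

def wtP (n : ℕ) (q : ℚ) (X Y : List Bool) : Prog Qy ℚ :=
  bind (nulP n X Y) fun c => .ret (q ^ min c (2 * n))

def optW (n : ℕ) (q : ℚ) (k : ℕ) (ρ : List ℚ) (x : List Bool) : Prog Qy (List ℚ) :=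
  bind (wtP n q (x.set k false) (x.set k false)) fun a0 =>
    bind (wtP n q (x.set k true) (x.set k true)) fun a1 =>
      bind (mapP (List.range (min k n)) fun j =>
        bind (wtP n q ((x.set j true).set k false) ((x.set j false).set k true)) fun g =>
          .ret (ρ.getD j 0 * g)) fun gs => .ret ((a0 + a1) :: gs)

def optP (n : ℕ) (q : ℚ) (k : ℕ) (ρ : List ℚ) (x : List Bool) : Prog Qy ℕ :=
  bind (optW n q k ρ x) choose

def stepP (n : ℕ) (q : ℚ) (k : ℕ) (ρ : List ℚ) (x : List Bool) : Prog Qy (List Bool) :=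
  bind (optP n q k ρ x) fun o => .ret (if o = 0 then x else x.set (o - 1) (!x.getD (o - 1) false))

def walkP (n : ℕ) (q : ℚ) (k : ℕ) (ρ : List ℚ) (L : ℕ) (x : List Bool) : Prog Qy (List Bool) :=
  bind (choose (List.replicate L 1)) fun τ =>
    foldP (List.range L) (fun y t => if t < τ then stepP n q k ρ y else .ret y) x

def liftP (n : ℕ) (q : ℚ) (k : ℕ) (ρ : List ℚ) (L : ℕ) (x : List Bool) : Prog Qy (List Bool) :=
  bind (walkP n q k ρ L x) fun y =>
    bind (wtP n q (y.set k false) (y.set k false)) fun a0 =>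
      bind (wtP n q (y.set k true) (y.set k true)) fun a1 =>
        bind (coinP (a1 / (a0 + a1))) fun c => .ret (y.set k c)

def sampleP (n : ℕ) (q : ℚ) (ρ : List (List ℚ)) (lam : ℚ) (L k : ℕ) : Prog Qy (List Bool) :=
  foldP (List.range (min k n)) (fun y i => liftP n q i ((ρ.getD i []).map fun r => lam * r) L y)
    (List.replicate n false)

def estP (n : ℕ) (q : ℚ) (ρ : List (List ℚ)) (lam : ℚ) (L k : ℕ) : Prog Qy ℕ :=
  bind (sampleP n q ρ lam L k) fun x =>
    bind (walkP n q k (ρ.getD k []) L x) fun y => optP n q k (ρ.getD k []) y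

def rowP (n : ℕ) (q : ℚ) (ρ : List (List ℚ)) (lam : ℚ) (L M k : ℕ) : Prog Qy (List ℚ) :=
  bind (rep M (estP n q ρ lam L k)) fun os => .ret ((List.range (min k n)).map fun j =>
    (ρ.getD k []).getD j 0 * (2 * (os.countP fun o => decide (o = 0) : ℕ)) /
      (os.countP fun o => decide (o = j + 1) : ℕ))

def ratioP (n : ℕ) (q κ : ℚ) (ρ : List (List ℚ)) (lam : ℚ) (L : ℕ) : Prog Qy Bool :=
  bind (sampleP n q ρ lam L n) fun x => bind (wtP n κ x x) coinP

/-! parameters, as functions of the size `m = n + e + 3` -/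

def kap (m : ℕ) : ℚ := 1 - 1 / (8 * m)
def lamb (m : ℕ) : ℚ := 1 / (2048 * m ^ 5)
def TT (m : ℕ) : ℕ := 8 * m ^ 2
def MM (m : ℕ) : ℕ := 2 ^ 23 * m ^ 10
def LL (m : ℕ) : ℕ := 2 ^ 31 * m ^ 14

def stageP (n m : ℕ) (s : List (List ℚ) × ℚ) (t : ℕ) : Prog Qy (List (List ℚ) × ℚ) :=
  bind (mapP (List.range n) (rowP n (kap m ^ min t (TT m)) s.1 (lamb m) (LL m) (MM m))) fun ρ' =>
    bind (rep (MM m) (ratioP n (kap m ^ min t (TT m)) (kap m) s.1 (lamb m) (LL m))) fun bs =>
      .ret (ρ', s.2 * (bs.countP fun b => b : ℕ) / MM m)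

def runP (n e : ℕ) : Prog Qy ℚ :=
  bind (foldP (List.range (TT (n + e + 3))) (stageP n (n + e + 3))
    (List.replicate n (List.replicate n 4), 2 ^ n)) fun s => .ret (if s.2 < 1 / 2 then 0 else s.2)

def mainP (n e l : ℕ) : Prog Qy ℚ := bind (rep (l + 1) (runP n e)) fun vs => .ret (median vs)

/-! the nullity function of the doubled matroid -/

variable {n : ℕ}

noncomputable def rk (M : Matroid (Fin n)) (X : Fin n → Bool) : ℕ :=
  (M.eRk {i | X i = true}).toNat

noncomputable def nul2 (M₁ M₂ : Matroid (Fin n)) (X Y : Fin n → Bool) : ℕ :=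
  ((Finset.univ.filter fun i => X i = true).card - rk M₁ X) + (rk M₂ (fun _ => true) - rk M₂ Y)

noncomputable def nul (M₁ M₂ : Matroid (Fin n)) (S : Finset (El n)) : ℕ :=
  nul2 M₁ M₂ (fun i => decide ((i, true) ∈ S)) fun i => decide ((i, false) ∉ S)

/-- the annealed weights -/
noncomputable def wq (M₁ M₂ : Matroid (Fin n)) (q : ℝ) (S : Finset (El n)) : ℝ := q ^ nul M₁ M₂ S

/-- a list of rationals as a real vector -/
def rr (n : ℕ) (ρ : List ℚ) : Fin n → ℝ := fun j => ((ρ.getD j 0 : ℚ) : ℝ)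

/-- the table `ρ` of weights is correct up to a factor `2` -/
def GoodRho (w : Finset (El n) → ℝ) (ρ : List (List ℚ)) : Prop :=
  (∀ k, ∀ r ∈ ρ.getD k [], 0 ≤ r) ∧ ∀ k j : Fin n, j < k →
    ZZ w k / 2 ≤ rr n (ρ.getD k []) j * WW w k j ∧ rr n (ρ.getD k []) j * WW w k j ≤ 2 * ZZ w k

end Vale.Agent.P317
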