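import Vale.Agent.P317.Prog

/-! Probability lemmas for programs (job Prob). -/

namespace Vale.Agent.P317

namespace Prog

variable {Q α β γ σ : Type} {O : Q → Bool}

lemma E_mapP_nil (f : γ → Prog Q β) (g : List β → ℝ) : E O (mapP [] f) g = g [] := rfl

lemma E_mapP_acc (l : List γ) (f : γ → Prog Q β) (acc : List β) (g : List β → ℝ) :
    E O (foldP l (fun acc c => bind (f c) fun b => .ret (acc ++ [b])) acc) g =
      E O (mapP l f) fun bs => g (acc ++ bs) := by
  induction l generalizing acc g with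
  | nil => simp [foldP, mapP]
  | cons c l ih =>
    rw [mapP]
    simp only [foldP, E_bind, E_ret, ih, List.nil_append, List.append_assoc]

lemma E_mapP_cons (c : γ) (l : List γ) (f : γ → Prog Q β) (g : List β → ℝ) :
    E O (mapP (c :: l) f) g = E O (f c) fun b => E O (mapP l f) fun bs => g (b :: bs) := by
  rw [mapP, foldP, E_bind, E_bind]
  simp only [E_ret, E_mapP_acc, List.nil_append, List.singleton_append]

lemma All_mapP (l : List γ) (f : γ → Prog Q β) (P : γ → β → Prop)
    (h : ∀ c ∈ l, All (P c) (f c)) : All (fun bs => List.Forall₂ P l bs) (mapP l f) := by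
  have key : ∀ acc : List β, All (fun bs => ∃ bs', bs = acc ++ bs' ∧ List.Forall₂ P l bs')
      (foldP l (fun acc c => bind (f c) fun b => .ret (acc ++ [b])) acc) := by
    induction l with
    | nil => intro acc; exact ⟨[], by simp, List.Forall₂.nil⟩
    | cons c l ih =>
      intro acc
      refine All.bind (P := fun s => ∃ b, P c b ∧ s = acc ++ [b])
        ((h c List.mem_cons_self).bind fun b hb => ⟨b, hb, rfl⟩) ?_
      rintro s ⟨b, hb, rfl⟩
      refine (ih (fun c hc => h c (List.mem_cons_of_mem _ hc)) _).mono ?_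
      rintro bs ⟨bs', rfl, h'⟩
      exact ⟨b :: bs', by simp, List.Forall₂.cons hb h'⟩
  refine (key []).mono ?_
  rintro bs ⟨bs', rfl, h'⟩
  exact h'

lemma All_rep_length (N : ℕ) (p : Prog Q β) : All (fun bs => bs.length = N) (rep N p) := by
  refine (All_mapP (List.range N) (fun _ => p) (fun _ _ => True) fun _ _ => All_true p).mono ?_
  intro bs h
  rw [← h.length_eq, List.length_range]

/-- a list of deterministic computations -/
lemma E_mapP_det (l : List γ) (f : γ → Prog Q β) (v : γ → β)
    (h : ∀ c ∈ l, ∀ g : β → ℝ, E O (f c) g = g (v c)) (g : List β → ℝ) :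
    E O (mapP l f) g = g (l.map v) := by
  induction l generalizing g with
  | nil => rfl
  | cons c l ih =>
    rw [E_mapP_cons, h c List.mem_cons_self, ih fun c hc => h c (List.mem_cons_of_mem _ hc)]
    rfl

lemma E_choose_aux (ws : List ℚ) (h0 : ∀ w ∈ ws, 0 ≤ w) (hs : 0 < ws.sum) (G : Option ℕ → ℝ)
    (k : ℕ) (hk : k ≤ ws.length) :
    E O (foldP (List.range k)
      (fun (s : Option ℕ) i => if s.isSome = true then .ret s else
        bind (coinP (ws.getD i 0 / (ws.drop i).sum))
          fun b => .ret (if b = true then some i else none)) none) G =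
      ∑ i ∈ Finset.range k, ((ws.getD i 0 : ℚ) : ℝ) / ((ws.sum : ℚ) : ℝ) * G (some i) +
        (((ws.drop k).sum : ℚ) : ℝ) / ((ws.sum : ℚ) : ℝ) * G none := by
  have hS : (0 : ℝ) < ((ws.sum : ℚ) : ℝ) := by exact_mod_cast hs
  induction k generalizing G with
  | zero =>
    rw [List.drop_zero, div_self hS.ne']
    simp [foldP]
  | succ k ih =>
    have hk' : k < ws.length := hk
    rw [E_foldP_range_succ, ih _ hk'.le, Finset.sum_range_succ]
    have e1 : ws.getD k 0 = ws[k] := List.getD_eq_getElem _ _ hk'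
    have e2 : (ws.drop k).sum = ws[k] + (ws.drop (k + 1)).sum := by
      rw [List.drop_eq_getElem_cons hk', List.sum_cons]
    have p1 : 0 ≤ ws[k] := h0 _ (List.getElem_mem hk')
    have p2 : 0 ≤ (ws.drop (k + 1)).sum :=
      List.sum_nonneg fun w hw => h0 w (List.mem_of_mem_drop hw)
    simp only [Option.isSome_some, if_true, E_ret, Option.isSome_none, Bool.false_eq_true,
      if_false, E_bind, E_coinP]
    rw [e1, e2]
    generalize ws[k] = a at p1 ⊢
    generalize (ws.drop (k + 1)).sum = b at p2 ⊢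
    rcases (add_nonneg p1 p2).eq_or_lt with hz | hz
    · have ha : a = 0 := by linarith
      have hb : b = 0 := by linarith
      simp [ha, hb]
    · rw [cl_eq (div_nonneg p1 hz.le) ((div_le_one hz).2 (by linarith))]
      have hz' : (0 : ℝ) < (a : ℝ) + b := by exact_mod_cast hz
      push_cast
      field_simp
      ring

lemma E_choose (ws : List ℚ) (h0 : ∀ w ∈ ws, 0 ≤ w) (hs : 0 < ws.sum) (g : ℕ → ℝ) :
    E O (choose ws) g =
      (∑ i ∈ Finset.range ws.length, ((ws.getD i 0 : ℚ) : ℝ) * g i) / ((ws.sum : ℚ) : ℝ) := by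
  have hS : (0 : ℝ) < ((ws.sum : ℚ) : ℝ) := by exact_mod_cast hs
  rw [choose, E_bind, E_choose_aux ws h0 hs _ _ le_rfl]
  simp [Finset.sum_div, div_mul_eq_mul_div]

lemma Pr_nonneg (p : Prog Q β) (G : β → Prop) : 0 ≤ Pr O p G := by
  refine E_nonneg O p fun b => ?_
  split_ifs <;> norm_num

lemma Pr_le_one (p : Prog Q β) (G : β → Prop) : Pr O p G ≤ 1 := by
  refine E_le_one O p fun b => ?_
  split_ifs <;> norm_num

lemma Pr_mono_all {P : β → Prop} {p : Prog Q β} (hp : All P p) {G G' : β → Prop}
    (h : ∀ b, P b → G b → G' b) : Pr O p G ≤ Pr O p G' := by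
  refine E_mono_all O hp fun b hb => ?_
  by_cases hG : G b
  · simp [hG, h b hb hG]
  · rw [if_neg hG]
    split_ifs <;> norm_num

lemma Pr_mono (p : Prog Q β) {G G' : β → Prop} (h : ∀ b, G b → G' b) : Pr O p G ≤ Pr O p G' := by
  exact Pr_mono_all (All_true p) fun b _ => h b

lemma Pr_bind_ret (p : Prog Q β) (f : β → γ) (G : γ → Prop) :
    Pr O (bind p fun b => .ret (f b)) G = Pr O p fun b => G (f b) := by
  simp only [Pr, E_bind, E_ret]

lemma le_E_of_Pr (p : Prog Q β) (G : β → Prop) (g : β → ℝ) {η : ℝ} (hη : 0 ≤ η)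
    (h : ∀ b, G b → 1 - η ≤ g b) (h0 : ∀ b, 0 ≤ g b) : Pr O p G - η ≤ E O p g := by
  have := E_const O p η
  rw [Pr, ← this, ← E_sub]
  refine E_mono O p fun b => ?_
  split_ifs with hb
  · exact h b hb
  · linarith [h0 b]

lemma Pr_bind {p : Prog Q β} {f : β → Prog Q γ} {G : β → Prop} {G' : γ → Prop} {η η' : ℝ}
    (h : 1 - η ≤ Pr O p G) (h' : ∀ b, G b → 1 - η' ≤ Pr O (f b) G') (hη : 0 ≤ η') :
    1 - η - η' ≤ Pr O (bind p f) G' := by
  have h1 := le_E_of_Pr (O := O) p G (fun b => Pr O (f b) G') hη h' fun b => Pr_nonneg _ _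
  have h2 : Pr O (bind p f) G' = E O p fun b => Pr O (f b) G' := by
    simp only [Pr, E_bind]
  linarith

/-- union bound -/
lemma Pr_union {ι : Type} (s : Finset ι) (p : Prog Q β) (bad : ι → β → Prop) :
    1 - ∑ i ∈ s, Pr O p (bad i) ≤ Pr O p fun b => ∀ i ∈ s, ¬ bad i b := by
  have e := E_sub O p (fun _ => 1)
    fun b => ∑ i ∈ s, (open Classical in if bad i b then (1 : ℝ) else 0)
  rw [E_const, E_sum] at e
  simp only [Pr]
  rw [← e]
  refine E_mono O p fun b => ?_
  have hn : ∀ i ∈ s, (0 : ℝ) ≤ (open Classical in if bad i b then 1 else 0) := fun i _ => by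
    split_ifs <;> norm_num
  split_ifs with hb
  · linarith [Finset.sum_nonneg hn]
  · push Not at hb
    obtain ⟨i, hi, hb⟩ := hb
    have := Finset.single_le_sum hn hi
    rw [if_pos hb] at this
    linarith

lemma Pr_mapP (l : List γ) (f : γ → Prog Q β) (G : γ → β → Prop) {η : ℝ} (hη : 0 ≤ η)
    (h : ∀ c ∈ l, 1 - η ≤ Pr O (f c) (G c)) :
    1 - l.length * η ≤ Pr O (mapP l f) fun bs => List.Forall₂ G l bs := by
  induction l with
  | nil => simp [Pr, E_mapP_nil]
  | cons c l ih =>
    have ih' := ih fun c hc => h c (List.mem_cons_of_mem _ hc)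
    have h1 := le_E_of_Pr (O := O) (f c) (G c)
      (fun b => Pr O (mapP l f) fun bs => List.Forall₂ G (c :: l) (b :: bs))
      (η := l.length * η) (by positivity)
      (fun b hb => ih'.trans (Pr_mono _ fun bs hbs => List.Forall₂.cons hb hbs))
      fun b => Pr_nonneg _ _
    have h2 := h c List.mem_cons_self
    have h3 : Pr O (mapP (c :: l) f) (fun bs => List.Forall₂ G (c :: l) bs) =
        E O (f c) fun b => Pr O (mapP l f) fun bs => List.Forall₂ G (c :: l) (b :: bs) := by
      simp only [Pr, E_mapP_cons]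
    rw [h3, List.length_cons]
    push_cast
    linarith

lemma Pr_foldP_range (T : ℕ) (f : σ → ℕ → Prog Q σ) (I : ℕ → σ → Prop) {η : ℝ} (hη : 0 ≤ η)
    (h : ∀ t < T, ∀ s, I t s → 1 - η ≤ Pr O (f s t) (I (t + 1))) (s : σ) (hs : I 0 s) :
    1 - T * η ≤ Pr O (foldP (List.range T) f s) (I T) := by
  induction T with
  | zero => simp [Pr, foldP, hs]
  | succ T ih =>
    have ih' := ih fun t ht => h t (by omega)
    have h1 := le_E_of_Pr (O := O) (foldP (List.range T) f s) (I T)
      (fun s' => Pr O (f s' T) (I (T + 1))) hη (h T (by omega)) fun b => Pr_nonneg _ _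
    have h3 : Pr O (foldP (List.range (T + 1)) f s) (I (T + 1)) =
        E O (foldP (List.range T) f s) fun s' => Pr O (f s' T) (I (T + 1)) := by
      simp only [Pr, E_foldP_range_succ]
    rw [h3]
    push_cast
    linarith

lemma second_moment (p : Prog Q β) (f : β → Bool) (l : List γ) (c : ℝ) :
    E O (mapP l fun _ => p) (fun bs =>
      (c + (bs.countP f : ℝ) - l.length * Pr O p fun b => f b = true) ^ 2) ≤ c ^ 2 + l.length := by
  have m0 := Pr_nonneg (O := O) p fun b => f b = true
  have m1 := Pr_le_one (O := O) p fun b => f b = true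
  have hμ : E O p (fun b => if f b = true then 1 else 0) = Pr O p fun b => f b = true := by
    unfold Pr
    congr 1
    funext b
    congr 1
  generalize Pr O p (fun b => f b = true) = μ at m0 m1 hμ ⊢
  induction l generalizing c with
  | nil => simp [E_mapP_nil]
  | cons a l ih =>
    rw [E_mapP_cons]
    have h1 : ∀ b, E O (mapP l fun _ => p) (fun bs =>
        (c + ((b :: bs).countP f : ℝ) - (a :: l).length * μ) ^ 2) ≤
        2 * c * (if f b = true then 1 else 0) + (c ^ 2 - 2 * c * μ + 1 + l.length) := by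
      intro b
      have h2 := ih (c + (if f b = true then 1 else 0) - μ)
      refine le_trans (le_of_eq ?_) (h2.trans ?_)
      · congr 1
        funext bs
        rw [List.countP_cons, List.length_cons]
        push_cast
        ring
      · split_ifs <;> nlinarith
    refine (E_mono O p h1).trans (le_of_eq ?_)
    rw [E_add, E_mul, E_const, hμ, List.length_cons]
    push_cast
    ring

/-- Chebyshev's inequality for empirical frequencies -/
lemma cheb (p : Prog Q β) (f : β → Bool) {N : ℕ} (hN : 0 < N) {ζ : ℝ} (hζ : 0 < ζ) :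
    Pr O (rep N p) (fun bs => ζ < |(bs.countP f : ℝ) / N - Pr O p fun b => f b = true|) ≤
      1 / (N * ζ ^ 2) := by
  have hN' : (0 : ℝ) < N := by exact_mod_cast hN
  have h1 := second_moment (O := O) p f (List.range N) 0
  rw [List.length_range] at h1
  set μ := Pr O p fun b => f b = true
  have h2 : Pr O (rep N p) (fun bs => ζ < |(bs.countP f : ℝ) / N - μ|) ≤
      E O (rep N p) fun bs => 1 / (N * ζ) ^ 2 * (0 + (bs.countP f : ℝ) - N * μ) ^ 2 := by
    refine E_mono O _ fun bs => ?_
    split_ifs with hb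
    · have e : (0 + (bs.countP f : ℝ) - N * μ) = N * ((bs.countP f : ℝ) / N - μ) := by
        field_simp
        ring
      rw [e, one_div_mul_eq_div, one_le_div (by positivity), mul_pow, mul_pow]
      gcongr ?_ * ?_
      rw [← sq_abs ((bs.countP f : ℝ) / N - μ)]
      gcongr
    · positivity
  rw [E_mul] at h2
  refine h2.trans ((mul_le_mul_of_nonneg_left h1 (by positivity)).trans (le_of_eq ?_))
  field_simp
  ring

lemma median_spec (vs : List ℚ) (h : 0 < vs.length) :
    vs.length ≤ 2 * vs.countP (fun u => decide (u ≤ median vs)) ∧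
      vs.length ≤ 2 * vs.countP (fun u => decide (median vs ≤ u)) := by
  have hne : vs.toFinset.Nonempty := by
    obtain ⟨v, hv⟩ := List.exists_mem_of_length_pos h
    exact ⟨v, List.mem_toFinset.2 hv⟩
  have hS : (vs.toFinset.filter fun v =>
      vs.length ≤ 2 * vs.countP fun u => decide (u ≤ v)).Nonempty := by
    refine ⟨vs.toFinset.max' hne, Finset.mem_filter.2 ⟨Finset.max'_mem _ _, ?_⟩⟩
    rw [List.countP_eq_length.2 fun u hu => by
      simpa using Finset.le_max' _ u (List.mem_toFinset.2 hu)]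
    omega
  obtain ⟨v, hv, hmin⟩ := Finset.exists_min_image _ (fun v : ℚ => v) hS
  obtain ⟨hv1, hv2⟩ := Finset.mem_filter.1 hv
  have hv3 : vs.length ≤ 2 * vs.countP fun u => decide (v ≤ u) := by
    by_contra hc
    have e := List.length_eq_countP_add_countP (fun u => decide (v ≤ u)) (l := vs)
    have hpos : 0 < vs.countP fun u => decide ¬ (decide (v ≤ u) = true) := by omega
    obtain ⟨u, hu, hu'⟩ := List.countP_pos_iff.1 hpos
    have hT : (vs.toFinset.filter fun u => u < v).Nonempty :=
      ⟨u, Finset.mem_filter.2 ⟨List.mem_toFinset.2 hu, by simpa using hu'⟩⟩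
    obtain ⟨w, hw, hmax⟩ := Finset.exists_max_image _ (fun v : ℚ => v) hT
    obtain ⟨hw1, hw2⟩ := Finset.mem_filter.1 hw
    have hle : (vs.countP fun u => decide ¬ (decide (v ≤ u) = true)) ≤
        vs.countP fun u => decide (u ≤ w) := List.countP_mono_left fun x hx hx' => by
      simpa using hmax x (Finset.mem_filter.2 ⟨List.mem_toFinset.2 hx, by simpa using hx'⟩)
    have := hmin w (Finset.mem_filter.2 ⟨hw1, by omega⟩)
    exact absurd hw2 (not_lt.2 this)
  unfold median
  cases hf : vs.find? fun v => decide (vs.length ≤ 2 * vs.countP fun u => decide (u ≤ v)) &&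
      decide (vs.length ≤ 2 * vs.countP fun u => decide (v ≤ u)) with
  | none =>
    have := List.find?_eq_none.1 hf v (List.mem_toFinset.1 hv1)
    simp [hv2, hv3] at this
  | some x => simpa using List.find?_some hf

lemma exp_moment (p : Prog Q β) (G : β → Prop) (h : 14 / 15 ≤ Pr O p G) (f : β → Bool)
    (hf : ∀ b, f b = true ↔ ¬ G b) (l : List γ) :
    E O (mapP l fun _ => p) (fun bs => 16 ^ bs.countP f) ≤ 2 ^ l.length := by
  classical
  induction l with
  | nil => simp [E_mapP_nil]
  | cons a l ih =>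
    rw [E_mapP_cons]
    have h1 : ∀ b, E O (mapP l fun _ => p)
        (fun bs => 16 ^ (b :: bs).countP f) ≤
        2 ^ l.length * (16 - 15 * if G b then 1 else 0) := by
      intro b
      by_cases hb : G b
      · simp only [List.countP_cons, hf, hb, not_true, if_false, add_zero, if_true]
        linarith
      · simp only [List.countP_cons, hf, hb, not_false_iff, if_true, if_false, pow_succ,
          mul_comm _ (16 : ℝ), E_mul]
        linarith
    refine (E_mono O p h1).trans ?_
    rw [E_mul, E_sub, E_const, E_mul, List.length_cons, pow_succ]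
    unfold Pr at h
    gcongr
    linarith

/-- the median trick -/
lemma amplify (p : Prog Q ℚ) (lo hi : ℚ) (h : 14 / 15 ≤ Pr O p fun v => lo ≤ v ∧ v ≤ hi)
    {s : ℕ} (hs : 0 < s) :
    1 - (1 / 2 : ℝ) ^ s ≤
      Pr O (bind (rep s p) fun vs => .ret (median vs)) fun v => lo ≤ v ∧ v ≤ hi := by
  have h1 := exp_moment (O := O) p (fun v => lo ≤ v ∧ v ≤ hi) h
    (fun v => decide ¬ (lo ≤ v ∧ v ≤ hi)) (fun _ => decide_eq_true_iff) (List.range s)
  rw [List.length_range] at h1
  rw [Pr_bind_ret]
  have h2 : E O (rep s p) (fun vs => 1 - (1 / 4 : ℝ) ^ s *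
      16 ^ vs.countP fun v => decide ¬ (lo ≤ v ∧ v ≤ hi)) ≤
      Pr O (rep s p) fun vs => lo ≤ median vs ∧ median vs ≤ hi := by
    refine E_mono_all O (All_rep_length s p) fun vs hvs => ?_
    split_ifs with hb
    · have : 0 ≤ (1 / 4 : ℝ) ^ s * 16 ^ vs.countP fun v => decide ¬ (lo ≤ v ∧ v ≤ hi) := by
        positivity
      linarith
    · obtain ⟨m1, m2⟩ := median_spec vs (by omega)
      have h3 : s ≤ 2 * vs.countP fun v => decide ¬ (lo ≤ v ∧ v ≤ hi) := by
        rw [← hvs]
        rcases not_and_or.1 hb with hb | hb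
        · refine m1.trans (Nat.mul_le_mul_left _ (List.countP_mono_left fun u _ hu => ?_))
          simp only [decide_eq_true_eq] at hu ⊢
          exact fun h' => hb (h'.1.trans hu)
        · refine m2.trans (Nat.mul_le_mul_left _ (List.countP_mono_left fun u _ hu => ?_))
          simp only [decide_eq_true_eq] at hu ⊢
          exact fun h' => hb (hu.trans h'.2)
      have h4 : (4 : ℝ) ^ s ≤ 16 ^ vs.countP fun v => decide ¬ (lo ≤ v ∧ v ≤ hi) := by
        rw [show (16 : ℝ) = 4 ^ 2 by norm_num, ← pow_mul]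
        exact pow_le_pow_right₀ (by norm_num) h3
      have h5 : (1 / 4 : ℝ) ^ s * 4 ^ s = 1 := by rw [← mul_pow]; norm_num
      have h6 := mul_le_mul_of_nonneg_left h4 (show 0 ≤ (1 / 4 : ℝ) ^ s by positivity)
      linarith
  rw [E_sub, E_const, E_mul] at h2
  have h7 := mul_le_mul_of_nonneg_left h1 (show 0 ≤ (1 / 4 : ℝ) ^ s by positivity)
  have h8 : (1 / 4 : ℝ) ^ s * 2 ^ s = (1 / 2) ^ s := by rw [← mul_pow]; norm_num
  unfold rep at h2 ⊢
  linarith

end Prog

end Vale.Agent.P317
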