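import Vale.Agent.P317.Run
import Vale.Agent.P317.Prob

/-! Closure properties of `PP` (job PP). -/

namespace Vale.Agent.P317

open Vale.Agent.PT

attribute [local irreducible] PTime PB

namespace Prog

section Sem

variable {Q β γ σ : Type}

lemma run_bind (B : ℕ) (p : Prog Q β) (f : β → Prog Q γ) (s : List Bool × List Bool) :
    run B (bind p f) s = (run B p s).2.elim ((run B p s).1, none) fun x => run B (f x.1) x.2 := by
  induction p generalizing s with
  | ret b => rfl
  | ask q k ih =>
    obtain ⟨r, as⟩ := s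
    cases as with
    | nil => rfl
    | cons a as => simp only [bind, run, lcas_cons, ih]
  | coin p k ih => simp only [bind, run, ih]

lemma run_fst_none (B : ℕ) (p : Prog Q β) (s : List Bool × List Bool)
    {x : β × List Bool × List Bool} (h : (run B p s).2 = some x) : (run B p s).1 = none := by
  induction p generalizing s with
  | ret b => rfl
  | ask q k ih =>
    obtain ⟨r, as⟩ := s
    cases as with
    | nil => simp [run] at h
    | cons a as => exact ih _ _ h
  | coin p k ih => exact ih _ _ h

lemma run_all (B : ℕ) {P : β → Prop} {p : Prog Q β} (hp : All P p) (s : List Bool × List Bool)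
    {x : β × List Bool × List Bool} (h : (run B p s).2 = some x) : P x.1 ∧ sz x.2 ≤ sz s := by
  induction p generalizing s with
  | ret b =>
    obtain rfl : (b, s) = x := Option.some.inj h
    exact ⟨hp, le_rfl⟩
  | ask q k ih =>
    obtain ⟨r, as⟩ := s
    cases as with
    | nil => simp [run] at h
    | cons a as =>
      obtain ⟨h1, h2⟩ := ih a (hp a) (r, as) h
      refine ⟨h1, h2.trans ?_⟩
      simp only [sz_prod, sz_cons]
      omega
  | coin p k ih =>
    obtain ⟨r, as⟩ := s
    obtain ⟨h1, h2⟩ := ih _ (hp _) _ h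
    refine ⟨h1, h2.trans ?_⟩
    have := sz_sublist (List.drop_sublist B r)
    simp only [sz_prod]
    omega

/-- one round of a loop on the replay state -/
def rstep (B : ℕ) (f : σ → γ → Prog Q σ) (st : Option Q × Option (σ × List Bool × List Bool))
    (c : γ) : Option Q × Option (σ × List Bool × List Bool) :=
  st.2.elim st fun x => run B (f x.1 c) x.2

lemma foldl_rstep_none (B : ℕ) (f : σ → γ → Prog Q σ) (l : List γ) (o : Option Q) :
    l.foldl (rstep B f) (o, none) = (o, none) := by
  induction l with
  | nil => rfl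
  | cons c l ih => exact ih

lemma run_foldP (B : ℕ) (f : σ → γ → Prog Q σ) (l : List γ) (s0 : σ) (s : List Bool × List Bool) :
    run B (foldP l f s0) s = l.foldl (rstep B f) (none, some (s0, s)) := by
  induction l generalizing s0 s with
  | nil => rfl
  | cons c l ih =>
    rw [foldP, run_bind, List.foldl_cons]
    have e : rstep B f (none, some (s0, s)) c = run B (f s0 c) s := rfl
    rw [e]
    cases h : (run B (f s0 c) s).2 with
    | none =>
      have e2 : run B (f s0 c) s = ((run B (f s0 c) s).1, none) := Prod.ext rfl h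
      rw [e2, foldl_rstep_none]
      rfl
    | some x =>
      have e2 : run B (f s0 c) s = (none, some x) := Prod.ext (run_fst_none B _ _ h) h
      rw [e2]
      exact ih _ _

lemma depth_foldP_le (l : List γ) (f : σ → γ → Prog Q σ) (I : ℕ → σ → Prop) (N D : ℕ)
    (h : ∀ k s, ∀ c ∈ l, I k s → All (I (k + 1)) (f s c))
    (hD : ∀ k s, ∀ c ∈ l, k ≤ N → I k s → depth (f s c) ≤ D) :
    ∀ k s, k + l.length ≤ N → I k s → depth (foldP l f s) ≤ l.length * D := by
  induction l with
  | nil => intro k s _ _; simp [foldP, depth]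
  | cons c l ih =>
    intro k s hk hs
    rw [List.length_cons] at hk
    have h1 := depth_bind_le (h k s c List.mem_cons_self hs) (f := fun s' => foldP l f s')
      (D := l.length * D) fun s' hs' => ih (fun k s c hc => h k s c (List.mem_cons_of_mem _ hc))
        (fun k s c hc => hD k s c (List.mem_cons_of_mem _ hc)) (k + 1) s' (by omega) hs'
    have h2 := hD k s c List.mem_cons_self (by omega) hs
    rw [foldP, List.length_cons, add_mul]
    omega

end Sem

variable {Q α β γ σ : Type} [TEnc Q] [TEnc α] [TEnc β] [TEnc γ] [TEnc σ]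

lemma PB.exists_poly {g : α → ℕ} (h : PB g) : ∃ p : Polynomial ℕ, ∀ a, g a ≤ p.eval (sz a) := by
  unfold PB at h
  exact h

omit [TEnc γ] in
lemma foldl_rstep_sz (B : ℕ) (f : σ → γ → Prog Q σ) (L : List γ) (I : ℕ → σ → Prop) (N R Bd : ℕ)
    (h : ∀ k s, ∀ c ∈ L, I k s → All (I (k + 1)) (f s c))
    (hB : ∀ k s, ∀ c ∈ L, ∀ r : List Bool × List Bool, k ≤ N → I k s → sz r ≤ R →
      sz (run B (f s c) r) ≤ Bd) (t : List γ) (ht : ∀ c ∈ t, c ∈ L) :
    ∀ k st, k + t.length ≤ N → sz st ≤ Bd → (∀ x, st.2 = some x → I k x.1 ∧ sz x.2 ≤ R) →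
      sz (t.foldl (rstep B f) st) ≤ Bd := by
  induction t with
  | nil => intro k st _ h1 _; exact h1
  | cons c t ih =>
    intro k st hk h1 h2
    rw [List.length_cons] at hk
    have hc := ht c List.mem_cons_self
    rw [List.foldl_cons]
    refine ih (fun c hc => ht c (List.mem_cons_of_mem _ hc)) (k + 1) _ (by omega) ?_ ?_
    · unfold rstep
      cases hst : st.2 with
      | none => exact h1
      | some x => exact hB k x.1 c hc x.2 (by omega) (h2 x hst).1 (h2 x hst).2
    · intro y hy
      unfold rstep at hy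
      cases hst : st.2 with
      | none =>
        rw [hst] at hy
        simp only [Option.elim_none, hst] at hy
        cases hy
      | some x =>
        rw [hst] at hy
        obtain ⟨h3, h4⟩ := run_all B (h k x.1 c hc (h2 x hst).1) x.2 hy
        exact ⟨h3, h4.trans (h2 x hst).2⟩

lemma PP.of_eq {P P' : α → Prog Q β} (h : PP P) (e : ∀ a, P a = P' a) : PP P' :=
  funext e ▸ h

lemma PP.ret {f : α → β} (hf : PTime f) : PP fun a => (.ret (f a) : Prog Q β) := by
  refine ⟨?_, PB.const 0, fun a => sz (f a), hf.sz_PB, fun a => le_rfl⟩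
  refine PTime.of_eq (f := fun z : α × List Unit × List Bool × List Bool =>
    ((none : Option Q), some (f z.1, z.2.2))) ?_ fun z => rfl
  fun_prop

lemma PP.comp {P : β → Prog Q γ} (hP : PP P) {f : α → β} (hf : PTime f) :
    PP fun a => P (f a) := by
  obtain ⟨s, hs, hs'⟩ := hP.leaf
  refine ⟨?_, hP.dep.comp hf, fun a => s (f a), hs.comp hf, fun a => hs' _⟩
  exact hP.time.comp (f := fun z : α × List Unit × List Bool × List Bool => (f z.1, z.2))
    (by fun_prop)

lemma PP.bind {P : α → Prog Q β} {F : α → β → Prog Q γ} (hP : PP P)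
    (hF : PP fun z : α × β => F z.1 z.2) : PP fun a => bind (P a) (F a) := by
  obtain ⟨s, hs, hs'⟩ := hP.leaf
  obtain ⟨s2, hs2, hs2'⟩ := hF.leaf
  obtain ⟨q, hq⟩ := PB.exists_poly hF.dep
  obtain ⟨q2, hq2⟩ := PB.exists_poly hs2
  have hz := PB.sz_id (α := α)
  refine ⟨?_, ?_, fun a => q2.eval (sz a + s a + 1), by fun_prop, fun a => ?_⟩
  · refine PTime.of_eq ?_ fun z => (run_bind _ _ _ _).symm
    refine PTime.option_elim hP.time.snd (hP.time.fst.prodMk (PTime.const _)) ?_
    exact hF.time.comp (f := fun p : (α × List Unit × List Bool × List Bool) × β × List Bool ×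
      List Bool => ((p.1.1, p.2.1), p.1.2.1, p.2.2)) (by fun_prop)
  · refine PB.of_le (g := fun a => depth (P a) + q.eval (sz a + s a + 1))
      (hP.dep.add (by fun_prop)) fun a => depth_bind_le (hs' a) fun b hb => ?_
    refine (hq (a, b)).trans (eval_mono q ?_)
    rw [sz_prod]
    omega
  · refine (hs' a).bind fun b hb => (hs2' (a, b)).mono fun c hc => hc.trans ?_
    refine (hq2 (a, b)).trans (eval_mono q2 ?_)
    rw [sz_prod]
    omega

lemma PP.askP {q : α → Q} (hq : PTime q) : PP fun a => askP (q a) := by
  refine ⟨?_, (PB.const 1).of_le fun a => le_rfl, fun _ => 3, PB.const 3,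
    fun a b => sz_bool_le b⟩
  refine PTime.of_eq (f := fun z : α × List Unit × List Bool × List Bool =>
    lcas z.2.2.2 (some (q z.1), (none : Option (Bool × List Bool × List Bool)))
      fun a as => (none, some (a, z.2.2.1, as))) ?_ fun z => rfl
  fun_prop

lemma PP.coinP {p : α → ℚ} (hp : PTime p) : PP fun a => (coinP (p a) : Prog Q Bool) := by
  refine ⟨?_, (PB.const 1).of_le fun a => le_rfl, fun _ => 3, PB.const 3,
    fun a b => sz_bool_le b⟩
  refine PTime.of_eq (f := fun z : α × List Unit × List Bool × List Bool =>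
    ((none : Option Q), some (decide ((val (z.2.2.1.take z.2.1.length) : ℚ) <
      p z.1 * 2 ^ z.2.1.length), z.2.2.1.drop z.2.1.length, z.2.2.2))) ?_ fun z => rfl
  fun_prop

lemma PP.ite {c : α → Prop} {inst : ∀ a, Decidable (c a)} {P P' : α → Prog Q β}
    (hc : PTime fun a => decide (c a)) (hP : PP P) (hP' : PP P') :
    PP fun a => if c a then P a else P' a := by
  obtain ⟨s, hs, hs'⟩ := hP.leaf
  obtain ⟨s2, hs2, hs2'⟩ := hP'.leaf
  refine ⟨?_, (hP.dep.add hP'.dep).of_le fun a => ?_, fun a => s a + s2 a, hs.add hs2,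
    fun a => ?_⟩
  · refine PTime.of_eq (PTime.ite (p := fun z : α × List Unit × List Bool × List Bool => c z.1)
      (inst := fun z => inst z.1) (hc.comp PTime.fst_id) hP.time hP'.time) fun z => ?_
    split_ifs <;> rfl
  · split_ifs <;> omega
  · split_ifs
    · exact (hs' a).mono fun b hb => hb.trans (Nat.le_add_right _ _)
    · exact (hs2' a).mono fun b hb => hb.trans (Nat.le_add_left _ _)

/-- loops: `I a k s` is an invariant after `k` rounds which bounds the size of the state -/
lemma PP.foldP {l : α → List γ} {F : α → σ → γ → Prog Q σ} {i : α → σ} (hl : PTime l)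
    (hi : PTime i) (hF : PP fun z : α × σ × γ => F z.1 z.2.1 z.2.2) (I : α → ℕ → σ → Prop)
    (B : α → ℕ) (hB : PB B) (h0 : ∀ a, I a 0 (i a))
    (h1 : ∀ a k s, ∀ c ∈ l a, I a k s → All (I a (k + 1)) (F a s c))
    (h2 : ∀ a k s, k ≤ (l a).length → I a k s → sz s ≤ B a) :
    PP fun a => foldP (l a) (F a) (i a) := by
  obtain ⟨q, hq⟩ := PB.exists_poly hF.dep
  obtain ⟨q2, hq2⟩ := PB.exists_poly hF.time.sz_PB
  have hz := PB.sz_id (α := α)
  have hls := hl.sz_PB
  refine ⟨?_, ?_, B, hB, fun a => ?_⟩
  · refine PTime.of_eq ?_ fun z => (run_foldP _ _ _ _ _).symm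
    have hz' := PB.sz_id (α := α × List Unit × List Bool × List Bool)
    have hB' : PB fun z : α × List Unit × List Bool × List Bool => B z.1 := hB.comp PTime.fst_id
    have hls' : PB fun z : α × List Unit × List Bool × List Bool => sz (l z.1) :=
      hls.comp PTime.fst_id
    refine PTime.foldl (f := fun z : α × List Unit × List Bool × List Bool =>
      rstep z.2.1.length (F z.1)) (hl.comp PTime.fst_id) (by fun_prop) ?_
      (fun z => q2.eval (sz z + B z.1 + sz (l z.1) + 2) + (B z.1 + sz z + 5))
      (((((hz'.add hB').add hls').add (PB.const 2)).eval q2).add ((hB'.add hz').add (PB.const 5)))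
      fun z k => ?_
    · unfold rstep
      refine PTime.option_elim (by fun_prop) (by fun_prop) ?_
      exact hF.time.comp (f := fun p : ((α × List Unit × List Bool × List Bool) ×
        (Option Q × Option (σ × List Bool × List Bool)) × γ) × σ × List Bool × List Bool =>
          ((p.1.1.1, p.2.1, p.1.2.2), p.1.1.2.1, p.2.2)) (by fun_prop)
    · obtain ⟨a, u, r⟩ := z
      refine foldl_rstep_sz _ _ (l a) (I a) (l a).length (sz r) _ (h1 a) ?_ _
        (fun c hc => List.mem_of_mem_take hc) 0 _ ?_ ?_ ?_
      · intro k s c hc r' hk hs hr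
        refine le_trans ((hq2 ((a, s, c), u, r')).trans (eval_mono q2 ?_)) (Nat.le_add_right _ _)
        have := h2 a k s hk hs
        have := sz_le_of_mem hc
        simp only [sz_prod]
        omega
      · simp
      · have := h2 a 0 (i a) (Nat.zero_le _) (h0 a)
        simp only [sz_prod, sz_some, sz_none]
        omega
      · intro x hx
        obtain rfl : (i a, r) = x := Option.some.inj hx
        exact ⟨h0 a, le_rfl⟩
  · refine PB.of_le (g := fun a => (l a).length * q.eval (sz a + B a + sz (l a) + 2))
      (by fun_prop) fun a => ?_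
    refine depth_foldP_le (l a) (F a) (I a) (l a).length _ (h1 a) ?_ 0 _ (by omega) (h0 a)
    intro k s c hc hk hs
    refine (hq (a, s, c)).trans (eval_mono q ?_)
    have := h2 a k s hk hs
    have := sz_le_of_mem hc
    simp only [sz_prod]
    omega
  · exact (All_foldP (l a) (F a) (I a) (h1 a) 0 _ (h0 a)).mono fun s hs =>
      h2 a _ s (by omega) hs

lemma PP.mapP {l : α → List γ} {F : α → γ → Prog Q β} (hl : PTime l)
    (hF : PP fun z : α × γ => F z.1 z.2) : PP fun a => mapP (l a) (F a) := by
  obtain ⟨s, hs, hs'⟩ := hF.leaf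
  obtain ⟨S, hS, hS'⟩ := PB.exists_mem_bound hl hs
  refine PP.foldP (F := fun a (acc : List β) c => Prog.bind (F a c) fun b => .ret (acc ++ [b]))
    (i := fun _ => []) hl (PTime.const _) ?_ (fun a k acc => sz acc ≤ k * (S a + 1) + 1)
    (fun a => (l a).length * (S a + 1) + 1) (by fun_prop) (fun a => by simp) ?_ ?_
  · refine PP.bind (P := fun z : α × List β × γ => F z.1 z.2.2)
      (F := fun z b => .ret (z.2.1 ++ [b])) ?_ ?_
    · exact hF.comp (f := fun z : α × List β × γ => (z.1, z.2.2)) (by fun_prop)
    · exact PP.ret (by fun_prop)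
  · intro a k acc c hc hacc
    refine (hs' (a, c)).bind fun b hb => ?_
    have h1 := hS' a c hc
    have h2 := sz_append acc [b]
    simp only [sz_cons, sz_nil] at h2
    simp only [All_ret, add_mul]
    omega
  · intro a k acc hk hacc
    exact hacc.trans (by gcongr)

lemma PP.rep {N : α → ℕ} {P : α → Prog Q β} (hN : PTime N) (hB : PB N) (hP : PP P) :
    PP fun a => rep (N a) (P a) :=
  PP.mapP (F := fun a (_ : ℕ) => P a) (hN.range hB) (hP.comp PTime.fst_id)

lemma PP.choose {ws : α → List ℚ} (hws : PTime ws) :
    PP fun a => (choose (ws a) : Prog Q ℕ) := by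
  unfold Prog.choose
  refine PP.bind (F := fun _ (s : Option ℕ) => .ret (s.getD 0)) ?_ (PP.ret (by fun_prop))
  refine PP.foldP (F := fun a (s : Option ℕ) i => if s.isSome = true then .ret s else
      Prog.bind (Prog.coinP ((ws a).getD i 0 / ((ws a).drop i).sum))
        fun b => .ret (if b = true then some i else none)) (i := fun _ => none) (by fun_prop)
      (PTime.const _) ?_ (fun a _ s => sz s ≤ 4 * (ws a).length + 3)
      (fun a => 4 * (ws a).length + 3) (by fun_prop) (fun a => by simp) ?_ fun a k s _ h => h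
  · refine PP.ite (by fun_prop) (PP.ret (by fun_prop)) ?_
    refine PP.bind (F := fun (z : α × Option ℕ × ℕ) (b : Bool) =>
      .ret (if b = true then some z.2.2 else none)) (PP.coinP (by fun_prop)) (PP.ret (by fun_prop))
  · intro a k s i hi hs
    split_ifs
    · exact hs
    · refine All.bind' _ fun b => ?_
      have h1 := sz_nat_le_self i
      rw [List.mem_range] at hi
      rw [All_ret]
      split_ifs
      · rw [sz_some]; omega
      · rw [sz_none]; omega

lemma ptime_median : PTime median := by
  unfold median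
  fun_prop

end Prog

end Vale.Agent.P317
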