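import Vale.Agent.P317.Algo
import Vale.Agent.P317.PP

/-! The algorithm is a polynomial-time program (job AlgoPP). -/

namespace Vale.Agent.P317

open Prog Vale.Agent.PT

attribute [local irreducible] PTime PB

section

variable {α : Type} [TEnc α] {u v w : α → List Unit} {X Y : α → List Bool} {q κ lam : α → ℚ}
  {k : α → ℕ} {ρ : α → List ℚ} {R : α → List (List ℚ)}

@[fun_prop] lemma pb_min {f g : α → ℕ} (hg : PB g) : PB fun a => min (f a) (g a) :=
  hg.of_le fun _ => min_le_right _ _

lemma sz_bits_le {s : List Bool} {n : ℕ} (h : s.length = n) : sz s ≤ n * 4 + 1 :=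
  h ▸ sz_list_le s fun b _ => sz_bool_le b

lemma pp_rankP {b : α → Bool} (hu : PTime u) (hb : PTime b) (hX : PTime X) :
    PP fun a => rankP (b a) (u a).length (X a) := by
  unfold rankP
  refine PP.bind (PP.foldP (by fun_prop) (by fun_prop) ?_ (fun a _ s => s.length = (u a).length)
    (fun a => (u a).length * 4 + 1) (by fun_prop) (fun a => by simp) (fun a k s c _ hs => ?_)
    fun a k s _ hs => sz_bits_le hs) (PP.ret (by fun_prop))
  · exact PP.ite (by fun_prop) (PP.bind (PP.askP (by fun_prop)) (PP.ret (by fun_prop)))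
      (PP.ret (by fun_prop))
  · split_ifs
    · refine All.bind' _ fun b => ?_
      rw [All_ret]
      split_ifs <;> simp [hs]
    · exact hs

lemma pp_nulP (hu : PTime u) (hX : PTime X) (hY : PTime Y) :
    PP fun a => nulP (u a).length (X a) (Y a) := by
  unfold nulP
  refine PP.bind (pp_rankP hu (by fun_prop) hX) (PP.bind (pp_rankP ?_ ?_ ?_)
    (PP.bind (pp_rankP ?_ ?_ ?_) (PP.ret ?_))) <;> fun_prop

lemma pp_wtP (hu : PTime u) (hq : PTime q) (hX : PTime X) (hY : PTime Y) :
    PP fun a => wtP (u a).length (q a) (X a) (Y a) := by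
  unfold wtP
  refine PP.bind (pp_nulP hu hX hY) (PP.ret ?_)
  fun_prop

lemma pp_optW (hu : PTime u) (hq : PTime q) (hk : PTime k) (hρ : PTime ρ) (hX : PTime X) :
    PP fun a => optW (u a).length (q a) (k a) (ρ a) (X a) := by
  unfold optW
  refine PP.bind (pp_wtP hu hq ?_ ?_) (PP.bind (pp_wtP ?_ ?_ ?_ ?_)
    (PP.bind (PP.mapP ?_ (PP.bind (pp_wtP ?_ ?_ ?_ ?_) (PP.ret ?_))) (PP.ret ?_))) <;> fun_prop

lemma pp_optP (hu : PTime u) (hq : PTime q) (hk : PTime k) (hρ : PTime ρ) (hX : PTime X) :
    PP fun a => optP (u a).length (q a) (k a) (ρ a) (X a) := by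
  unfold optP
  exact PP.bind (pp_optW hu hq hk hρ hX) (PP.choose (by fun_prop))

lemma pp_stepP (hu : PTime u) (hq : PTime q) (hk : PTime k) (hρ : PTime ρ) (hX : PTime X) :
    PP fun a => stepP (u a).length (q a) (k a) (ρ a) (X a) := by
  unfold stepP
  exact PP.bind (pp_optP hu hq hk hρ hX) (PP.ret (by fun_prop))

lemma len_stepP (n : ℕ) (q : ℚ) (k : ℕ) (ρ : List ℚ) (x : List Bool) :
    All (fun y => y.length = x.length) (stepP n q k ρ x) := by
  refine All.bind' _ fun o => ?_
  rw [All_ret]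
  split_ifs <;> simp

lemma len_walkP (n : ℕ) (q : ℚ) (k : ℕ) (ρ : List ℚ) (L : ℕ) (x : List Bool) :
    All (fun y => y.length = x.length) (walkP n q k ρ L x) := by
  refine All.bind' _ fun τ => All_foldP _ _ (fun _ y => y.length = x.length)
    (fun _ s c _ hs => ?_) 0 x rfl
  split_ifs
  · exact (len_stepP n q k ρ s).mono fun y hy => hy.trans hs
  · exact hs

lemma len_liftP (n : ℕ) (q : ℚ) (k : ℕ) (ρ : List ℚ) (L : ℕ) (x : List Bool) :
    All (fun y => y.length = x.length) (liftP n q k ρ L x) :=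
  (len_walkP n q k ρ L x).bind fun y hy => All.bind' _ fun _ => All.bind' _ fun _ =>
    All.bind' _ fun c => by simpa using hy

lemma pp_walkP (hu : PTime u) (hq : PTime q) (hk : PTime k) (hρ : PTime ρ) (hv : PTime v)
    (hX : PTime X) : PP fun a => walkP (u a).length (q a) (k a) (ρ a) (v a).length (X a) := by
  unfold walkP
  refine PP.bind (PP.choose (by fun_prop)) (PP.foldP (by fun_prop) (by fun_prop) ?_
    (fun a _ s => s.length = (X a.1).length) (fun a => (X a.1).length * 4 + 1) (by fun_prop)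
    (fun a => rfl) (fun a k s c _ hs => ?_) fun a k s _ hs => sz_bits_le hs)
  · refine PP.ite ?_ (pp_stepP ?_ ?_ ?_ ?_ ?_) (PP.ret ?_) <;> fun_prop
  · split_ifs
    · exact (len_stepP _ _ _ _ s).mono fun y hy => hy.trans hs
    · exact hs

lemma pp_liftP (hu : PTime u) (hq : PTime q) (hk : PTime k) (hρ : PTime ρ) (hv : PTime v)
    (hX : PTime X) : PP fun a => liftP (u a).length (q a) (k a) (ρ a) (v a).length (X a) := by
  unfold liftP
  refine PP.bind (pp_walkP hu hq hk hρ hv hX) (PP.bind (pp_wtP ?_ ?_ ?_ ?_)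
    (PP.bind (pp_wtP ?_ ?_ ?_ ?_) (PP.bind (PP.coinP ?_) (PP.ret ?_)))) <;> fun_prop

lemma pp_sampleP (hu : PTime u) (hq : PTime q) (hR : PTime R) (hlam : PTime lam) (hv : PTime v)
    (hk : PTime k) : PP fun a => sampleP (u a).length (q a) (R a) (lam a) (v a).length (k a) := by
  unfold sampleP
  refine PP.foldP (by fun_prop) (by fun_prop) ?_
    (fun a _ s => s.length = (u a).length) (fun a => (u a).length * 4 + 1) (by fun_prop)
    (fun a => by simp) (fun a k s c _ hs => ?_) fun a k s _ hs => sz_bits_le hs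
  · refine pp_liftP ?_ ?_ ?_ ?_ ?_ ?_ <;> fun_prop
  · exact (len_liftP _ _ _ _ _ s).mono fun y hy => hy.trans hs

lemma pp_estP (hu : PTime u) (hq : PTime q) (hR : PTime R) (hlam : PTime lam) (hv : PTime v)
    (hk : PTime k) : PP fun a => estP (u a).length (q a) (R a) (lam a) (v a).length (k a) := by
  unfold estP
  refine PP.bind (pp_sampleP hu hq hR hlam hv hk) (PP.bind (pp_walkP ?_ ?_ ?_ ?_ ?_ ?_)
    (pp_optP ?_ ?_ ?_ ?_ ?_)) <;> fun_prop

lemma pp_rowP (hu : PTime u) (hq : PTime q) (hR : PTime R) (hlam : PTime lam) (hv : PTime v)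
    (hw : PTime w) (hk : PTime k) :
    PP fun a => rowP (u a).length (q a) (R a) (lam a) (v a).length (w a).length (k a) := by
  unfold rowP
  refine PP.bind (PP.rep ?_ ?_ (pp_estP hu hq hR hlam hv hk)) (PP.ret ?_) <;> fun_prop

lemma pp_ratioP (hu : PTime u) (hq : PTime q) (hκ : PTime κ) (hR : PTime R) (hlam : PTime lam)
    (hv : PTime v) : PP fun a => ratioP (u a).length (q a) (κ a) (R a) (lam a) (v a).length := by
  unfold ratioP
  refine PP.bind (pp_sampleP hu hq hR hlam hv ?_) (PP.bind (pp_wtP ?_ ?_ ?_ ?_) (PP.coinP ?_)) <;>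
    fun_prop

lemma pp_stageP {s : α → List (List ℚ) × ℚ} (hu : PTime u) (hv : PTime v) (hs : PTime s)
    (hk : PTime k) : PP fun a => stageP (u a).length (v a).length (s a) (k a) := by
  have hL : PTime fun a => List.replicate (LL (v a).length) () := by unfold LL; fun_prop
  have hM : PTime fun a => List.replicate (MM (v a).length) () := by unfold MM; fun_prop
  have hκ : PTime fun a => kap (v a).length := by unfold kap; fun_prop
  have hlam : PTime fun a => lamb (v a).length := by unfold lamb; fun_prop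
  have hq : PTime fun a => kap (v a).length ^ min (k a) (TT (v a).length) := by
    refine hκ.rat_pow ?_ ?_ <;> unfold TT <;> fun_prop
  have h1 := pp_rowP (α := α × ℕ) (hu.comp PTime.fst_id) (hq.comp PTime.fst_id)
    (hs.fst.comp PTime.fst_id) (hlam.comp PTime.fst_id) (hL.comp PTime.fst_id)
    (hM.comp PTime.fst_id) PTime.snd_id
  have h2 := pp_ratioP hu hq hκ hs.fst hlam hL
  simp only [List.length_replicate] at h1 h2
  have hM1 : PTime fun a => MM (v a).length := by unfold MM; fun_prop
  have hM2 : PB fun a => MM (v a).length := by unfold MM; fun_prop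
  have h3 := (PP.rep hM1 hM2 h2).comp (PTime.fst_id (α := α) (β := List (List ℚ)))
  unfold stageP
  refine PP.bind (PP.mapP (by fun_prop) h1) (PP.bind h3 (PP.ret ?_))
  have hM3 : PTime fun z : (α × List (List ℚ)) × List Bool => (MM (v z.1.1).length : ℚ) :=
    (hM1.comp (by fun_prop)).natCast_rat
  refine PTime.prodMk (by fun_prop) (PTime.rat_div (by fun_prop) hM3)

end

lemma HB_nat {c k : ℕ} (h : c < 2 ^ k) (hk : 0 < k) : HB (c : ℚ) k :=
  ⟨by simpa using h, by simpa using hk.ne'⟩

lemma HB_inv {r : ℚ} {k : ℕ} (h : HB r k) : HB r⁻¹ k := by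
  rcases eq_or_ne r 0 with rfl | hr
  · simpa using h
  · refine ⟨?_, ?_⟩
    · rw [Rat.num_inv, Int.natAbs_mul, Int.natAbs_sign_of_ne_zero (Rat.num_ne_zero.2 hr)]
      simpa using h.2
    · rw [Rat.den_inv_of_ne_zero hr]; exact h.1

lemma HB_count {c M : ℕ} (h : c ≤ M) : HB (c : ℚ) (M + 1) :=
  HB_nat (h.trans_lt (Nat.lt_two_pow_self.trans (Nat.pow_lt_pow_right one_lt_two M.lt_succ_self)))
    M.succ_pos

/-- the size invariant of the main loop -/
def SInv (n K : ℕ) (s : List (List ℚ) × ℚ) : Prop :=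
  s.1.length = n ∧ (∀ row ∈ s.1, row.length ≤ n ∧ ∀ r ∈ row, HB r K) ∧ HB s.2 K

lemma SInv.sz_le {n K K' : ℕ} {s : List (List ℚ) × ℚ} (h : SInv n K s) (hK : K ≤ K') :
    sz s ≤ n * (n * (8 * K' + 7 + 1) + 1 + 1) + 1 + (8 * K' + 7) + 1 := by
  obtain ⟨ρ, Z⟩ := s
  obtain ⟨h1, h2, h3⟩ := h
  have h4 : sz ρ ≤ ρ.length * (n * (8 * K' + 7 + 1) + 1 + 1) + 1 :=
    sz_list_le ρ fun row hrow =>
      (sz_list_le row fun r hr => (((h2 row hrow).2 r hr).mono hK).sz_le).trans (by
        have := (h2 row hrow).1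
        gcongr)
  have h5 := (h3.mono hK).sz_le
  simp only at h1 h5
  rw [sz_prod, ← h1]
  rw [← h1] at h4
  omega

lemma all_rowP {n K : ℕ} (hK : 0 < K) (q : ℚ) {ρ : List (List ℚ)}
    (h : ∀ row ∈ ρ, row.length ≤ n ∧ ∀ r ∈ row, HB r K) (lam : ℚ) (L M k : ℕ) :
    All (fun row => row.length ≤ n ∧ ∀ r ∈ row, HB r (K + (2 * M + 4))) (rowP n q ρ lam L M k) := by
  refine (All_rep_length M _).bind fun os hos => ?_
  rw [All_ret]
  refine ⟨by simp, fun r hr => ?_⟩
  obtain ⟨j, -, rfl⟩ := List.mem_map.1 hr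
  have h0 : HB (0 : ℚ) K := by simpa using HB_nat (c := 0) (by positivity) hK
  have h1 : HB ((ρ.getD k []).getD j 0) K := by
    rw [List.getD_eq_getElem?_getD]
    cases hj : (ρ.getD k [])[j]? with
    | none => exact h0
    | some r =>
      have hr := List.mem_of_getElem? hj
      rw [List.getD_eq_getElem?_getD] at hr
      cases hk : ρ[k]? with
      | none => simp [hk] at hr
      | some row =>
        rw [hk] at hr
        exact (h row (List.mem_of_getElem? hk)).2 r hr
  have h2 : HB (2 : ℚ) 2 := by simpa using HB_nat (c := 2) (k := 2) (by norm_num) (by norm_num)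
  have h3 := HB_count (hos ▸ List.countP_le_length (p := fun o => decide (o = 0)) (l := os))
  have h4 := HB_count (hos ▸ List.countP_le_length (p := fun o => decide (o = j + 1)) (l := os))
  rw [div_eq_mul_inv]
  exact ((h1.mul (h2.mul h3)).mul (HB_inv h4)).mono (by omega)

lemma all_stageP {n K : ℕ} (hK : 0 < K) (m t : ℕ) {s : List (List ℚ) × ℚ} (h : SInv n K s) :
    All (SInv n (K + (2 * MM m + 4))) (stageP n m s t) := by
  refine (All_mapP (List.range n) _ (fun _ row => row.length ≤ n ∧
    ∀ r ∈ row, HB r (K + (2 * MM m + 4))) fun k _ => all_rowP hK _ h.2.1 _ _ _ k).bind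
    fun ρ' hρ' => (All_rep_length (MM m) _).bind fun bs hbs => ?_
  rw [All_ret]
  refine ⟨by simpa using hρ'.length_eq.symm, fun row hrow => ?_, ?_⟩
  · obtain ⟨i, hi, rfl⟩ := List.getElem_of_mem hrow
    exact (List.forall₂_iff_get.1 hρ').2 i (by rw [hρ'.length_eq]; exact hi) hi
  · have h3 := HB_count (hbs ▸ List.countP_le_length (p := fun b => b) (l := bs))
    have h4 := HB_count (le_refl (MM m))
    simp only [div_eq_mul_inv]
    exact ((h.2.2.mul h3).mul (HB_inv h4)).mono (by omega)

lemma pp_runP {α : Type} [TEnc α] {u v : α → List Unit} (hu : PTime u) (hv : PTime v) :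
    PP fun a => runP (u a).length (v a).length := by
  have hw : PTime fun a => u a ++ v a ++ [(), (), ()] := by fun_prop
  have h1 := pp_stageP (α := α × (List (List ℚ) × ℚ) × ℕ) (hu.comp PTime.fst_id)
    (hw.comp PTime.fst_id) PTime.snd_id.fst PTime.snd_id.snd
  simp only [List.length_append, List.length_cons, List.length_nil] at h1
  unfold runP
  refine PP.bind (PP.foldP (by unfold TT; fun_prop) (by fun_prop) h1
    (fun a t s => SInv (u a).length
      ((u a).length + 3 + t * (2 * MM ((u a).length + (v a).length + 3) + 4)) s)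
    (fun a => (u a).length * ((u a).length * (8 * ((u a).length + 3 +
      TT ((u a).length + (v a).length + 3) * (2 * MM ((u a).length + (v a).length + 3) + 4)) + 7
      + 1) + 1 + 1) + 1 + (8 * ((u a).length + 3 + TT ((u a).length + (v a).length + 3) *
      (2 * MM ((u a).length + (v a).length + 3) + 4)) + 7) + 1)
    (by unfold TT MM; fun_prop) (fun a => ?_) (fun a t s c _ hs => ?_) fun a t s ht hs => ?_)
    (PP.ret (by fun_prop))
  · refine ⟨by simp, fun row hrow => ?_, ?_⟩
    · obtain rfl := List.eq_of_mem_replicate hrow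
      refine ⟨by simp, fun r hr => ?_⟩
      obtain rfl := List.eq_of_mem_replicate hr
      have : HB (4 : ℚ) 3 := by simpa using HB_nat (c := 4) (k := 3) (by norm_num) (by norm_num)
      exact this.mono (by omega)
    · have : HB ((2 ^ (u a).length : ℕ) : ℚ) ((u a).length + 1) :=
        HB_nat (Nat.pow_lt_pow_right one_lt_two (Nat.lt_succ_self _)) (Nat.succ_pos _)
      push_cast at this
      exact this.mono (by omega)
  · rw [add_mul, one_mul, ← add_assoc]
    exact all_stageP (by omega) _ _ hs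
  · refine hs.sz_le ?_
    rw [List.length_range] at ht
    gcongr

theorem pp_mainP : PP fun u : List Unit × List Unit × List Unit =>
    mainP u.1.length u.2.1.length u.2.2.length := by
  unfold mainP
  refine PP.bind (PP.rep ?_ ?_ (pp_runP ?_ ?_)) (PP.ret (ptime_median.comp ?_)) <;> fun_prop

end Vale.Agent.P317
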