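import Vale.Agent.P317.Flow

/-! Cesaro averages of the chain, lifting and option probabilities (job Chain). -/

namespace Vale.Agent.P317

open Finset

variable {n : ℕ} {w : Finset (El n) → ℝ}

lemma mem_U {k : ℕ} {x : Fin n → Bool} : x ∈ U n k ↔ ∀ i : Fin n, k ≤ i.val → x i = false := by
  simp [U]

lemma U_nonempty (k : ℕ) : (U n k).Nonempty := ⟨fun _ => false, mem_U.2 fun _ _ => rfl⟩

lemma St_update (k : Fin n) (x : Fin n → Bool) (c : Bool) :
    St ∅ (Function.update x k c) = insert (k, c) (St {k} x) := by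
  ext ⟨i, b⟩
  by_cases h : i = k
  · subst h
    simp [St, eq_comm]
  · simp [St, h]

lemma wt_update (k : Fin n) (x : Fin n → Bool) (c : Bool) :
    wt w (Function.update x k c) = al w k x c := by
  rw [wt, al, St_update]

lemma sum_U_succ (k : Fin n) (f : (Fin n → Bool) → ℝ) :
    ∑ x ∈ U n (k + 1), f x =
      ∑ x ∈ U n k, (f (Function.update x k false) + f (Function.update x k true)) := by
  have key : ∀ c : Bool, ∑ x ∈ (U n (k + 1)).filter (fun x => x k = c), f x =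
      ∑ x ∈ U n k, f (Function.update x k c) := by
    intro c
    symm
    refine sum_nbij' (fun x => Function.update x k c) (fun x => Function.update x k false)
      ?_ ?_ ?_ ?_ ?_
    · intro x hx
      rw [mem_filter, mem_U]
      refine ⟨fun i hi => ?_, by simp⟩
      have hik : i ≠ k := fun h => by subst h; omega
      rw [Function.update_of_ne hik]
      exact mem_U.1 hx i (by omega)
    · intro x hx
      rw [mem_filter, mem_U] at hx
      rw [mem_U]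
      intro i hi
      by_cases hik : i = k
      · subst hik; simp
      · rw [Function.update_of_ne hik]
        refine hx.1 i ?_
        have : i.val ≠ k.val := fun h => hik (Fin.ext h)
        omega
    · intro x hx
      have := mem_U.1 hx k le_rfl
      simp only [Function.update_idem]
      rw [← this, Function.update_eq_self]
    · intro x hx
      have := (mem_filter.1 hx).2
      simp only [Function.update_idem]
      rw [← this, Function.update_eq_self]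
    · intro x _
      rfl
  rw [sum_add_distrib, ← key, ← key, ← sum_filter_add_sum_filter_not (U n (k + 1)) (· k = false)]
  congr 1
  exact sum_congr (by ext; simp) fun _ _ => rfl

lemma flp_flp (j : Fin n) (x : Fin n → Bool) : flp j (flp j x) = x := by
  simp [flp]

lemma flp_mem {k j : Fin n} (h : j < k) {x : Fin n → Bool} (hx : x ∈ U n k) :
    flp j x ∈ U n k := by
  rw [mem_U] at hx ⊢
  intro i hi
  have hij : i ≠ j := fun h' => by subst h'; exact absurd h (not_lt.2 hi)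
  rw [flp, Function.update_of_ne hij]
  exact hx i hi

lemma ga_flp {k j : Fin n} (h : j < k) (x : Fin n → Bool) : ga w k j (flp j x) = ga w k j x := by
  unfold ga
  congr 1
  ext ⟨i, b⟩
  by_cases hi : i = j
  · subst hi
    have := h.ne
    cases b <;> cases hx : x i <;> simp [St, flp, this, hx]
  · simp [St, flp, hi]

lemma sum_flp {k j : Fin n} (h : j < k) (f : (Fin n → Bool) → ℝ) :
    ∑ x ∈ U n k, f (flp j x) = ∑ x ∈ U n k, f x :=
  sum_nbij' (flp j) (flp j) (fun _ hx => flp_mem h hx) (fun _ hx => flp_mem h hx)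
    (fun x _ => flp_flp j x) (fun x _ => flp_flp j x) fun _ _ => rfl

lemma Za_pos (hw : ∀ S, 0 < w S) (k : ℕ) : 0 < Za w k :=
  sum_pos (fun _ _ => hw _) (U_nonempty k)

lemma ZZ_eq (k : Fin n) : ZZ w k = Za w (k + 1) := by
  rw [Za, sum_U_succ]
  simp only [wt_update, ZZ]

lemma ZZ_pos (hw : ∀ S, 0 < w S) (k : Fin n) : 0 < ZZ w k := by
  rw [ZZ_eq]; exact Za_pos hw _

lemma WW_pos (hw : ∀ S, 0 < w S) (k j : Fin n) : 0 < WW w k j :=
  div_pos (sum_pos (fun _ _ => hw _) (U_nonempty k)) two_pos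

lemma al_pos (hw : ∀ S, 0 < w S) (k : Fin n) (x : Fin n → Bool) (c : Bool) : 0 < al w k x c := hw _

lemma ga_pos (hw : ∀ S, 0 < w S) (k j : Fin n) (x : Fin n → Bool) : 0 < ga w k j x := hw _

lemma om_pos (hw : ∀ S, 0 < w S) (k : Fin n) {ρ : Fin n → ℝ} (hρ : ∀ j, 0 ≤ ρ j)
    (x : Fin n → Bool) : 0 < om w k ρ x :=
  add_pos_of_pos_of_nonneg (add_pos (hw _) (hw _))
    (sum_nonneg fun j _ => mul_nonneg (hρ j) (hw _).le)

lemma Om_pos (hw : ∀ S, 0 < w S) (k : Fin n) {ρ : Fin n → ℝ} (hρ : ∀ j, 0 ≤ ρ j) :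
    0 < Om w k ρ :=
  sum_pos (fun x _ => om_pos hw k hρ x) (U_nonempty k)

lemma sum_ga (k j : Fin n) : ∑ x ∈ U n k, ga w k j x = 2 * WW w k j := by
  rw [WW]; ring

lemma Om_eq (k : Fin n) (ρ : Fin n → ℝ) :
    Om w k ρ = ZZ w k + 2 * ∑ j ∈ Iio k, ρ j * WW w k j := by
  simp only [Om, om, ZZ]
  rw [sum_add_distrib, sum_comm, mul_sum]
  congr 1
  refine sum_congr rfl fun j _ => ?_
  rw [← mul_sum, sum_ga]; ring

lemma nuE_zero (hw : ∀ S, 0 < w S) (g : (Fin n → Bool) → ℝ) : nuE w 0 g = g fun _ => false := by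
  have hU : U n 0 = {fun _ => false} := by
    ext x
    rw [mem_U, mem_singleton]
    exact ⟨fun h => funext fun i => h i (Nat.zero_le _), fun h i _ => by rw [h]⟩
  have := (hw (St ∅ fun _ => false)).ne'
  simp only [nuE, Za, hU, sum_singleton, wt]
  field_simp

/-- a weighted mean of numbers in the unit interval -/
lemma mean_mem {ι : Type} (s : Finset ι) {a b : ℝ} {c d : ι → ℝ} (ha : 0 < a)
    (hc : ∀ j, 0 ≤ c j) (hb : 0 ≤ b ∧ b ≤ 1) (hd : ∀ j, 0 ≤ d j ∧ d j ≤ 1) :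
    0 ≤ (a * b + ∑ j ∈ s, c j * d j) / (a + ∑ j ∈ s, c j) ∧
      (a * b + ∑ j ∈ s, c j * d j) / (a + ∑ j ∈ s, c j) ≤ 1 := by
  have h0 : 0 < a + ∑ j ∈ s, c j := add_pos_of_pos_of_nonneg ha (sum_nonneg fun j _ => hc j)
  refine ⟨div_nonneg (add_nonneg (mul_nonneg ha.le hb.1)
    (sum_nonneg fun j _ => mul_nonneg (hc j) (hd j).1)) h0.le, (div_le_one h0).2 ?_⟩
  exact add_le_add (mul_le_of_le_one_right ha.le hb.2)
    (sum_le_sum fun j _ => mul_le_of_le_one_right (hc j) (hd j).2)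

lemma Pk_mem (hw : ∀ S, 0 < w S) (k : Fin n) {ρ : Fin n → ℝ} (hρ : ∀ j, 0 ≤ ρ j)
    {g : (Fin n → Bool) → ℝ} (hg : ∀ x, 0 ≤ g x ∧ g x ≤ 1) (x : Fin n → Bool) :
    0 ≤ Pk w k ρ g x ∧ Pk w k ρ g x ≤ 1 :=
  mean_mem (Iio k) (c := fun j => ρ j * ga w k j x) (d := fun j => g (flp j x))
    (add_pos (hw _) (hw _)) (fun j => mul_nonneg (hρ j) (hw _).le) (hg x) fun _ => hg _

lemma Pk_iter_mem (hw : ∀ S, 0 < w S) (k : Fin n) {ρ : Fin n → ℝ} (hρ : ∀ j, 0 ≤ ρ j)
    {g : (Fin n → Bool) → ℝ} (hg : ∀ x, 0 ≤ g x ∧ g x ≤ 1) (t : ℕ) (x : Fin n → Bool) :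
    0 ≤ (Pk w k ρ)^[t] g x ∧ (Pk w k ρ)^[t] g x ≤ 1 := by
  induction t generalizing x with
  | zero => exact hg x
  | succ t ih => rw [Function.iterate_succ_apply']; exact Pk_mem hw k hρ ih x

lemma Pbar_mem (hw : ∀ S, 0 < w S) (k : Fin n) {ρ : Fin n → ℝ} (hρ : ∀ j, 0 ≤ ρ j) (L : ℕ)
    {g : (Fin n → Bool) → ℝ} (hg : ∀ x, 0 ≤ g x ∧ g x ≤ 1) (x : Fin n → Bool) :
    0 ≤ Pbar w k ρ L g x ∧ Pbar w k ρ L g x ≤ 1 := by
  refine ⟨div_nonneg (sum_nonneg fun t _ => (Pk_iter_mem hw k hρ hg t x).1) (Nat.cast_nonneg _),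
    div_le_one_of_le₀ ?_ (Nat.cast_nonneg _)⟩
  calc ∑ t ∈ range L, (Pk w k ρ)^[t] g x ≤ ∑ _t ∈ range L, (1 : ℝ) :=
        sum_le_sum fun t _ => (Pk_iter_mem hw k hρ hg t x).2
    _ = L := by simp

lemma Lf_mem (hw : ∀ S, 0 < w S) (k : Fin n) {g : (Fin n → Bool) → ℝ}
    (hg : ∀ x, 0 ≤ g x ∧ g x ≤ 1) (x : Fin n → Bool) : 0 ≤ Lf w k g x ∧ Lf w k g x ≤ 1 := by
  have h0 := al_pos hw k x false
  have h1 := al_pos hw k x true
  refine ⟨div_nonneg (add_nonneg (mul_nonneg h0.le (hg _).1) (mul_nonneg h1.le (hg _).1))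
    (add_pos h0 h1).le, (div_le_one (add_pos h0 h1)).2 ?_⟩
  exact add_le_add (mul_le_of_le_one_right h0.le (hg _).2) (mul_le_of_le_one_right h1.le (hg _).2)

lemma Op_mem (hw : ∀ S, 0 < w S) (k : Fin n) {ρ : Fin n → ℝ} (hρ : ∀ j, 0 ≤ ρ j) {g : ℕ → ℝ}
    (hg : ∀ i, 0 ≤ g i ∧ g i ≤ 1) (x : Fin n → Bool) :
    0 ≤ Op w k ρ g x ∧ Op w k ρ g x ≤ 1 :=
  mean_mem (Iio k) (c := fun j => ρ j * ga w k j x) (d := fun j => g (j.val + 1))
    (add_pos (hw _) (hw _)) (fun j => mul_nonneg (hρ j) (hw _).le) (hg 0) fun _ => hg _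

lemma om_mul_Pk (hw : ∀ S, 0 < w S) (k : Fin n) {ρ : Fin n → ℝ} (hρ : ∀ j, 0 ≤ ρ j)
    (f : (Fin n → Bool) → ℝ) (x : Fin n → Bool) :
    om w k ρ x * Pk w k ρ f x =
      (al w k x false + al w k x true) * f x + ∑ j ∈ Iio k, ρ j * ga w k j x * f (flp j x) := by
  rw [Pk, mul_div_cancel₀ _ (om_pos hw k hρ x).ne']

/-- stationarity -/
lemma sum_om_Pk (hw : ∀ S, 0 < w S) (k : Fin n) {ρ : Fin n → ℝ} (hρ : ∀ j, 0 ≤ ρ j)
    (f : (Fin n → Bool) → ℝ) :
    ∑ x ∈ U n k, om w k ρ x * Pk w k ρ f x = ∑ x ∈ U n k, om w k ρ x * f x := by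
  simp only [om_mul_Pk hw k hρ]
  simp only [om, add_mul _ (∑ j ∈ Iio k, _), sum_mul]
  rw [sum_add_distrib, sum_add_distrib, sum_comm, sum_comm (s := U n k) (t := Iio k)]
  congr 1
  refine sum_congr rfl fun j hj => ?_
  have hj' := mem_Iio.1 hj
  rw [← sum_flp hj' fun x => ρ j * ga w k j x * f x]
  exact sum_congr rfl fun x _ => by rw [ga_flp hj']

lemma omE_Pbar (hw : ∀ S, 0 < w S) (k : Fin n) {ρ : Fin n → ℝ} (hρ : ∀ j, 0 ≤ ρ j) {L : ℕ}
    (hL0 : 0 < L) (g : (Fin n → Bool) → ℝ) : omE w k ρ (Pbar w k ρ L g) = omE w k ρ g := by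
  have h1 : ∀ t, ∑ x ∈ U n k, om w k ρ x * (Pk w k ρ)^[t] g x = ∑ x ∈ U n k, om w k ρ x * g x := by
    intro t
    induction t with
    | zero => rfl
    | succ t ih => rw [Function.iterate_succ_apply', sum_om_Pk hw k hρ, ih]
  have hL : (L : ℝ) ≠ 0 := by positivity
  simp only [omE, Pbar]
  congr 1
  simp only [← mul_div_assoc, mul_sum]
  rw [← sum_div, sum_comm]
  simp only [h1, sum_const, card_range, nsmul_eq_mul]
  field_simp

lemma Pk_Pbar (k : Fin n) (ρ : Fin n → ℝ) (L : ℕ) (g : (Fin n → Bool) → ℝ) (x : Fin n → Bool) :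
    Pbar w k ρ L g x - Pk w k ρ (Pbar w k ρ L g) x = (g x - (Pk w k ρ)^[L] g x) / L := by
  have h1 : Pk w k ρ (Pbar w k ρ L g) x = (∑ t ∈ range L, (Pk w k ρ)^[t + 1] g x) / L := by
    simp only [Function.iterate_succ_apply']
    have h2 : ∀ (f : (Fin n → Bool) → ℝ), Pk w k ρ f x =
        ((al w k x false + al w k x true) * f x + ∑ j ∈ Iio k, ρ j * ga w k j x * f (flp j x)) /
          om w k ρ x := fun _ => rfl
    simp only [h2, Pbar]
    rw [← sum_div, sum_add_distrib, sum_comm (s := range L), div_right_comm, add_div _ _ (L : ℝ),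
      ← mul_sum, mul_div_assoc, sum_div (Iio k)]
    congr 2
    refine sum_congr rfl fun j _ => ?_
    rw [← mul_sum, mul_div_assoc]
  rw [h1, Pbar, ← sub_div, ← sum_sub_distrib]
  congr 1
  exact sum_range_sub' (fun t => (Pk w k ρ)^[t] g x) L

lemma Ed_nonneg (hw : ∀ S, 0 < w S) (k j : Fin n) (h : (Fin n → Bool) → ℝ) : 0 ≤ Ed w k j h :=
  div_nonneg (sum_nonneg fun _ _ => mul_nonneg (hw _).le (sq_nonneg _)) two_pos.le

/-- the Dirichlet form -/
lemma dirichlet (hw : ∀ S, 0 < w S) (k : Fin n) {ρ : Fin n → ℝ} (hρ : ∀ j, 0 ≤ ρ j)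
    (h : (Fin n → Bool) → ℝ) :
    ∑ x ∈ U n k, om w k ρ x * (h x * (h x - Pk w k ρ h x)) = ∑ j ∈ Iio k, ρ j * Ed w k j h := by
  have h1 : ∀ x, om w k ρ x * (h x * (h x - Pk w k ρ h x)) =
      ∑ j ∈ Iio k, ρ j * (ga w k j x * (h x * (h x - h (flp j x)))) := by
    intro x
    have h2 : om w k ρ x * (h x * (h x - Pk w k ρ h x)) =
        h x * (om w k ρ x * h x - om w k ρ x * Pk w k ρ h x) := by ring
    rw [h2, om_mul_Pk hw k hρ, om, add_mul _ (∑ j ∈ Iio k, _), add_sub_add_left_eq_sub, sum_mul,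
      ← sum_sub_distrib, mul_sum]
    exact sum_congr rfl fun j _ => by ring
  simp only [h1]
  rw [sum_comm]
  refine sum_congr rfl fun j hj => ?_
  have hj' := mem_Iio.1 hj
  rw [← mul_sum, Ed]
  congr 1
  have h3 := sum_flp hj' fun x => ga w k j x * (h x * (h x - h (flp j x)))
  simp only [ga_flp hj', flp_flp] at h3
  rw [eq_div_iff two_ne_zero, mul_two]
  nth_rewrite 1 [← h3]
  rw [← sum_add_distrib]
  exact sum_congr rfl fun x _ => by ring

/-- the Cesaro average of the chain transports the level `k` measure to the stationary measure -/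
theorem walk_close (hw : ∀ S, 0 < w S) (hL : Lorentz w) (k : Fin n) {ρ : Fin n → ℝ}
    (hρ : ∀ j, 0 ≤ ρ j) {c θ : ℝ} (hc : 0 < c) (hθ : 0 < θ)
    (hcρ : ∀ j < k, c * Om w k ρ ≤ ρ j * WW w k j) {L : ℕ} (hL0 : 0 < L)
    {g : (Fin n → Bool) → ℝ} (hg : ∀ x, 0 ≤ g x ∧ g x ≤ 1) :
    |nuE w k (Pbar w k ρ L g) - omE w k ρ g| ≤ (k * θ + 1 / (c * L * θ)) / 2 := by
  set h := Pbar w k ρ L g with hh
  have hLp : (0 : ℝ) < L := by exact_mod_cast hL0
  have hOm := Om_pos hw k hρ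
  have hE : ∑ j ∈ Iio k, ρ j * Ed w k j h ≤ Om w k ρ / L := by
    rw [← dirichlet hw k hρ, Om, sum_div]
    refine sum_le_sum fun x _ => ?_
    rw [div_eq_mul_inv]
    refine mul_le_mul_of_nonneg_left ?_ (om_pos hw k hρ x).le
    have h1 := Pbar_mem hw k hρ L hg x
    have h2 : h x - Pk w k ρ h x ≤ (L : ℝ)⁻¹ := by
      rw [hh, Pk_Pbar, ← one_div]
      have := (hg x).2
      have := (Pk_iter_mem hw k hρ hg L x).1
      exact div_le_div_of_nonneg_right (by linarith) hLp.le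
    calc h x * (h x - Pk w k ρ h x) ≤ h x * (L : ℝ)⁻¹ := mul_le_mul_of_nonneg_left h2 h1.1
      _ ≤ (L : ℝ)⁻¹ := mul_le_of_le_one_left (inv_nonneg.2 hLp.le) h1.2
  have hS : ∑ j ∈ Iio k, (θ + Ed w k j h / (θ * WW w k j)) ≤ k * θ + 1 / (c * L * θ) := by
    rw [sum_add_distrib, sum_const, Fin.card_Iio, nsmul_eq_mul]
    refine add_le_add le_rfl ?_
    calc ∑ j ∈ Iio k, Ed w k j h / (θ * WW w k j)
        ≤ ∑ j ∈ Iio k, ρ j * Ed w k j h / (θ * (c * Om w k ρ)) := by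
          refine sum_le_sum fun j hj => ?_
          have h1 := hcρ j (mem_Iio.1 hj)
          have h2 := WW_pos hw k j
          have h3 := Ed_nonneg hw k j h
          rw [div_le_div_iff₀ (by positivity) (by positivity)]
          have := mul_le_mul_of_nonneg_left h1 (mul_nonneg h3 hθ.le)
          nlinarith
      _ ≤ Om w k ρ / L / (θ * (c * Om w k ρ)) := by
          rw [← sum_div]
          exact div_le_div_of_nonneg_right hE (by positivity)
      _ = 1 / (c * L * θ) := by field_simp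
  have t1 := transport hw hL k ρ hρ h hθ
  have t2 := transport hw hL k ρ hρ (fun x => -h x) hθ
  have e1 : nuE w k (fun x => -h x) = -nuE w k h := by
    simp only [nuE, mul_neg, sum_neg_distrib, neg_div]
  have e2 : omE w k ρ (fun x => -h x) = -omE w k ρ h := by
    simp only [omE, mul_neg, sum_neg_distrib, neg_div]
  have e3 : ∀ j, Ed w k j (fun x => -h x) = Ed w k j h := fun j => by
    simp only [Ed]
    congr 1
    exact sum_congr rfl fun x _ => by ring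
  simp only [e1, e2, e3] at t2
  rw [← omE_Pbar hw k hρ hL0 g, ← hh, abs_le]
  constructor <;> linarith

lemma lift_close (hw : ∀ S, 0 < w S) (k : Fin n) {ρ : Fin n → ℝ} (hρ : ∀ j, 0 ≤ ρ j)
    {g : (Fin n → Bool) → ℝ} (hg : ∀ x, 0 ≤ g x ∧ g x ≤ 1) :
    |omE w k ρ (Lf w k g) - nuE w (k + 1) g| ≤ 2 * (∑ j ∈ Iio k, ρ j * WW w k j) / ZZ w k := by
  have hZ := ZZ_pos hw k
  set W := ∑ j ∈ Iio k, ρ j * WW w k j with hW
  have hW0 : 0 ≤ W := sum_nonneg fun j _ => mul_nonneg (hρ j) (WW_pos hw k j).le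
  set N := ∑ x ∈ U n k, (al w k x false + al w k x true) * Lf w k g x with hN
  set R := ∑ x ∈ U n k, (∑ j ∈ Iio k, ρ j * ga w k j x) * Lf w k g x with hR
  have hal : ∀ x, 0 < al w k x false + al w k x true := fun x => add_pos (hw _) (hw _)
  have hga : ∀ x, 0 ≤ ∑ j ∈ Iio k, ρ j * ga w k j x := fun x =>
    sum_nonneg fun j _ => mul_nonneg (hρ j) (hw _).le
  have e1 : nuE w (k + 1) g = N / ZZ w k := by
    rw [nuE, ← ZZ_eq, sum_U_succ, hN]
    congr 1
    refine sum_congr rfl fun x _ => ?_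
    rw [wt_update, wt_update, Lf, mul_div_cancel₀ _ (hal x).ne']
  have e2 : omE w k ρ (Lf w k g) = (N + R) / (ZZ w k + 2 * W) := by
    rw [omE, Om_eq, hN, hR, ← sum_add_distrib]
    congr 1
    exact sum_congr rfl fun x _ => by rw [om, add_mul]
  have hN0 : 0 ≤ N := sum_nonneg fun x _ => mul_nonneg (hal x).le (Lf_mem hw k hg x).1
  have hN1 : N ≤ ZZ w k := sum_le_sum fun x _ =>
    mul_le_of_le_one_right (hal x).le (Lf_mem hw k hg x).2
  have hR0 : 0 ≤ R := sum_nonneg fun x _ => mul_nonneg (hga x) (Lf_mem hw k hg x).1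
  have hR1 : R ≤ 2 * W := by
    calc R ≤ ∑ x ∈ U n k, ∑ j ∈ Iio k, ρ j * ga w k j x := sum_le_sum fun x _ =>
          mul_le_of_le_one_right (hga x) (Lf_mem hw k hg x).2
      _ = 2 * W := by
          rw [sum_comm, hW, mul_sum]
          exact sum_congr rfl fun j _ => by rw [← mul_sum, sum_ga]; ring
  have e3 : (N + R) / (ZZ w k + 2 * W) - N / ZZ w k =
      (ZZ w k * R - 2 * W * N) / (ZZ w k + 2 * W) / ZZ w k := by
    field_simp
    ring
  rw [e1, e2, e3, abs_div, abs_of_pos hZ]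
  refine div_le_div_of_nonneg_right ?_ hZ.le
  have hD : 0 < ZZ w k + 2 * W := by positivity
  rw [abs_div, abs_of_pos hD, div_le_iff₀ hD, abs_le]
  constructor <;> nlinarith [mul_nonneg hW0 hW0, mul_nonneg hZ.le hR0, mul_nonneg hW0 hN0,
    mul_le_mul_of_nonneg_left hN1 hW0, mul_le_mul_of_nonneg_left hR1 hZ.le]

lemma omE_Op (hw : ∀ S, 0 < w S) (k : Fin n) {ρ : Fin n → ℝ} (hρ : ∀ j, 0 ≤ ρ j) (g : ℕ → ℝ) :
    omE w k ρ (Op w k ρ g) =
      (ZZ w k * g 0 + ∑ j ∈ Iio k, 2 * (ρ j * WW w k j) * g (j.val + 1)) / Om w k ρ := by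
  rw [omE]
  congr 1
  have h1 : ∀ x, om w k ρ x * Op w k ρ g x = (al w k x false + al w k x true) * g 0 +
      ∑ j ∈ Iio k, ρ j * ga w k j x * g (j.val + 1) := fun x => by
    rw [Op, mul_div_cancel₀ _ (om_pos hw k hρ x).ne']
  simp only [h1]
  rw [sum_add_distrib, ← sum_mul, sum_comm]
  congr 1
  refine sum_congr rfl fun j _ => ?_
  rw [← sum_mul, ← mul_sum, sum_ga]; ring

end Vale.Agent.P317
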