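import Mathlib
import Vale.Agent.Lib.PTime.Defs

/-! Randomized oracle algorithms and approximate counting of common bases of two matroids. -/

namespace Vale.Agent.P317

open Vale.Agent.PT

/-- An oracle algorithm works in rounds. In every round the function `A` is applied to the input
`x`, the random bits `r` and the list of the oracle answers received so far; it either asks a
further query (first component `some q`) or stops (first component `none`) with the second
component as output. `answers A O x r i` is the list of answers after `i` rounds. -/
def answers {X Q : Type} (A : X × List Bool × List Bool → Option Q × ℚ) (O : Q → Bool) (x : X)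
    (r : List Bool) : ℕ → List Bool
  | 0 => []
  | i + 1 =>
    match (A (x, r, answers A O x r i)).1 with
    | none => answers A O x r i
    | some q => answers A O x r i ++ [O q]

/-- the action of `A` after `i` rounds -/
def action {X Q : Type} (A : X × List Bool × List Bool → Option Q × ℚ) (O : Q → Bool) (x : X)
    (r : List Bool) (i : ℕ) : Option Q × ℚ :=
  A (x, r, answers A O x r i)

/-- the subset of the ground set coded by a list of bits -/
def subsetOf (n : ℕ) (s : List Bool) : Set (Fin n) := {i | s.getD i false = true}

open Classical in
/-- the independence oracles: the query `(false, s)` asks whether the set coded by `s` is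
independent in `M₁`, the query `(true, s)` whether it is independent in `M₂` -/
noncomputable def oracle {n : ℕ} (M₁ M₂ : Matroid (Fin n)) (q : Bool × List Bool) : Bool :=
  decide ((if q.1 = true then M₂ else M₁).Indep (subsetOf n q.2))

/-- the number of common bases -/
noncomputable def numCommon {n : ℕ} (M₁ M₂ : Matroid (Fin n)) : ℕ :=
  {B : Set (Fin n) | M₁.IsBase B ∧ M₂.IsBase B}.ncard

/-- `A` is a fully polynomial randomized approximation scheme for the number of common bases:
every round is a polynomial-time computation of a Turing machine, and with `T` a polynomial in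
`n + ⌈1/ε⌉ + ⌈log₂ ⌈1/δ⌉⌉`, on `T` uniformly random bits the algorithm always stops within `T`
rounds (at most `T` oracle calls), with a good output for at least a fraction `1 - δ` of the
random strings -/
def IsFPRAS (A : (ℕ × ℚ × ℚ) × List Bool × List Bool → Option (Bool × List Bool) × ℚ) : Prop :=
  PolyTimeTM A ∧ ∃ p : Polynomial ℕ, ∀ (n : ℕ) (M₁ M₂ : Matroid (Fin n)),
    M₁.E = Set.univ → M₂.E = Set.univ → M₁.eRank = M₂.eRank →
    ∀ ε δ : ℚ, 0 < ε → ε < 1 → 0 < δ → δ < 1 →
    ∀ T : ℕ, T = p.eval (n + ⌈ε⁻¹⌉₊ + Nat.clog 2 ⌈δ⁻¹⌉₊) →
      (∀ r : Fin T → Bool, (action A (oracle M₁ M₂) (n, ε, δ) (List.ofFn r) T).1 = none) ∧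
      (1 - δ) * 2 ^ T ≤ (({r : Fin T → Bool |
        (1 - ε) * numCommon M₁ M₂ ≤ (action A (oracle M₁ M₂) (n, ε, δ) (List.ofFn r) T).2 ∧
        (action A (oracle M₁ M₂) (n, ε, δ) (List.ofFn r) T).2 ≤
          (1 + ε) * numCommon M₁ M₂}.ncard : ℕ) : ℚ)

end Vale.Agent.P317
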