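import Vale.Agent.P317.Run

/-! From polynomial-time programs to oracle algorithms with fair coins (job Replay). -/

namespace Vale.Agent.P317

open Vale.Agent.PT

namespace Prog

variable {Q β : Type}

/-- the value computed from a string of random bits -/
def outO (B : ℕ) (O : Q → Bool) : Prog Q β → List Bool → β
  | .ret b, _ => b
  | .ask q k, r => outO B O (k (O q)) r
  | .coin p k, r => outO B O (k (decide ((val (r.take B) : ℚ) < p * 2 ^ B))) (r.drop B)

/-- the queries asked on a string of random bits -/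
def qsO (B : ℕ) (O : Q → Bool) : Prog Q β → List Bool → List Q
  | .ret _, _ => []
  | .ask q k, r => q :: qsO B O (k (O q)) r
  | .coin p k, r => qsO B O (k (decide ((val (r.take B) : ℚ) < p * 2 ^ B))) (r.drop B)

lemma depth_branch_le (k : Bool → Prog Q β) (b : Bool) :
    depth (k b) ≤ max (depth (k true)) (depth (k false)) := by
  cases b
  · exact le_max_right _ _
  · exact le_max_left _ _

lemma length_qsO_le (B : ℕ) (O : Q → Bool) (p : Prog Q β) :
    ∀ r, (qsO B O p r).length ≤ depth p := by
  induction p with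
  | ret b => intro r; simp [qsO]
  | ask q k ih =>
    intro r
    have h1 := ih (O q) r
    have h2 := depth_branch_le k (O q)
    simp only [qsO, depth, List.length_cons]; omega
  | coin p k ih =>
    intro r
    have h1 := ih (decide ((val (r.take B) : ℚ) < p * 2 ^ B)) (r.drop B)
    have h2 := depth_branch_le k (decide ((val (r.take B) : ℚ) < p * 2 ^ B))
    simp only [qsO, depth]; omega

lemma run_take (B : ℕ) (O : Q → Bool) (p : Prog Q β) : ∀ (r : List Bool) (i : ℕ),
    (run B p (r, ((qsO B O p r).take i).map O)).1 = (qsO B O p r)[i]? ∧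
      ((qsO B O p r).length ≤ i →
        ((run B p (r, ((qsO B O p r).take i).map O)).2.map Prod.fst) = some (outO B O p r)) := by
  induction p with
  | ret b => intro r i; simp [run, qsO, outO]
  | ask q k ih =>
    intro r i
    cases i with
    | zero => simp [run, qsO]
    | succ i =>
      have := ih (O q) r i
      simpa [run, qsO, outO] using this
  | coin p k ih =>
    intro r i
    have := ih (decide ((val (r.take B) : ℚ) < p * 2 ^ B)) (r.drop B) i
    simpa [run, qsO, outO] using this

lemma answers_eq {X : Type} (A : X × List Bool × List Bool → Option Q × ℚ) (O : Q → Bool) (x : X)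
    (r : List Bool) (B : ℕ) (p : Prog Q β)
    (hA : ∀ ans, (A (x, r, ans)).1 = (run B p (r, ans)).1) (i : ℕ) :
    answers A O x r i = ((qsO B O p r).take i).map O := by
  induction i with
  | zero => simp [answers]
  | succ i ih =>
    rw [answers, ih, hA, (run_take B O p r i).1, List.take_add_one]
    cases (qsO B O p r)[i]? <;> simp

/-- sum over all bit strings of a given length -/
def SS : ℕ → (List Bool → ℝ) → ℝ
  | 0, f => f []
  | T + 1, f => SS T (fun l => f (false :: l)) + SS T (fun l => f (true :: l))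

lemma SS_eq (T : ℕ) : ∀ f : List Bool → ℝ, SS T f = ∑ r : Fin T → Bool, f (List.ofFn r) := by
  induction T with
  | zero => intro f; simp [SS]
  | succ T ih =>
    intro f
    rw [SS, ih, ih, ← (Fin.consEquiv fun _ : Fin (T + 1) => Bool).sum_comp,
      Fintype.sum_prod_type, Fintype.sum_bool, add_comm]
    simp [Fin.consEquiv, List.ofFn_succ]

lemma SS_congr (T : ℕ) : ∀ f g : List Bool → ℝ, (∀ l, l.length = T → f l = g l) →
    SS T f = SS T g := by
  intro f g h
  rw [SS_eq, SS_eq]
  exact Finset.sum_congr rfl fun r _ => h _ (by simp)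

lemma SS_mono (T : ℕ) (f g : List Bool → ℝ) (h : ∀ l, l.length = T → f l ≤ g l) :
    SS T f ≤ SS T g := by
  rw [SS_eq, SS_eq]
  exact Finset.sum_le_sum fun r _ => h _ (by simp)

lemma SS_const (T : ℕ) (c : ℝ) : SS T (fun _ => c) = c * 2 ^ T := by
  rw [SS_eq]; simp [mul_comm]

lemma SS_add (B T : ℕ) : ∀ f : List Bool → ℝ,
    SS (T + B) f = SS B fun u => SS T fun v => f (u ++ v) := by
  induction B with
  | zero => intro f; simp [SS]
  | succ B ih => intro f; rw [← add_assoc, SS, SS, ih, ih]; rfl

lemma sum_range_two_mul' (g : ℕ → ℝ) (m : ℕ) : ∑ n ∈ Finset.range (2 * m), g n =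
    ∑ n ∈ Finset.range m, g (2 * n) + ∑ n ∈ Finset.range m, g (1 + 2 * n) := by
  induction m with
  | zero => simp
  | succ m ih =>
    rw [show 2 * (m + 1) = 2 * m + 1 + 1 by ring, Finset.sum_range_succ, Finset.sum_range_succ,
      Finset.sum_range_succ, Finset.sum_range_succ, ih, add_comm 1 (2 * m)]
    ring

lemma SS_val (B : ℕ) : ∀ g : ℕ → ℝ,
    SS B (fun u => g (val u)) = ∑ n ∈ Finset.range (2 ^ B), g n := by
  induction B with
  | zero => intro g; simp [SS]
  | succ B ih =>
    intro g
    rw [SS, pow_succ', sum_range_two_mul', ← ih, ← ih]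
    simp

lemma SS_coin (B : ℕ) (p : ℚ) : ∃ c : ℝ, cl p * 2 ^ B ≤ c ∧ c ≤ cl p * 2 ^ B + 1 ∧
    ∀ F : Bool → ℝ, SS B (fun u => F (decide ((val u : ℚ) < p * 2 ^ B))) =
      c * F true + (2 ^ B - c) * F false := by
  obtain ⟨c, hc⟩ : ∃ c : ℕ, c = min (2 ^ B) ⌈p * 2 ^ B⌉₊ := ⟨_, rfl⟩
  have hB : (0 : ℝ) < 2 ^ B := by positivity
  refine ⟨c, ?_, ?_, fun F => ?_⟩
  · have h1 : (p : ℝ) * 2 ^ B ≤ ((⌈p * 2 ^ B⌉₊ : ℕ) : ℝ) := by
      have := Nat.le_ceil (p * 2 ^ B)
      exact_mod_cast this
    rw [hc, Nat.cast_min, le_min_iff]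
    refine ⟨?_, ?_⟩
    · have := cl_le_one p
      push_cast; nlinarith
    · unfold cl
      rcases le_total 0 (min 1 (p : ℝ)) with h | h
      · rw [max_eq_right h]
        exact (mul_le_mul_of_nonneg_right (min_le_right _ _) hB.le).trans h1
      · rw [max_eq_left h]; simp
  · rw [hc, Nat.cast_min]
    rcases le_total 1 p with h | h
    · have h' : (1 : ℝ) ≤ p := by exact_mod_cast h
      have : cl p = 1 := by simp [cl, h']
      rw [this]
      refine (min_le_left _ _).trans ?_
      push_cast; linarith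
    · refine (min_le_right _ _).trans ?_
      rcases le_total 0 p with h0 | h0
      · rw [cl_eq h0 h]
        have := (Nat.ceil_lt_add_one (show 0 ≤ p * 2 ^ B by positivity)).le
        exact_mod_cast this
      · have : ⌈p * 2 ^ B⌉₊ = 0 :=
          Nat.ceil_eq_zero.2 (mul_nonpos_of_nonpos_of_nonneg h0 (by positivity))
        rw [this]
        have := cl_nonneg p
        push_cast; positivity
  · rw [SS_val B fun n => F (decide ((n : ℚ) < p * 2 ^ B))]
    have hcB : c ≤ 2 ^ B := hc ▸ min_le_left _ _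
    rw [← Finset.sum_range_add_sum_Ico _ hcB]
    have h1 : ∀ n ∈ Finset.range c, F (decide ((n : ℚ) < p * 2 ^ B)) = F true := by
      intro n hn
      have : n < ⌈p * 2 ^ B⌉₊ := (Finset.mem_range.1 hn).trans_le (hc ▸ min_le_right _ _)
      rw [decide_eq_true (Nat.lt_ceil.1 this)]
    have h2 : ∀ n ∈ Finset.Ico c (2 ^ B), F (decide ((n : ℚ) < p * 2 ^ B)) = F false := by
      intro n hn
      have hn' := Finset.mem_Ico.1 hn
      have : ¬ n < ⌈p * 2 ^ B⌉₊ := by omega
      rw [decide_eq_false fun h => this (Nat.lt_ceil.2 h)]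
    rw [Finset.sum_congr rfl h1, Finset.sum_congr rfl h2]
    simp [Nat.cast_sub hcB]

lemma SS_outO (B : ℕ) (O : Q → Bool) (g : β → ℝ) (g0 : ∀ b, 0 ≤ g b) (g1 : ∀ b, g b ≤ 1)
    (p : Prog Q β) : ∀ D T : ℕ, depth p ≤ D → D * B ≤ T →
      (E O p g - D * (1 / 2) ^ B) * 2 ^ T ≤ SS T fun r => g (outO B O p r) := by
  induction p with
  | ret b =>
    intro D T _ _
    simp only [outO, E_ret, SS_const]
    gcongr
    have : (0 : ℝ) ≤ D * (1 / 2) ^ B := by positivity
    linarith
  | ask q k ih =>
    intro D T hD hT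
    have h2 := depth_branch_le k (O q)
    exact ih (O q) D T (by simp only [depth] at hD; omega) hT
  | coin p k ih =>
    intro D T hD hT
    obtain ⟨D, rfl⟩ : ∃ D', D = D' + 1 := ⟨D - 1, by simp only [depth] at hD; omega⟩
    obtain ⟨T, rfl⟩ : ∃ T', T = T' + B := ⟨T - B, by rw [add_mul] at hT; omega⟩
    have hk : ∀ b, (E O (k b) g - D * (1 / 2) ^ B) * 2 ^ T ≤ SS T fun r => g (outO B O (k b) r) :=
      fun b => ih b D T (by have := depth_branch_le k b; simp only [depth] at hD; omega)
        (by rw [add_mul] at hT; omega)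
    obtain ⟨c, hc1, hc2, hc⟩ := SS_coin B p
    have h1 := hc fun b => (E O (k b) g - D * (1 / 2) ^ B) * 2 ^ T
    rw [SS_add]
    refine le_trans ?_ (SS_mono B (fun u => (E O (k (decide ((val u : ℚ) < p * 2 ^ B))) g -
      D * (1 / 2) ^ B) * 2 ^ T) _ fun u hu => (hk _).trans (le_of_eq ?_))
    · rw [h1]
      have e1 := E_nonneg O (k true) g0
      have e2 := E_le_one O (k false) g1
      have hB : (2 : ℝ) ^ B * (1 / 2) ^ B = 1 := by rw [← mul_pow]; norm_num
      have hT' : (0 : ℝ) < 2 ^ T := by positivity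
      simp only [E]
      generalize E O (k true) g = a at *
      generalize E O (k false) g = b at *
      rw [pow_add]
      generalize (2 : ℝ) ^ B = M at *
      generalize (1 / 2 : ℝ) ^ B = ε at *
      generalize (2 : ℝ) ^ T = N at *
      have h3 : 0 ≤ (c - cl p * M) * a := mul_nonneg (by linarith) e1
      have h4 : (c - cl p * M) * b ≤ 1 := by nlinarith
      have h5 : (cl p * a + (1 - cl p) * b - ((D + 1 : ℕ) : ℝ) * ε) * M ≤
          c * (a - D * ε) + (M - c) * (b - D * ε) := by
        push_cast; nlinarith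
      nlinarith
    · refine SS_congr T _ _ fun v _ => ?_
      simp only [outO, ← hu, List.take_left', List.drop_left']

lemma ptime_eval {α : Type} [TEnc α] {f : α → ℕ} (hf : PTime f) (q : Polynomial ℕ) :
    PTime fun a => q.eval (f a) := by
  induction q using Polynomial.induction_on' with
  | add p q hp hq => simp only [Polynomial.eval_add]; exact hp.add hq
  | monomial k c =>
    simp only [Polynomial.eval_monomial]
    exact (PTime.const c).mul (hf.pow (PTime.const k) (PB.const k))

theorem exists_alg {X α Q : Type} [TEnc X] [TEnc α] [TEnc Q] (P : α → Prog Q ℚ) (hP : PP P)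
    (dec : X × List Bool → α) (hdec : PTime dec) :
    ∃ A : X × List Bool × List Bool → Option Q × ℚ, PTime A ∧ ∃ p : Polynomial ℕ,
      ∀ (x : X) (a : α) (T : ℕ), p.eval (sz a) ≤ T →
        (∀ r : List Bool, r.length = T → dec (x, r) = a) → ∀ O : Q → Bool,
        (∀ r : Fin T → Bool, (action A O x (List.ofFn r) T).1 = none) ∧
        ∀ G : ℚ → Prop, (Pr O (P a) G - (1 / 2) ^ sz a) * 2 ^ T ≤
          (({r : Fin T → Bool | G (action A O x (List.ofFn r) T).2}.ncard : ℕ) : ℝ) := by
  classical
  obtain ⟨q, hq⟩ := hP.dep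
  obtain ⟨R, hR⟩ : ∃ R : X × List Bool × List Bool → Option Q × Option (ℚ × List Bool × List Bool),
      ∀ z, R z = run (q.eval (sz (dec (z.1, z.2.1))) + sz (dec (z.1, z.2.1))) (P (dec (z.1, z.2.1)))
        (z.2.1, z.2.2) := ⟨_, fun _ => rfl⟩
  have hd : PTime fun z : X × List Bool × List Bool => dec (z.1, z.2.1) :=
    hdec.comp (by fun_prop)
  have hRt : PTime R := by
    have h1 : PTime fun z : X × List Bool × List Bool =>
        List.replicate (q.eval (sz (dec (z.1, z.2.1))) + sz (dec (z.1, z.2.1))) () :=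
      PTime.replicate ((ptime_eval hd.sz q).add hd.sz) ((hd.sz_PB.eval q).add hd.sz_PB)
        (PTime.const ())
    refine (hP.time.comp (hd.prodMk (h1.prodMk (PTime.snd PTime.id)))).of_eq fun z => ?_
    simp [hR]
  refine ⟨fun z => ((R z).1, ((R z).2.map Prod.fst).getD 0), ?_,
    q * (q + Polynomial.X) + q, fun x a T hT hdec' O => ?_⟩
  · refine hRt.fst.prodMk (PTime.getD ?_ (PTime.const 0))
    exact PTime.option_map (h := fun _ s => s.1) hRt.snd (by fun_prop)
  obtain ⟨D, hD⟩ : ∃ D, D = q.eval (sz a) := ⟨_, rfl⟩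
  have hT' : D * (D + sz a) + D ≤ T := by simpa [hD] using hT
  have hdep : depth (P a) ≤ D := hD ▸ hq a
  have key : ∀ r : Fin T → Bool,
      action (fun z => ((R z).1, ((R z).2.map Prod.fst).getD 0)) O x (List.ofFn r) T =
        (none, outO (D + sz a) O (P a) (List.ofFn r)) := by
    intro r
    have h1 : dec (x, List.ofFn r) = a := hdec' _ (by simp)
    have h2 : ∀ ans, R (x, List.ofFn r, ans) = run (D + sz a) (P a) (List.ofFn r, ans) := by
      intro ans; rw [hR, hD]; simp only [h1]
    have h3 := answers_eq (fun z => ((R z).1, ((R z).2.map Prod.fst).getD 0)) O x (List.ofFn r)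
      (D + sz a) (P a) (fun ans => by simp only [h2]) T
    have h4 := run_take (D + sz a) O (P a) (List.ofFn r) T
    have h5 := length_qsO_le (D + sz a) O (P a) (List.ofFn r)
    have h6 : (qsO (D + sz a) O (P a) (List.ofFn r)).length ≤ T := by omega
    simp only [action, h3, h2, h4.1, h4.2 h6, List.getElem?_eq_none h6, Option.getD_some]
  refine ⟨fun r => by rw [key], fun G => ?_⟩
  have h1 := SS_outO (D + sz a) O (fun b => if G b then (1 : ℝ) else 0)
    (fun b => by split_ifs <;> norm_num) (fun b => by split_ifs <;> norm_num) (P a) D T hdep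
    (by omega)
  rw [SS_eq, Finset.sum_boole] at h1
  have h2 : {r : Fin T → Bool |
      G (action (fun z => ((R z).1, ((R z).2.map Prod.fst).getD 0)) O x (List.ofFn r) T).2} =
      ↑(Finset.univ.filter fun r : Fin T → Bool => G (outO (D + sz a) O (P a) (List.ofFn r))) := by
    ext r; simp [key]
  rw [h2, Set.ncard_coe_finset]
  refine le_trans ?_ h1
  have h3 : (D : ℝ) * (1 / 2) ^ D ≤ 1 := by
    have : (D : ℝ) ≤ 2 ^ D := by exact_mod_cast Nat.lt_two_pow_self.le
    rw [one_div, inv_pow, ← div_eq_mul_inv, div_le_one (by positivity)]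
    exact this
  have h4 : (D : ℝ) * (1 / 2) ^ (D + sz a) ≤ (1 / 2) ^ sz a := by
    rw [pow_add, ← mul_assoc]
    exact mul_le_of_le_one_left (by positivity) h3
  unfold Pr
  gcongr

end Prog

end Vale.Agent.P317
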