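import Vale.Agent.P317.Stage
import Vale.Agent.P317.AlgoPP
import Vale.Agent.P317.Replay

/-! The FPRAS (job Final). -/

namespace Vale.Agent.P317

open Prog Finset Vale.Agent.PT

variable {n : ℕ} {M₁ M₂ : Matroid (Fin n)}

lemma pow_up {m : ℝ} (hm : 1 ≤ m) {N : ℕ} (hN : (N : ℝ) = 8 * m ^ 2) :
    (1 + 1 / (64 * m ^ 3)) ^ N ≤ 1 + 1 / (4 * m) := by
  have hm0 : 0 < m := by linarith
  have h1 : (1 + 1 / (64 * m ^ 3)) ^ N ≤ Real.exp (1 / (64 * m ^ 3)) ^ N := by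
    gcongr
    rw [add_comm]; exact Real.add_one_le_exp _
  rw [← Real.exp_nat_mul, hN] at h1
  have e : 8 * m ^ 2 * (1 / (64 * m ^ 3)) = 1 / (8 * m) := by field_simp; ring
  rw [e] at h1
  have h2 : 1 / (8 * m) ≤ 1 / 8 := by
    rw [div_le_div_iff₀ (by positivity) (by norm_num)]; linarith
  have h3 := Real.exp_bound_div_one_sub_of_interval (x := 1 / (8 * m)) (by positivity)
    (by linarith)
  refine h1.trans (h3.trans ?_)
  have h4 : 1 / (4 * m) = 2 * (1 / (8 * m)) := by field_simp; ring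
  rw [h4, div_le_iff₀ (by linarith)]
  have : 0 ≤ 1 / (8 * m) := by positivity
  nlinarith

lemma pow_down {m : ℝ} (hm : 1 ≤ m) {N : ℕ} (hN : (N : ℝ) = 8 * m ^ 2) :
    1 - 1 / (8 * m) ≤ (1 - 1 / (64 * m ^ 3)) ^ N := by
  have hm0 : 0 < m := by linarith
  have h0 : 1 / (64 * m ^ 3) ≤ 1 := by
    rw [div_le_one (by positivity)]
    have := one_le_pow₀ (n := 3) hm
    linarith
  have h1 := one_add_mul_le_pow (a := -(1 / (64 * m ^ 3))) (by linarith) N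
  have e : 8 * m ^ 2 * (1 / (64 * m ^ 3)) = 1 / (8 * m) := by field_simp; ring
  rw [hN, mul_neg, e] at h1
  simpa [sub_eq_add_neg] using h1

lemma kap_cast (m : ℕ) : ((kap m : ℚ) : ℝ) = 1 - 1 / (8 * (m : ℝ)) := by
  simp [kap]

lemma kap_pow_le {m : ℕ} (hm : 1 ≤ m) : ((kap m ^ TT m : ℚ) : ℝ) ≤ (1 / 2) ^ m := by
  have hm0 : (1 : ℝ) ≤ m := by exact_mod_cast hm
  rw [Rat.cast_pow, kap_cast]
  have h0 : 1 / (8 * (m : ℝ)) ≤ 1 := by
    rw [div_le_one (by positivity)]; linarith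
  have h1 : (1 - 1 / (8 * (m : ℝ))) ^ TT m ≤ Real.exp (-(1 / (8 * (m : ℝ)))) ^ TT m := by
    have := Real.add_one_le_exp (-(1 / (8 * (m : ℝ))))
    exact pow_le_pow_left₀ (by linarith) (by linarith) _
  rw [← Real.exp_nat_mul] at h1
  have e : (TT m : ℝ) * -(1 / (8 * (m : ℝ))) = m * (-1) := by
    simp only [TT]; push_cast; field_simp
  rw [e, Real.exp_nat_mul] at h1
  refine h1.trans ?_
  gcongr
  rw [Real.exp_neg, one_div]
  have := Real.add_one_le_exp (1 : ℝ)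
  exact inv_anti₀ (by norm_num) (by linarith)

lemma kap_pow_nonneg {m : ℕ} (hm : 1 ≤ m) (t : ℕ) : (0 : ℝ) ≤ ((kap m ^ t : ℚ) : ℝ) := by
  have hm0 : (1 : ℝ) ≤ m := by exact_mod_cast hm
  rw [Rat.cast_pow, kap_cast]
  have h0 : 1 / (8 * (m : ℝ)) ≤ 1 := by
    rw [div_le_one (by positivity)]; linarith
  exact pow_nonneg (by linarith) _

lemma Za_bounds (h₁ : M₁.E = Set.univ) (h₂ : M₂.E = Set.univ) (h : M₁.eRank = M₂.eRank) {q : ℝ}
    (hq : 0 ≤ q) (hq1 : q ≤ 1) :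
    (numCommon M₁ M₂ : ℝ) ≤ Za (wq M₁ M₂ q) n ∧
      Za (wq M₁ M₂ q) n ≤ numCommon M₁ M₂ + 2 ^ n * q := by
  have hU : U n n = univ := by
    ext x
    simp only [U, mem_filter, mem_univ, true_and, iff_true]
    intro i hi
    exact absurd i.isLt (not_lt.2 hi)
  have hZ : Za (wq M₁ M₂ q) n = ∑ x : Fin n → Bool, q ^ nul2 M₁ M₂ x x := by
    simp only [Za, hU, wt, wq, nul_St]
  have hN : (numCommon M₁ M₂ : ℝ) =
      ∑ x : Fin n → Bool, if nul2 M₁ M₂ x x = 0 then (1 : ℝ) else 0 := by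
    rw [numCommon_eq h₁ h₂ h, card_filter]
    push_cast
    rfl
  have hc : (2 : ℝ) ^ n * q = ∑ _x : Fin n → Bool, q := by
    simp
  rw [hZ, hN, hc, ← sum_add_distrib]
  refine ⟨sum_le_sum fun x _ => ?_, sum_le_sum fun x _ => ?_⟩
  · split_ifs with h0
    · simp [h0]
    · positivity
  · split_ifs with h0
    · simp [h0, hq]
    · simpa using pow_le_of_le_one hq hq1 h0

theorem run_good (h₁ : M₁.E = Set.univ) (h₂ : M₂.E = Set.univ) (h : M₁.eRank = M₂.eRank)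
    {ε : ℚ} (hε : ε < 1) {e : ℕ} (he : 0 < e) (heε : 1 ≤ ε * e) :
    14 / 15 ≤ Pr (oracle M₁ M₂) (runP n e) fun v =>
      (1 - ε) * numCommon M₁ M₂ ≤ v ∧ v ≤ (1 + ε) * numCommon M₁ M₂ := by
  set m := n + e + 3 with hm
  have hm4 : n + 4 ≤ m := by omega
  have hm1 : (1 : ℝ) ≤ m := by exact_mod_cast (by omega : 1 ≤ m)
  have hm0 : (0 : ℝ) < m := by linarith
  have hT : ((TT m : ℕ) : ℝ) = 8 * (m : ℝ) ^ 2 := by simp [TT]
  have key := Pr_foldP_range (O := oracle M₁ M₂) (TT m) (stageP n m) (Inv M₁ M₂ m)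
    (η := 1 / (128 * (m : ℝ) ^ 2)) (by positivity)
    (fun t ht s hs => stage_good h₁ h₂ hm4 t ht s hs) _ (inv_zero M₁ M₂ m)
  have e1 : ((TT m : ℕ) : ℝ) * (1 / (128 * (m : ℝ) ^ 2)) = 1 / 16 := by
    rw [hT]; field_simp; norm_num
  rw [e1] at key
  unfold runP
  rw [Pr_bind_ret]
  refine le_trans (by norm_num) (key.trans (Pr_mono _ fun s hs => ?_))
  obtain ⟨-, hlo, hhi⟩ := hs
  have hq0 := kap_pow_nonneg (m := m) (by omega) (TT m)
  have hq1 := kap_pow_le (m := m) (by omega)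
  obtain ⟨hZ1, hZ2⟩ := Za_bounds h₁ h₂ h hq0 (hq1.trans (pow_le_one₀ (by norm_num) (by norm_num)))
  set Z := Za (wq M₁ M₂ ((kap m ^ TT m : ℚ) : ℝ)) n
  have hu := pow_up hm1 hT
  have hd := pow_down hm1 hT
  have heR : (1 : ℝ) ≤ (ε : ℝ) * e := by exact_mod_cast heε
  have hεR : (ε : ℝ) < 1 := by exact_mod_cast hε
  have he0 : (0 : ℝ) < e := by exact_mod_cast he
  have hε0 : (0 : ℝ) < ε := by
    by_contra hc
    have := mul_nonpos_of_nonpos_of_nonneg (not_lt.1 hc) he0.le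
    linarith
  have hem : (e : ℝ) ≤ m := by exact_mod_cast (by omega : e ≤ m)
  have hinv : 1 / (m : ℝ) ≤ ε := by
    rw [div_le_iff₀ hm0]; nlinarith
  have h8 : 1 / (8 * (m : ℝ)) ≤ ε / 8 := by
    have : 1 / (8 * (m : ℝ)) = 1 / (m : ℝ) / 8 := by field_simp
    linarith
  have h4 : 1 / (4 * (m : ℝ)) ≤ ε / 4 := by
    have : 1 / (4 * (m : ℝ)) = 1 / (m : ℝ) / 4 := by field_simp
    linarith
  have htail : (2 : ℝ) ^ n * ((kap m ^ TT m : ℚ) : ℝ) ≤ ε / 8 := by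
    have h5 : (2 : ℝ) ^ n * (1 / 2) ^ m = 1 / (8 * 2 ^ e) := by
      rw [hm, pow_add, pow_add, one_div, inv_pow, inv_pow]; field_simp; norm_num
    have h6 : (e : ℝ) ≤ 2 ^ e := by exact_mod_cast (Nat.lt_two_pow_self (n := e)).le
    have h7 : 1 / (8 * (2 : ℝ) ^ e) ≤ ε / 8 := by
      rw [div_le_div_iff₀ (by positivity) (by norm_num)]; nlinarith
    calc (2 : ℝ) ^ n * ((kap m ^ TT m : ℚ) : ℝ) ≤ 2 ^ n * (1 / 2) ^ m := by gcongr
      _ ≤ ε / 8 := h5 ▸ h7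
  have hN0 : (0 : ℝ) ≤ numCommon M₁ M₂ := Nat.cast_nonneg _
  have hZ0 : 0 ≤ Z := hN0.trans hZ1
  have hlo' : (1 - ε / 8) * (numCommon M₁ M₂ : ℝ) ≤ s.2 := by
    refine le_trans ?_ hlo
    exact mul_le_mul (by linarith) hZ1 hN0 (by linarith)
  have hhi' : (s.2 : ℝ) ≤ (1 + ε / 4) * (numCommon M₁ M₂ + ε / 8) := by
    refine hhi.trans ?_
    gcongr <;> linarith
  rcases Nat.eq_zero_or_pos (numCommon M₁ M₂) with h0 | h0
  · have : s.2 < 1 / 2 := by
      have h9 : (s.2 : ℝ) < 1 / 2 := by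
        rw [h0] at hhi'; push_cast at hhi'; nlinarith
      have : ((s.2 : ℚ) : ℝ) < ((1 / 2 : ℚ) : ℝ) := by push_cast; exact h9
      exact_mod_cast this
    rw [if_pos this, h0]
    simp
  · have hN1 : (1 : ℝ) ≤ numCommon M₁ M₂ := by exact_mod_cast h0
    have : ¬ s.2 < 1 / 2 := by
      intro hc
      have h9 : ((s.2 : ℚ) : ℝ) < ((1 / 2 : ℚ) : ℝ) := by exact_mod_cast hc
      push_cast at h9
      nlinarith
    rw [if_neg this]
    constructor
    · have : (1 - (ε : ℝ)) * numCommon M₁ M₂ ≤ s.2 := by nlinarith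
      exact_mod_cast this
    · have : (s.2 : ℝ) ≤ (1 + (ε : ℝ)) * numCommon M₁ M₂ := by nlinarith
      exact_mod_cast this

/-- the unary parameters of the main program -/
def dec (z : (ℕ × ℚ × ℚ) × List Bool) : List Unit × List Unit × List Unit :=
  (List.replicate (min z.1.1 z.2.length) (),
    List.replicate (min ⌈z.1.2.1⁻¹⌉.toNat z.2.length) (),
    List.replicate (min (Nat.log 2 ⌈z.1.2.2⁻¹⌉.toNat + 1) z.2.length) ())

lemma ptime_dec : PTime dec := by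
  have hb : ∀ f : (ℕ × ℚ × ℚ) × List Bool → ℕ, PB fun z => min (f z) z.2.length := fun f =>
    (PB.length (l := fun z : (ℕ × ℚ × ℚ) × List Bool => z.2) (by fun_prop)).of_le fun _ =>
      min_le_right _ _
  unfold dec
  refine PTime.prodMk ?_ (PTime.prodMk ?_ ?_) <;>
    exact PTime.replicate (by fun_prop) (hb _) (by fun_prop)

lemma sz_replicate_unit (k : ℕ) : sz (List.replicate k ()) = 2 * k + 1 := by
  induction k with
  | zero => rfl
  | succ k ih => simp [List.replicate_succ, ih]; omega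

theorem exists_fpras : ∃ A, IsFPRAS A := by
  obtain ⟨A, hA, p, hp⟩ := exists_alg _ pp_mainP dec ptime_dec
  refine ⟨A, hA.toTM, p.comp (Polynomial.C 2 * Polynomial.X + Polynomial.C 7) + Polynomial.X +
    Polynomial.C 1, fun n M₁ M₂ h₁ h₂ h ε δ hε0 hε1 hδ0 hδ1 T hT => ?_⟩
  set e := ⌈ε⁻¹⌉₊ with he
  set l := Nat.log 2 ⌈δ⁻¹⌉₊ + 1 with hl
  have hlc : l ≤ Nat.clog 2 ⌈δ⁻¹⌉₊ + 1 := by
    have := Nat.log_le_clog 2 ⌈δ⁻¹⌉₊
    omega
  simp only [Polynomial.eval_add, Polynomial.eval_comp, Polynomial.eval_mul, Polynomial.eval_C,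
    Polynomial.eval_X] at hT
  let a : List Unit × List Unit × List Unit :=
    (List.replicate n (), List.replicate e (), List.replicate l ())
  have hsz : sz a = 2 * (n + e + l) + 5 := by
    simp only [a, sz_prod, sz_replicate_unit]; omega
  have h1 : p.eval (sz a) ≤ T := by
    have := eval_mono p (show sz a ≤ 2 * (n + e + Nat.clog 2 ⌈δ⁻¹⌉₊) + 7 by omega)
    omega
  have h2 : ∀ r : List Bool, r.length = T → dec ((n, ε, δ), r) = a := by
    intro r hr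
    have e1 : ⌈ε⁻¹⌉.toNat = e := rfl
    have e2 : ⌈δ⁻¹⌉.toNat = ⌈δ⁻¹⌉₊ := rfl
    simp only [dec, a, hr, e1, e2]
    rw [min_eq_left (by omega), min_eq_left (by omega), min_eq_left (by omega)]
  obtain ⟨h3, h4⟩ := hp (n, ε, δ) a T h1 h2 (oracle M₁ M₂)
  refine ⟨h3, ?_⟩
  have h5 := h4 fun v => (1 - ε) * numCommon M₁ M₂ ≤ v ∧ v ≤ (1 + ε) * numCommon M₁ M₂
  have he0 : 0 < e := Nat.ceil_pos.2 (inv_pos.2 hε0)
  have heε : 1 ≤ ε * e := by
    have := Nat.le_ceil ε⁻¹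
    calc (1 : ℚ) = ε * ε⁻¹ := (mul_inv_cancel₀ hε0.ne').symm
      _ ≤ ε * e := by gcongr
  have h6 := amplify (runP n e) _ _ (run_good h₁ h₂ h hε1 he0 heε) (s := l + 1) (by omega)
  have h7 : mainP a.1.length a.2.1.length a.2.2.length =
      bind (rep (l + 1) (runP n e)) fun vs => .ret (median vs) := by
    simp [a, mainP]
  rw [h7] at h5
  have h8 : (1 / 2 : ℝ) ^ sz a ≤ (1 / 2) ^ (l + 1) :=
    pow_le_pow_of_le_one (by norm_num) (by norm_num) (by omega)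
  have h9 : (1 / 2 : ℝ) ^ l ≤ δ := by
    have h10 : ⌈δ⁻¹⌉₊ < 2 ^ l := Nat.lt_pow_succ_log_self (by norm_num) _
    have h11 : δ⁻¹ ≤ (2 : ℚ) ^ l := (Nat.le_ceil _).trans (by exact_mod_cast h10.le)
    have h12 : (δ : ℝ)⁻¹ ≤ 2 ^ l := by exact_mod_cast h11
    have hδ : (0 : ℝ) < δ := by exact_mod_cast hδ0
    rw [one_div, inv_pow]
    exact (inv_le_comm₀ (by positivity) hδ).2 h12
  have h13 : (1 - (δ : ℝ)) * 2 ^ T ≤ _ := le_trans (by
    have : (1 / 2 : ℝ) ^ (l + 1) = (1 / 2) ^ l / 2 := by ring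
    exact mul_le_mul_of_nonneg_right (by linarith) (by positivity)) h5
  exact_mod_cast h13

end Vale.Agent.P317
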