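import Vale.Agent.P317.FlowA

/-! The transport inequality (job Flow). -/

namespace Vale.Agent.P317

open Finset

variable {n : ℕ} {w : Finset (El n) → ℝ}

namespace Fl

/-- the points that agree with `x₀` outside `K` -/
def V (K : List (Fin n)) (x₀ : Fin n → Bool) : Finset (Fin n → Bool) :=
  univ.filter fun x => ∀ i, i ∉ K → x i = x₀ i

lemma V_filter {l : Fin n} {K : List (Fin n)} (hl : l ∉ K) (x₀ : Fin n → Bool) (c : Bool) :
    (V (l :: K) x₀).filter (fun x => x l = c) = V K (Function.update x₀ l c) := by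
  ext x
  simp only [V, mem_filter, mem_univ, true_and, List.mem_cons, not_or]
  constructor
  · rintro ⟨h1, h2⟩ i hi
    by_cases e : i = l
    · subst e; simp [h2]
    · rw [Function.update_of_ne e]; exact h1 i ⟨e, hi⟩
  · intro h
    refine ⟨fun i hi => ?_, ?_⟩
    · rw [h i hi.2, Function.update_of_ne hi.1]
    · rw [h l hl]; simp

lemma sum_V_cons {l : Fin n} {K : List (Fin n)} (hl : l ∉ K) (x₀ : Fin n → Bool)
    (F : (Fin n → Bool) → ℝ) : ∑ x ∈ V (l :: K) x₀, F x =
      ∑ x ∈ V K (Function.update x₀ l false), F x + ∑ x ∈ V K (Function.update x₀ l true), F x := by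
  rw [← V_filter hl, ← V_filter hl, ← sum_filter_add_sum_filter_not _ (fun x => x l = false)]
  simp

lemma insert_St {X : Finset (Fin n)} {l : Fin n} (hl : l ∉ X) (x : Fin n → Bool) (c : Bool) :
    insert (l, c) (St (insert l X) x) = St X (Function.update x l c) := by
  ext ⟨i, d⟩
  simp only [St, mem_insert, mem_filter, mem_univ, true_and, Prod.mk.injEq, not_or]
  by_cases e : i = l
  · subst e; simp [hl, eq_comm]
  · simp [e]

lemma Tr_St (f : Finset (El n) → ℝ) (X : Finset (Fin n)) : ∀ (K : List (Fin n)), K.Nodup →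
    (∀ l ∈ K, l ∉ X) → ∀ x₀, Tr K f (St (X ∪ K.toFinset) x₀) = ∑ x ∈ V K x₀, f (St X x)
  | [], _, _, x₀ => by
    have : V [] x₀ = {x₀} := by ext x; simp [V, funext_iff]
    simp [Tr, this]
  | l :: K, hK, hX, x₀ => by
    have hl := (List.nodup_cons.1 hK).1
    have hK' := (List.nodup_cons.1 hK).2
    have h1 : l ∉ X ∪ K.toFinset := by simp [hl, hX l (by simp)]
    have hX' : ∀ j ∈ K, j ∉ X := fun j hj => hX j (List.mem_cons_of_mem _ hj)
    rw [sum_V_cons hl, ← Tr_St f X K hK' hX', ← Tr_St f X K hK' hX', List.toFinset_cons,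
      union_insert, Tr, insert_St h1, insert_St h1]

lemma sum_V_flp {l : Fin n} {K : List (Fin n)} (hl : l ∉ K) (x₀ : Fin n → Bool)
    (F : (Fin n → Bool) → ℝ) : ∑ x ∈ V K (Function.update x₀ l true), F x =
      ∑ x ∈ V K (Function.update x₀ l false), F (flp l x) := by
  have hinv : ∀ x : Fin n → Bool, flp l (flp l x) = x := fun x => by simp [flp]
  have hm : ∀ c x, x ∈ V K (Function.update x₀ l c) → flp l x ∈ V K (Function.update x₀ l !c) := by
    intro c x hx
    simp only [V, mem_filter, mem_univ, true_and] at hx ⊢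
    intro i hi
    by_cases e : i = l
    · subst e; simp [flp, hx i hi]
    · rw [flp, Function.update_of_ne e, Function.update_of_ne e, hx i hi, Function.update_of_ne e]
  exact sum_nbij' (flp l) (flp l) (hm true) (hm false) (fun x _ => hinv x) (fun x _ => hinv x)
    fun x _ => by rw [hinv]

lemma V_perm {K K' : List (Fin n)} (h : ∀ i, i ∈ K ↔ i ∈ K') (x₀ : Fin n → Bool) :
    V K x₀ = V K' x₀ := by
  ext x; simp [V, h]

/-- the list of the coordinates below `k` -/
noncomputable def KK (k : Fin n) : List (Fin n) := (Iio k).toList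

lemma mem_KK {k j : Fin n} : j ∈ KK k ↔ j < k := by simp [KK]

lemma nodup_KK (k : Fin n) : (KK k).Nodup := nodup_toList _

lemma V_KK (k : Fin n) : V (KK k) (fun _ => false) = U n k := by
  ext x
  simp only [V, U, mem_KK, mem_filter, mem_univ, true_and, not_lt, Fin.le_def]

/-- the base set -/
noncomputable def S₀ (k : Fin n) : Finset (El n) := St ({k} ∪ (KK k).toFinset) fun _ => false

lemma fresh_S₀ (k : Fin n) : Fresh (KK k) (S₀ k) := by
  intro l hl c
  simp [S₀, St, hl]

lemma Tr_KK (k : Fin n) (f : Finset (El n) → ℝ) :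
    Tr (KK k) f (S₀ k) = ∑ x ∈ U n k, f (St {k} x) := by
  rw [S₀, Tr_St f {k} _ (nodup_KK k) (fun l hl => by simpa using (mem_KK.1 hl).ne), V_KK]

lemma mem_erase_KK {k j i : Fin n} : i ∈ (KK k).erase j ↔ i ≠ j ∧ i < k := by
  rw [(nodup_KK k).mem_erase_iff, mem_KK]

/-- sums over pairs -/
lemma Tr_erase {k j : Fin n} (hj : j < k) (f : Finset (El n) → ℝ) (F : (Fin n → Bool) → ℝ)
    (hF : ∀ x ∈ U n k, x j = false → F x + F (flp j x) = f (St {j, k} x)) :
    Tr ((KK k).erase j) f (S₀ k) = ∑ x ∈ U n k, F x := by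
  have hjn : j ∉ (KK k).erase j := by simp [mem_erase_KK]
  have h1 : S₀ k = St ({j, k} ∪ ((KK k).erase j).toFinset) fun _ => false := by
    rw [S₀]; congr 1
    ext i
    simp only [mem_union, mem_singleton, List.mem_toFinset, mem_KK, mem_insert, mem_erase_KK]
    by_cases e : i = j <;> simp [e, hj]
  have h2 : U n k = V (j :: (KK k).erase j) fun _ => false := by
    rw [← V_KK]
    refine V_perm (fun i => ?_) _
    simp only [mem_KK, List.mem_cons, mem_erase_KK]
    by_cases e : i = j <;> simp [e, hj]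
  have h3 : (Function.update (fun _ => false) j false : Fin n → Bool) = fun _ => false := by simp
  rw [h1, Tr_St f _ _ ((nodup_KK k).erase j) (fun l hl => by
    have := mem_erase_KK.1 hl
    simp [this.1, this.2.ne]), h2, sum_V_cons hjn, sum_V_flp hjn, ← sum_add_distrib, h3]
  refine sum_congr rfl fun x hx => (hF x ?_ ?_).symm
  · rw [h2]
    simp only [V, mem_filter, mem_univ, true_and] at hx ⊢
    exact fun i hi => hx i fun e => hi (List.mem_cons_of_mem _ e)
  · simp only [V, mem_filter, mem_univ, true_and] at hx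
    exact hx j hjn

lemma St_false {k j : Fin n} (hj : j < k) {x : Fin n → Bool} (hx : x j = false) :
    insert (j, false) (St {j, k} x) = St {k} x := by
  rw [insert_St (by simpa using hj.ne), ← hx, Function.update_eq_self]

lemma St_true {k j : Fin n} (hj : j < k) {x : Fin n → Bool} (hx : x j = false) :
    insert (j, true) (St {j, k} x) = St {k} (flp j x) := by
  rw [insert_St (by simpa using hj.ne), flp, hx]; rfl

lemma ga_false {k j : Fin n} (hj : j < k) {x : Fin n → Bool} (hx : x j = false) :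
    ga w k j x = w (insert (j, false) (insert (j, true) (St {j, k} x))) := by
  rw [ga, hx, insert_comm, St_false hj hx]; rfl

lemma ga_true {k j : Fin n} (hj : j < k) {x : Fin n → Bool} (hx : x j = false) :
    ga w k j (flp j x) = w (insert (j, false) (insert (j, true) (St {j, k} x))) := by
  rw [ga, St_true hj hx]; simp [flp, hx]

/-- the function on sets defined by a function on the cube -/
def GG (h : (Fin n → Bool) → ℝ) (T : Finset (El n)) : ℝ := h fun i => decide ((i, true) ∈ T)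

lemma GG_St (h : (Fin n → Bool) → ℝ) {k : Fin n} {x : Fin n → Bool} (hx : x k = false) :
    GG h (St {k} x) = h x := by
  rw [GG]; congr 1
  funext i
  by_cases e : i = k
  · subst e; simp [St, hx]
  · simp [St, e]

lemma U_k {k : Fin n} {x : Fin n → Bool} (hx : x ∈ U n k) : x k = false :=
  (mem_filter.1 hx).2 k le_rfl

lemma En_eq {k j : Fin n} (hj : j < k) (h : (Fin n → Bool) → ℝ) :
    En w (GG h) j ((KK k).erase j) (S₀ k) = Ed w k j h := by
  rw [En, Ed, sum_div]
  refine Tr_erase hj _ _ fun x hx hxj => ?_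
  have h1 : flp j (flp j x) = x := by simp [flp]
  have h2 : flp j x k = false := by rw [flp, Function.update_of_ne hj.ne', U_k hx]
  rw [ga_true hj hxj, ga_false hj hxj, h1, St_false hj hxj, St_true hj hxj, GG_St h (U_k hx),
    GG_St h h2]
  ring

lemma WW_eq {k j : Fin n} (hj : j < k) :
    Tr ((KK k).erase j) (fun T => w (insert (j, false) (insert (j, true) T))) (S₀ k) =
      WW w k j := by
  rw [WW, sum_div]
  refine Tr_erase hj _ _ fun x _ hxj => ?_
  rw [ga_true hj hxj, ga_false hj hxj]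
  ring

lemma Tr_A {k j : Fin n} (hj : j < k) (f : Finset (El n) → ℝ) :
    Tr ((KK k).erase j) (D (A j) f) (S₀ k) = Tr (KK k) f (S₀ k) := by
  rw [Tr_KK]
  refine Tr_erase hj _ _ fun x _ hxj => ?_
  rw [D_A, if_neg (by simp [St]), if_neg (by simp [St]), St_false hj hxj, St_true hj hxj]

lemma B_le (hw : ∀ S, 0 < w S) (hL : Lorentz w) {k j : Fin n} (hj : j < k) {p p' : El n → ℝ}
    (hp : ∀ e, 0 ≤ p e) (hp' : ∀ e, 0 ≤ p' e) (h1 : Tr (KK k) (D p w) (S₀ k) = 1)
    (h1' : Tr (KK k) (D p' w) (S₀ k) = 1) :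
    0 < WW w k j ∧ B w ((KK k).erase j) (p - p') (S₀ k) ≤ 1 / WW w k j := by
  have hW : 0 < WW w k j := WW_eq (w := w) hj ▸ Tr_pos (fun _ => hw _) _ _
  refine ⟨hW, ?_⟩
  have hK := (nodup_KK k).erase j
  have hS : Fresh ((KK k).erase j) (S₀ k) := fun l hl => fresh_S₀ k l (List.mem_of_mem_erase hl)
  have hjn : j ∉ (KK k).erase j := by simp [mem_erase_KK]
  have hQ := Tr_DD w hK hS
  set f := DL (((KK k).erase j).map A) w with hf
  have hA : ∀ y, Q f (S₀ k) (A j) y = Tr (KK k) (D y w) (S₀ k) := fun y => by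
    rw [← hQ, Tr_A hj]
  have hAA : Q f (S₀ k) (A j) (A j) = 2 * WW w k j := by
    rw [← hQ, ← WW_eq hj, ← Tr_mul]
    refine Tr_congr j (fun T hT => ?_) _ hjn _ (fresh_S₀ k j (mem_KK.2 hj))
    rw [D_A, if_neg (hT _), if_neg (hT _), D_A, D_A, if_pos (by simp), if_neg (by simp [hT]),
      if_neg (by simp [hT]), if_pos (by simp), insert_comm]
    ring
  have hpos : ∀ y : El n → ℝ, (∀ e, 0 ≤ y e) → 0 ≤ Q f (S₀ k) y y := fun y hy => by
    rw [← hQ]
    have := Tr_mono (f := fun T => 0 * w T) (g := D y (D y w)) j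
      (fun T _ => by simpa using D_nonneg hy (D_nonneg hy fun T => (hw T).le) T) _ hjn _
      (fresh_S₀ k j (mem_KK.2 hj))
    rwa [Tr_mul, zero_mul] at this
  have := lorAt_A hL ((KK k).erase j) (S₀ k) (p + p') (A j) (by
    change 0 < Q f _ _ _; rw [hAA]; positivity)
  change Q f _ _ _ * Q f _ _ _ ≤ Q f _ _ _ ^ 2 at this
  rw [hAA, Q_comm f _ _ (A j), Q_add_right f _ (A j), hA, hA, h1, h1'] at this
  rw [B, hQ]
  simp only [Q_add_left, Q_add_right, Q_sub_left, Q_sub_right, Q_comm f _ p' p] at this ⊢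
  have h2 := hpos p hp
  have h3 := hpos p' hp'
  rw [le_div_iff₀ hW]
  nlinarith [mul_nonneg h2 hW.le, mul_nonneg h3 hW.le]

end Fl

open Fl

theorem transport (hw : ∀ S, 0 < w S) (hL : Lorentz w) (k : Fin n) (ρ : Fin n → ℝ)
    (hρ : ∀ j, 0 ≤ ρ j) (h : (Fin n → Bool) → ℝ) {θ : ℝ} (hθ : 0 < θ) :
    nuE w k h - omE w k ρ h ≤ (∑ j ∈ Iio k, (θ + Ed w k j h / (θ * WW w k j))) / 2 := by
  have hne : (U n k).Nonempty := ⟨fun _ => false, by simp [U]⟩
  have hZa : 0 < Za w k := sum_pos (fun _ _ => hw _) hne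
  have hOm : 0 < Om w k ρ := sum_pos (fun x _ => add_pos_of_pos_of_nonneg
    (add_pos (hw _) (hw _)) (sum_nonneg fun j _ => mul_nonneg (hρ j) (hw _).le)) hne
  set u : El n → ℝ := ind (k, false) with hu
  set v : El n → ℝ := A k + ∑ j ∈ Iio k, ρ j • A j with hv
  have hDu : ∀ x ∈ U n k, D u w (St {k} x) = wt w x := fun x hx => by
    have := insert_St (X := ∅) (l := k) (by simp) x false
    rw [← U_k hx, Function.update_eq_self, U_k hx] at this
    rw [hu, D_ind, if_neg (by simp [St]), wt, ← this]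
    rfl
  have hDv : ∀ x, D v w (St {k} x) = om w k ρ x := fun x => by
    rw [hv, D_add_left, D_sum_left, D_A, if_neg (by simp [St]), if_neg (by simp [St]), om, al, al]
    congr 1
    refine sum_congr rfl fun j hj => ?_
    have hjk : j ≠ k := (mem_Iio.1 hj).ne
    rw [D_smul_left, D_A, ga]
    cases hx : x j <;> simp [St, hjk, hx]
  have hp : ∀ e, 0 ≤ ((Za w k)⁻¹ • u) e := fun e =>
    mul_nonneg (inv_nonneg.2 hZa.le) (ind_nonneg _ _)
  have hp' : ∀ e, 0 ≤ ((Om w k ρ)⁻¹ • v) e := fun e => by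
    refine mul_nonneg (inv_nonneg.2 hOm.le) ?_
    rw [hv, Pi.add_apply, Finset.sum_apply]
    exact add_nonneg (A_nonneg _ _) (sum_nonneg fun j _ => mul_nonneg (hρ j) (A_nonneg _ _))
  have h1 : Tr (KK k) (D ((Za w k)⁻¹ • u) w) (S₀ k) = 1 := by
    rw [Tr_KK, sum_congr rfl fun x hx => by rw [D_smul_left, hDu x hx], ← mul_sum]
    exact inv_mul_cancel₀ hZa.ne'
  have h1' : Tr (KK k) (D ((Om w k ρ)⁻¹ • v) w) (S₀ k) = 1 := by
    rw [Tr_KK, sum_congr rfl fun x _ => by rw [D_smul_left, hDv x], ← mul_sum]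
    exact inv_mul_cancel₀ hOm.ne'
  have hB := fun j (hj : j < k) => B_le hw hL hj hp hp' h1 h1'
  have hf := flow hw hL (fun j => θ * WW w k j) (GG h) (KK k) (nodup_KK k)
    (fun j hj => mul_pos hθ (hB j (mem_KK.1 hj)).1) (S₀ k) (fresh_S₀ k)
    ((Za w k)⁻¹ • u - (Om w k ρ)⁻¹ • v) (by
      rw [Tr_KK] at h1 h1' ⊢
      simp only [D_sub_left, sum_sub_distrib, h1, h1', sub_self])
  have hl : Tr (KK k) (fun T => GG h T * D ((Za w k)⁻¹ • u - (Om w k ρ)⁻¹ • v) w T) (S₀ k) =
      nuE w k h - omE w k ρ h := by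
    rw [Tr_KK, nuE, omE, sum_div, sum_div, ← sum_sub_distrib]
    refine sum_congr rfl fun x hx => ?_
    rw [D_sub_left, D_smul_left, D_smul_left, hDu x hx, hDv, GG_St h (U_k hx)]
    ring
  rw [hl, KK, toList_toFinset] at hf
  refine hf.trans (div_le_div_of_nonneg_right (sum_le_sum fun j hj => ?_) (by norm_num))
  obtain ⟨hW, hb⟩ := hB j (mem_Iio.1 hj)
  have he := En_eq (w := w) (mem_Iio.1 hj) h
  rw [KK] at hb he
  rw [he]
  have := mul_le_mul_of_nonneg_left hb (mul_pos hθ hW).le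
  rw [mul_one_div, mul_div_assoc, div_self hW.ne', mul_one] at this
  linarith

end Vale.Agent.P317
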