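import Vale.Agent.P317.Node

/-! The martingale flow: the abstract inequality (helper file of job Flow). -/

namespace Vale.Agent.P317.Fl

open Finset

variable {n : ℕ}

/-- indicator vector of an element -/
def ind (e : El n) : El n → ℝ := fun e' => if e' = e then 1 else 0

/-- indicator vector of a coordinate -/
def A (l : Fin n) : El n → ℝ := ind (l, false) + ind (l, true)

lemma ind_nonneg (e e' : El n) : 0 ≤ ind e e' := by
  unfold ind; split_ifs <;> norm_num

lemma A_nonneg (l : Fin n) (e : El n) : 0 ≤ A l e :=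
  add_nonneg (ind_nonneg _ _) (ind_nonneg _ _)

lemma D_ind (e : El n) (f : Finset (El n) → ℝ) (S : Finset (El n)) :
    D (ind e) f S = if e ∈ S then 0 else f (insert e S) := by
  rw [D_eq, sum_eq_single e]
  · simp [ind]
  · intro b _ hb; simp [ind, hb]
  · simp

lemma D_A (l : Fin n) (f : Finset (El n) → ℝ) (S : Finset (El n)) :
    D (A l) f S = (if (l, false) ∈ S then 0 else f (insert (l, false) S)) +
      (if (l, true) ∈ S then 0 else f (insert (l, true) S)) := by
  rw [A, D_add_left, D_ind, D_ind]

lemma D_nonneg {v : El n → ℝ} {f : Finset (El n) → ℝ} (hv : ∀ e, 0 ≤ v e) (hf : ∀ T, 0 ≤ f T)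
    (S : Finset (El n)) : 0 ≤ D v f S :=
  sum_nonneg fun _ _ => mul_nonneg (hv _) (hf _)

lemma D_sub_left (u v : El n → ℝ) (f : Finset (El n) → ℝ) (S : Finset (El n)) :
    D (u - v) f S = D u f S - D v f S := by
  simp [D, sub_mul, sum_sub_distrib]

lemma D_sum_left {ι : Type} (s : Finset ι) (v : ι → El n → ℝ) (f : Finset (El n) → ℝ)
    (S : Finset (El n)) : D (∑ i ∈ s, v i) f S = ∑ i ∈ s, D (v i) f S := by
  simp only [D, Finset.sum_apply, sum_mul]
  exact sum_comm

/-- the bilinear form -/
def Q (f : Finset (El n) → ℝ) (S : Finset (El n)) (x y : El n → ℝ) : ℝ := D x (D y f) S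

lemma Q_comm (f : Finset (El n) → ℝ) (S : Finset (El n)) (x y : El n → ℝ) :
    Q f S x y = Q f S y x := by rw [Q, D_comm, Q]

lemma Q_add_left (f : Finset (El n) → ℝ) (S : Finset (El n)) (x x' y : El n → ℝ) :
    Q f S (x + x') y = Q f S x y + Q f S x' y := D_add_left _ _ _ _

lemma Q_sub_left (f : Finset (El n) → ℝ) (S : Finset (El n)) (x x' y : El n → ℝ) :
    Q f S (x - x') y = Q f S x y - Q f S x' y := D_sub_left _ _ _ _

lemma Q_smul_left (f : Finset (El n) → ℝ) (S : Finset (El n)) (c : ℝ) (x y : El n → ℝ) :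
    Q f S (c • x) y = c * Q f S x y := D_smul_left _ _ _ _

lemma Q_add_right (f : Finset (El n) → ℝ) (S : Finset (El n)) (x y y' : El n → ℝ) :
    Q f S x (y + y') = Q f S x y + Q f S x y' := by
  rw [Q_comm, Q_add_left, Q_comm f S y, Q_comm f S y']

lemma Q_sub_right (f : Finset (El n) → ℝ) (S : Finset (El n)) (x y y' : El n → ℝ) :
    Q f S x (y - y') = Q f S x y - Q f S x y' := by
  rw [Q_comm, Q_sub_left, Q_comm f S y, Q_comm f S y']

lemma Q_smul_right (f : Finset (El n) → ℝ) (S : Finset (El n)) (c : ℝ) (x y : El n → ℝ) :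
    Q f S x (c • y) = c * Q f S x y := by
  rw [Q_comm, Q_smul_left, Q_comm]

/-- the sum over all transversals of the coordinates in a list -/
def Tr : List (Fin n) → (Finset (El n) → ℝ) → Finset (El n) → ℝ
  | [], f, S => f S
  | l :: K, f, S => Tr K f (insert (l, false) S) + Tr K f (insert (l, true) S)

def Fresh (K : List (Fin n)) (S : Finset (El n)) : Prop := ∀ l ∈ K, ∀ c, (l, c) ∉ S

lemma Fresh.insert {l : Fin n} {K : List (Fin n)} {S : Finset (El n)} (h : Fresh (l :: K) S)
    (hl : l ∉ K) (c : Bool) : Fresh K (insert (l, c) S) := by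
  intro j hj d hm
  rcases mem_insert.1 hm with h1 | h1
  · exact hl ((Prod.mk.inj h1).1 ▸ hj)
  · exact h j (List.mem_cons_of_mem _ hj) d h1

lemma Fresh.tail {l : Fin n} {K : List (Fin n)} {S : Finset (El n)} (h : Fresh (l :: K) S) :
    Fresh K S := fun j hj => h j (List.mem_cons_of_mem _ hj)

lemma Tr_eq (f : Finset (El n) → ℝ) : ∀ (K : List (Fin n)), K.Nodup → ∀ S, Fresh K S →
    Tr K f S = DL (K.map A) f S
  | [], _, _, _ => rfl
  | l :: K, hK, S, hS => by
    have hl := (List.nodup_cons.1 hK).1
    have hK' := (List.nodup_cons.1 hK).2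
    simp only [Tr, List.map_cons, DL]
    rw [D_A, if_neg (hS l (by simp) _), if_neg (hS l (by simp) _),
      Tr_eq f K hK' _ (hS.insert hl _), Tr_eq f K hK' _ (hS.insert hl _)]

lemma Tr_add (f g : Finset (El n) → ℝ) : ∀ (K : List (Fin n)) S,
    Tr K (fun T => f T + g T) S = Tr K f S + Tr K g S
  | [], _ => rfl
  | l :: K, S => by simp only [Tr, Tr_add f g K]; ring

lemma Tr_mul (c : ℝ) (f : Finset (El n) → ℝ) : ∀ (K : List (Fin n)) S,
    Tr K (fun T => c * f T) S = c * Tr K f S
  | [], _ => rfl
  | l :: K, S => by simp only [Tr, Tr_mul c f K]; ring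

lemma Tr_shift (e : El n) (f : Finset (El n) → ℝ) : ∀ (K : List (Fin n)) S,
    Tr K f (insert e S) = Tr K (fun T => f (insert e T)) S
  | [], _ => rfl
  | l :: K, S => by
    simp only [Tr]
    rw [insert_comm, Tr_shift e f K, insert_comm (l, true), Tr_shift e f K]

lemma Tr_mono {f g : Finset (El n) → ℝ} (l : Fin n)
    (h : ∀ T, (∀ c, (l, c) ∉ T) → f T ≤ g T) : ∀ (K : List (Fin n)), l ∉ K →
    ∀ S, (∀ c, (l, c) ∉ S) → Tr K f S ≤ Tr K g S
  | [], _, S, hS => h S hS
  | j :: K, hl, S, hS => by
    have hj : l ≠ j := fun e => hl (by simp [e])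
    have hK : l ∉ K := fun e => hl (by simp [e])
    simp only [Tr]
    exact add_le_add (Tr_mono l h K hK _ fun c => by simp [hj, hS c])
      (Tr_mono l h K hK _ fun c => by simp [hj, hS c])

lemma Tr_congr {f g : Finset (El n) → ℝ} (l : Fin n)
    (h : ∀ T, (∀ c, (l, c) ∉ T) → f T = g T) (K : List (Fin n)) (hl : l ∉ K)
    (S : Finset (El n)) (hS : ∀ c, (l, c) ∉ S) : Tr K f S = Tr K g S :=
  le_antisymm (Tr_mono l (fun T hT => (h T hT).le) K hl S hS)
    (Tr_mono l (fun T hT => (h T hT).ge) K hl S hS)

lemma Tr_pos {f : Finset (El n) → ℝ} (h : ∀ T, 0 < f T) : ∀ (K : List (Fin n)) S, 0 < Tr K f S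
  | [], S => h S
  | _ :: K, _ => add_pos (Tr_pos h K _) (Tr_pos h K _)

lemma Tr_DD (w : Finset (El n) → ℝ) {K : List (Fin n)} (hK : K.Nodup) {S : Finset (El n)}
    (hS : Fresh K S) (x y : El n → ℝ) :
    Tr K (D x (D y w)) S = Q (DL (K.map A) w) S x y := by
  rw [Tr_eq _ K hK S hS, Q, D_DL, D_DL]

lemma lorAt_A {w : Finset (El n) → ℝ} (hL : Lorentz w) (K : List (Fin n)) (S : Finset (El n)) :
    LorAt (DL (K.map A) w) S := by
  refine hL _ (fun v hv e => ?_) S
  obtain ⟨l, -, rfl⟩ := List.mem_map.1 hv
  exact A_nonneg l e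

/-- the Lorentzian bound for the balancing coefficient -/
lemma key {f : Finset (El n) → ℝ} {S : Finset (El n)} (hf : LorAt f S) {l : Fin n}
    (hS : ∀ c, (l, c) ∉ S) (hσ : 0 < f (insert (l, false) (insert (l, true) S))) (z : El n → ℝ)
    (hz : D z f (insert (l, false) S) + D z f (insert (l, true) S) = 0) :
    D z f (insert (l, false) S) ^ 2 / f (insert (l, false) (insert (l, true) S)) ≤
      -(Q f S z z) / 2 := by
  set σ := f (insert (l, false) (insert (l, true) S)) with hσd
  set u := D z f (insert (l, false) S) with hu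
  have hza : Q f S (ind (l, false)) z = u := by rw [Q, D_ind, if_neg (hS _)]
  have hzb : Q f S (ind (l, true)) z = -u := by rw [Q, D_ind, if_neg (hS _)]; linarith
  have haa : Q f S (ind (l, false)) (ind (l, false)) = 0 := by
    rw [Q, D_ind, if_neg (hS _), D_ind, if_pos (by simp)]
  have hbb : Q f S (ind (l, true)) (ind (l, true)) = 0 := by
    rw [Q, D_ind, if_neg (hS _), D_ind, if_pos (by simp)]
  have hba : Q f S (ind (l, true)) (ind (l, false)) = σ := by
    rw [Q, D_ind, if_neg (hS _), D_ind, if_neg (by simp [hS])]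
  have hab : Q f S (ind (l, false)) (ind (l, true)) = σ := by rw [Q_comm, hba]
  have hza' := (Q_comm f S z _).trans hza
  have hzb' := (Q_comm f S z _).trans hzb
  have h1 : Q f S (A l) (A l) = 2 * σ := by
    simp only [A, Q_add_left, Q_add_right, haa, hbb, hab, hba]; ring
  have := hf (z + (u / σ) • (ind (l, false) - ind (l, true))) (A l) (by
    change 0 < Q f S _ _; rw [h1]; positivity)
  change Q f S _ _ * Q f S _ _ ≤ Q f S _ _ ^ 2 at this
  rw [h1] at this
  simp only [A, Q_add_left, Q_add_right, Q_smul_left, Q_smul_right, Q_sub_left, Q_sub_right,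
    haa, hbb, hab, hba, hza, hzb, hza', hzb'] at this
  have h2 : Q f S z z + 2 * (u ^ 2 / σ) ≤ 0 := by
    by_contra hc
    push Not at hc
    have h3 := mul_pos hc (show 0 < 2 * σ by positivity)
    have h4 : (Q f S z z + 2 * (u ^ 2 / σ)) * (2 * σ) ≤ 0 := by
      convert this using 1
      · field_simp; ring
      · ring
    linarith
  linarith

/-- the cross terms cancel -/
lemma cross (w : Finset (El n) → ℝ) (z : El n → ℝ) (c : ℝ) (l : Fin n) (T : Finset (El n))
    (hT : ∀ c, (l, c) ∉ T) :
    D (z - c • A l) (D (z - c • A l) w) (insert (l, false) T) +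
      D (z + c • A l) (D (z + c • A l) w) (insert (l, true) T) =
    D z (D z w) (insert (l, false) T) + D z (D z w) (insert (l, true) T) := by
  change Q w _ _ _ + Q w _ _ _ = Q w _ _ _ + Q w _ _ _
  have h1 : Q w (insert (l, false) T) (A l) (A l) = 0 := by
    rw [Q, D_A, if_pos (by simp), if_neg (by simp [hT]), D_A, if_pos (by simp), if_pos (by simp)]
    simp
  have h2 : Q w (insert (l, true) T) (A l) (A l) = 0 := by
    rw [Q, D_A, if_neg (by simp [hT]), if_pos (by simp), D_A, if_pos (by simp), if_pos (by simp)]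
    simp
  have h3 : Q w (insert (l, false) T) (A l) z = Q w (insert (l, true) T) (A l) z := by
    rw [Q, D_A, if_pos (by simp), if_neg (by simp [hT]), Q, D_A, if_neg (by simp [hT]),
      if_pos (by simp), insert_comm]
    simp
  simp only [Q_add_left, Q_add_right, Q_smul_left, Q_smul_right, Q_sub_left, Q_sub_right, h1, h2,
    Q_comm w _ z (A l), h3]
  ring

/-- the potential of the coordinate `j` -/
noncomputable def B (w : Finset (El n) → ℝ) (K : List (Fin n)) (z : El n → ℝ)
    (S : Finset (El n)) : ℝ := -(Tr K (D z (D z w)) S) / 2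

/-- the energy of the coordinate `j` -/
def En (w G : Finset (El n) → ℝ) (j : Fin n) (K : List (Fin n)) (S : Finset (El n)) : ℝ :=
  Tr K (fun T => w (insert (j, false) (insert (j, true) T)) *
    (G (insert (j, false) T) - G (insert (j, true) T)) ^ 2) S

theorem flow {w : Finset (El n) → ℝ} (hw : ∀ S, 0 < w S) (hL : Lorentz w) (t : Fin n → ℝ)
    (G : Finset (El n) → ℝ) : ∀ (K : List (Fin n)), K.Nodup → (∀ j ∈ K, 0 < t j) →
    ∀ S, Fresh K S → ∀ z, Tr K (D z w) S = 0 → Tr K (fun T => G T * D z w T) S ≤
      (∑ j ∈ K.toFinset, (t j * B w (K.erase j) z S + En w G j (K.erase j) S / t j)) / 2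
  | [], _, _, S, _, z, hz => by
    simp only [Tr] at hz ⊢
    simp [hz]
  | l :: K, hK, ht, S, hS, z, hz => by
    have hl := (List.nodup_cons.1 hK).1
    have hK' := (List.nodup_cons.1 hK).2
    have hSl : ∀ c, (l, c) ∉ S := hS l (by simp)
    have ht' : ∀ j ∈ K, 0 < t j := fun j hj => ht j (List.mem_cons_of_mem _ hj)
    have htl : 0 < t l := ht l (by simp)
    set f := DL (K.map A) w with hf
    have hTz : ∀ y c, Tr K (D y w) (insert (l, c) S) = D y f (insert (l, c) S) := fun y c => by
      rw [Tr_eq _ K hK' _ (hS.insert hl c), hf, D_DL]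
    have hfr : Fresh K (insert (l, false) (insert (l, true) S)) := by
      intro j hj d
      have : j ≠ l := fun e => hl (e ▸ hj)
      simp [this, hS.tail j hj d]
    have hσT : Tr K (fun T => w (insert (l, false) (insert (l, true) T))) S =
        f (insert (l, false) (insert (l, true) S)) := by
      rw [hf, ← Tr_eq _ K hK' _ hfr, Tr_shift, Tr_shift]
    set σ := f (insert (l, false) (insert (l, true) S)) with hσd
    have hσ : 0 < σ := hσT ▸ Tr_pos (fun _ => hw _) K S
    simp only [Tr, hTz] at hz
    have hkey := key (lorAt_A hL K S) hSl hσ z hz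
    rw [← hf, ← hσd] at hkey
    set u := D z f (insert (l, false) S) with hu
    set c := u / σ with hc
    have ha := flow hw hL t G K hK' ht' _ (hS.insert hl false) (z - c • A l) (by
      rw [hTz, D_sub_left, D_smul_left, D_A, if_pos (by simp), if_neg (by simp [hSl]), insert_comm,
        ← hσd, ← hu, hc]
      field_simp; ring)
    have hb := flow hw hL t G K hK' ht' _ (hS.insert hl true) (z + c • A l) (by
      rw [hTz, D_add_left, D_smul_left, D_A, if_neg (by simp [hSl]), if_pos (by simp), ← hσd, hc,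
        add_zero, div_mul_cancel₀ _ hσ.ne']
      linarith)
    have hmain : Tr (l :: K) (fun T => G T * D z w T) S ≤
        Tr K (fun T => G T * D (z - c • A l) w T) (insert (l, false) S) +
        Tr K (fun T => G T * D (z + c • A l) w T) (insert (l, true) S) +
        (t l * c ^ 2 / 2 * σ + 1 / (2 * t l) * En w G l K S) := by
      simp only [Tr]
      rw [← hσT, En, ← Tr_mul, ← Tr_mul, Tr_shift, Tr_shift, Tr_shift, Tr_shift, ← Tr_add,
        ← Tr_add, ← Tr_add, ← Tr_add]
      refine Tr_mono l (fun T hT => ?_) K hl S hSl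
      rw [D_sub_left, D_add_left, D_smul_left, D_smul_left, D_A, D_A, if_pos (by simp),
        if_neg (by simp [hT]), if_neg (by simp [hT]), if_pos (by simp),
        insert_comm (l, true) (l, false)]
      set γ := w (insert (l, false) (insert (l, true) T))
      have hγ : 0 < γ := hw _
      set d := G (insert (l, false) T) - G (insert (l, true) T) with hd
      have h1 : c * d ≤ t l * c ^ 2 / 2 + 1 / (2 * t l) * d ^ 2 := by
        have : t l * c ^ 2 / 2 + 1 / (2 * t l) * d ^ 2 - c * d = (t l * c - d) ^ 2 / (2 * t l) := by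
          field_simp; ring
        have h2 : 0 ≤ (t l * c - d) ^ 2 / (2 * t l) := by positivity
        linarith
      have h2 := mul_le_mul_of_nonneg_left h1 hγ.le
      have h3 : G (insert (l, false) T) = d + G (insert (l, true) T) := by rw [hd]; ring
      rw [h3]
      nlinarith
    have hB : c ^ 2 * σ ≤ B w K z S := by
      rw [B, Tr_DD w hK' hS.tail, ← hf]
      refine le_trans (le_of_eq ?_) hkey
      rw [hc]; field_simp
    have hsum : ∑ j ∈ K.toFinset, (t j * B w ((l :: K).erase j) z S +
          En w G j ((l :: K).erase j) S / t j) =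
        ∑ j ∈ K.toFinset, (t j * B w (K.erase j) (z - c • A l) (insert (l, false) S) +
          En w G j (K.erase j) (insert (l, false) S) / t j) +
        ∑ j ∈ K.toFinset, (t j * B w (K.erase j) (z + c • A l) (insert (l, true) S) +
          En w G j (K.erase j) (insert (l, true) S) / t j) := by
      rw [← sum_add_distrib]
      refine sum_congr rfl fun j hj => ?_
      have hjl : ¬ (l == j) = true := by
        intro e
        exact hl ((beq_iff_eq.1 e) ▸ List.mem_toFinset.1 hj)
      rw [List.erase_cons_tail hjl]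
      have hl' : l ∉ K.erase j := fun e => hl (List.mem_of_mem_erase e)
      have h1 : B w (l :: K.erase j) z S =
          B w (K.erase j) (z - c • A l) (insert (l, false) S) +
          B w (K.erase j) (z + c • A l) (insert (l, true) S) := by
        simp only [B, Tr]
        rw [Tr_shift, Tr_shift, Tr_shift, Tr_shift, ← Tr_add, ← add_div, ← neg_add, ← Tr_add,
          Tr_congr l (fun T hT => cross w z c l T hT) _ hl' S hSl]
      have h2 : En w G j (l :: K.erase j) S = En w G j (K.erase j) (insert (l, false) S) +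
          En w G j (K.erase j) (insert (l, true) S) := rfl
      rw [h1, h2]; ring
    rw [List.toFinset_cons, sum_insert (by simpa using hl), hsum, List.erase_cons_head]
    have h4 := mul_le_mul_of_nonneg_left hB htl.le
    have h5 : 1 / (2 * t l) * En w G l K S = En w G l K S / t l / 2 := by field_simp
    nlinarith

end Vale.Agent.P317.Fl
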