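import Mathlib

/-! Weight functions on finite sets, directional derivatives, Lorentzian weights (definitions). -/

namespace Vale.Agent.P317

open Finset

variable {E : Type} [Fintype E] [DecidableEq E]

/-- the directional derivative of a weight function -/
def D (v : E → ℝ) (w : Finset E → ℝ) (S : Finset E) : ℝ := ∑ e ∈ Sᶜ, v e * w (insert e S)

def DL : List (E → ℝ) → (Finset E → ℝ) → Finset E → ℝ
  | [], w => w
  | v :: L, w => D v (DL L w)

/-- the reverse Cauchy-Schwarz inequality for the form `(x, y) ↦ D x (D y w) S` -/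
def LorAt (w : Finset E → ℝ) (S : Finset E) : Prop :=
  ∀ x a : E → ℝ, 0 < D a (D a w) S → D x (D x w) S * D a (D a w) S ≤ D x (D a w) S ^ 2

def Lorentz (w : Finset E → ℝ) : Prop :=
  ∀ L : List (E → ℝ), (∀ v ∈ L, ∀ e, 0 ≤ v e) → ∀ S, LorAt (DL L w) S

/-- the axioms of the nullity function of a matroid -/
structure Nullity (ν : Finset E → ℕ) : Prop where
  le_insert : ∀ S e, ν S ≤ ν (insert e S)
  insert_le : ∀ S e, ν (insert e S) ≤ ν S + 1
  supermod : ∀ S e f, e ∉ S → f ∉ S → e ≠ f →
    ν (insert e S) + ν (insert f S) ≤ ν (insert e (insert f S)) + ν S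

lemma D_eq (v : E → ℝ) (w : Finset E → ℝ) (S : Finset E) :
    D v w S = ∑ e, if e ∈ S then 0 else v e * w (insert e S) := by
  rw [D, ← sum_filter_add_sum_filter_not univ (· ∈ S)]
  rw [sum_congr rfl (g := fun _ => 0) fun e he => if_pos (mem_filter.1 he).2,
    sum_congr rfl (g := fun e => v e * w (insert e S)) fun e he => if_neg (mem_filter.1 he).2]
  simp only [sum_const_zero, zero_add]
  exact sum_congr (by ext; simp) fun _ _ => rfl

lemma DD_eq (u v : E → ℝ) (w : Finset E → ℝ) (S : Finset E) :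
    D u (D v w) S = ∑ e, ∑ f,
      if e ∉ S ∧ f ∉ S ∧ e ≠ f then u e * v f * w (insert e (insert f S)) else 0 := by
  simp only [D_eq]
  refine sum_congr rfl fun e _ => ?_
  by_cases he : e ∈ S
  · simp [he]
  · rw [if_neg he, mul_sum]
    refine sum_congr rfl fun f _ => ?_
    by_cases hf : f ∈ S
    · simp [hf]
    · by_cases hef : e = f
      · simp [hef]
      · have : f ∉ insert e S := by simp [hf, Ne.symm hef]
        rw [if_neg this, if_pos ⟨he, hf, hef⟩, insert_comm, mul_assoc]

lemma D_comm (u v : E → ℝ) (w : Finset E → ℝ) : D u (D v w) = D v (D u w) := by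
  funext S
  rw [DD_eq, DD_eq, sum_comm]
  refine sum_congr rfl fun e _ => sum_congr rfl fun f _ => ?_
  by_cases h : f ∉ S ∧ e ∉ S ∧ f ≠ e
  · rw [if_pos h, if_pos ⟨h.2.1, h.1, h.2.2.symm⟩, insert_comm]; ring
  · rw [if_neg h, if_neg fun h' => h ⟨h'.2.1, h'.1, h'.2.2.symm⟩]

lemma D_add_left (u v : E → ℝ) (w : Finset E → ℝ) (S : Finset E) :
    D (u + v) w S = D u w S + D v w S := by
  simp [D, add_mul, sum_add_distrib]

lemma D_smul_left (c : ℝ) (v : E → ℝ) (w : Finset E → ℝ) (S : Finset E) :
    D (c • v) w S = c * D v w S := by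
  simp [D, mul_sum, mul_assoc]

lemma D_add_right (v : E → ℝ) (w w' : Finset E → ℝ) (S : Finset E) :
    D v (fun T => w T + w' T) S = D v w S + D v w' S := by
  simp [D, mul_add, sum_add_distrib]

lemma D_mul_right (c : ℝ) (v : E → ℝ) (w : Finset E → ℝ) (S : Finset E) :
    D v (fun T => c * w T) S = c * D v w S := by
  simp only [D, mul_sum]
  exact sum_congr rfl fun _ _ => by ring

lemma D_DL (v : E → ℝ) (L : List (E → ℝ)) (w : Finset E → ℝ) : D v (DL L w) = DL L (D v w) := by
  induction L with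
  | nil => rfl
  | cons u L ih => simp only [DL]; rw [D_comm, ih]

end Vale.Agent.P317
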