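import Vale.Agent.P317.Lor

/-! The quadratic case (job LorBase). -/

namespace Vale.Agent.P317

open Finset

variable {E : Type} [Fintype E] [DecidableEq E]

lemma DD_add_smul (w : Finset E → ℝ) (S : Finset E) (y a z : E → ℝ) (c : ℝ) :
    D (y + c • a) (D z w) S = D y (D z w) S + c * D a (D z w) S := by
  rw [D_add_left, D_smul_left]

/-- a form that is negative semidefinite on a hyperplane satisfies reverse Cauchy-Schwarz -/
lemma lorAt_of_hyperplane {w : Finset E → ℝ} {S : Finset E} (l : E → ℝ)
    (h : ∀ y : E → ℝ, ∑ e, l e * y e = 0 → D y (D y w) S ≤ 0) : LorAt w S := by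
  intro x a ha
  have hla : ∑ e, l e * a e ≠ 0 := fun h0 => absurd (h a h0) (not_le.2 ha)
  obtain ⟨c, hc⟩ : ∃ c : ℝ, c = -((∑ e, l e * x e) / ∑ e, l e * a e) := ⟨_, rfl⟩
  have hy := h (x + c • a) (by
    simp only [Pi.add_apply, Pi.smul_apply, smul_eq_mul, mul_add, sum_add_distrib]
    have : ∑ e, l e * (c * a e) = c * ∑ e, l e * a e := by
      rw [mul_sum]; exact sum_congr rfl fun _ _ => by ring
    rw [this, hc]
    field_simp
    ring)
  rw [DD_add_smul, D_comm x (x + c • a), D_comm a (x + c • a), DD_add_smul, DD_add_smul,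
    D_comm a x] at hy
  nlinarith [mul_nonpos_iff.2 (Or.inr ⟨hy, ha.le⟩), sq_nonneg (D x (D a w) S + c * D a (D a w) S)]

/-- the form of an equivalence relation is positive semidefinite -/
lemma equiv_psd (r : E → E → Prop) [DecidableRel r] (hr : Equivalence r) (y : E → ℝ) :
    0 ≤ ∑ e, ∑ f, if r e f then y e * y f else 0 := by
  have hk : ∀ e f, r e f ↔ univ.filter (r e) = univ.filter (r f) := by
    intro e f
    constructor
    · intro h
      ext g
      simp only [mem_filter, mem_univ, true_and]
      exact ⟨fun h' => hr.trans (hr.symm h) h', fun h' => hr.trans h h'⟩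
    · intro h
      have : f ∈ univ.filter (r e) := by rw [h]; simp [hr.refl]
      simpa using this
  have : (∑ e, ∑ f, if r e f then y e * y f else 0) =
      ∑ c : Finset E, (∑ e, if univ.filter (r e) = c then y e else 0) ^ 2 := by
    simp only [sq, sum_mul_sum]
    rw [sum_comm (s := (univ : Finset (Finset E)))]
    refine sum_congr rfl fun e _ => ?_
    rw [sum_comm (s := (univ : Finset (Finset E)))]
    refine sum_congr rfl fun f _ => ?_
    rw [sum_eq_single (univ.filter (r e)) (fun c _ hc => by rw [if_neg (Ne.symm hc), zero_mul])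
      (by simp), if_pos rfl]
    by_cases h : r e f
    · rw [if_pos h, if_pos ((hk e f).1 h).symm]
    · rw [if_neg h, if_neg fun h' => h ((hk e f).2 h'.symm), mul_zero]
  rw [this]
  exact sum_nonneg fun _ _ => sq_nonneg _

theorem lorAt_pow {ν : Finset E → ℕ} (hν : Nullity ν) {q : ℝ} (h0 : 0 < q) (h1 : q ≤ 1)
    (S : Finset E) : LorAt (fun T => q ^ ν T) S := by
  classical
  refine lorAt_of_hyperplane (fun e => if e ∈ S then 0 else q ^ ν (insert e S)) fun y hy => ?_
  obtain ⟨r, hr⟩ : ∃ r : E → E → Prop, r = fun e f => e = f ∨ (e ∉ S ∧ f ∉ S ∧ e ≠ f ∧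
      ν (insert e S) = ν S ∧ ν (insert f S) = ν S ∧ ν (insert e (insert f S)) = ν S + 1) :=
    ⟨_, rfl⟩
  have heq : Equivalence r := by
    rw [hr]
    refine ⟨fun _ => Or.inl rfl, ?_, ?_⟩
    · rintro e f (h | ⟨a, b, c, d, e', f'⟩)
      · exact Or.inl h.symm
      · exact Or.inr ⟨b, a, c.symm, e', d, by rw [insert_comm]; exact f'⟩
    · rintro e f g (h | ⟨a, b, c, d, e', f'⟩) (h' | ⟨a', b', c', d', e'', f''⟩)
      · exact Or.inl (h.trans h')
      · rw [h]; exact Or.inr ⟨a', b', c', d', e'', f''⟩
      · rw [← h']; exact Or.inr ⟨a, b, c, d, e', f'⟩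
      · by_cases heg : e = g
        · exact Or.inl heg
        refine Or.inr ⟨a, b', heg, d, e'', ?_⟩
        have s1 := hν.supermod (insert f S) e g (by simp [a, c]) (by simp [b', Ne.symm c']) heg
        have s2 := hν.insert_le (insert e (insert g S)) f
        have s3 := hν.insert_le (insert g S) e
        rw [insert_comm g f] at s1
        rw [insert_comm f e] at s2
        omega
  obtain ⟨z, hz⟩ : ∃ z : E → ℝ, z = fun e => (if e ∈ S then 0 else q ^ ν (insert e S)) * y e :=
    ⟨_, rfl⟩
  have hz0 : ∑ e, z e = 0 := by rw [hz]; exact hy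
  have hpsd := equiv_psd r heq z
  have hqS : 0 < q ^ ν S := pow_pos h0 _
  have key : q ^ ν S * D y (D y fun T => q ^ ν T) S =
      (∑ e, ∑ f, z e * z f) - q * (∑ e, ∑ f, if e = f then z e * z f else 0)
        - (1 - q) * ∑ e, ∑ f, if r e f then z e * z f else 0 := by
    rw [DD_eq]
    simp only [mul_sum, ← sum_sub_distrib]
    refine sum_congr rfl fun e _ => sum_congr rfl fun f _ => ?_
    by_cases he : e ∈ S
    · simp [hz, he]
    by_cases hf : f ∈ S
    · simp [hz, hf]
    by_cases hef : e = f
    · rw [if_neg (by simp [hef]), if_pos hef, if_pos (by rw [hr]; exact Or.inl hef)]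
      ring
    rw [if_pos ⟨he, hf, hef⟩, if_neg hef]
    simp only [hz, if_neg he, if_neg hf]
    by_cases hrel : r e f
    · rw [if_pos hrel]
      rw [hr] at hrel
      rcases hrel with h | ⟨-, -, -, a, b, c⟩
      · exact absurd h hef
      · rw [a, b, c]; ring
    · rw [if_neg hrel]
      have s1 := hν.supermod S e f he hf hef
      have s2 := hν.insert_le (insert f S) e
      have s3 := hν.insert_le (insert e S) f
      have s4 := hν.le_insert S e
      have s5 := hν.le_insert S f
      have s6 := hν.insert_le S e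
      have s7 := hν.insert_le S f
      rw [insert_comm f e] at s3
      have hn : ¬(ν (insert e S) = ν S ∧ ν (insert f S) = ν S ∧
          ν (insert e (insert f S)) = ν S + 1) := fun h =>
        hrel (by rw [hr]; exact Or.inr ⟨he, hf, hef, h⟩)
      have : ν S + ν (insert e (insert f S)) = ν (insert e S) + ν (insert f S) := by omega
      have h2 : q ^ ν S * q ^ ν (insert e (insert f S)) =
          q ^ ν (insert e S) * q ^ ν (insert f S) := by rw [← pow_add, ← pow_add, this]
      linear_combination (y e * y f) * h2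
  have h3 : ∑ e, ∑ f, z e * z f = 0 := by rw [← sum_mul_sum, hz0, zero_mul]
  have h4 : 0 ≤ ∑ e, ∑ f, if e = f then z e * z f else 0 :=
    sum_nonneg fun e _ => sum_nonneg fun f _ => by
      split_ifs with h
      · rw [h]; exact mul_self_nonneg _
      · exact le_rfl
  have h5 : q ^ ν S * D y (D y fun T => q ^ ν T) S ≤ 0 := by
    rw [key, h3]
    nlinarith [mul_nonneg h0.le h4, mul_nonneg (sub_nonneg.2 h1) hpsd]
  exact nonpos_of_mul_nonpos_right h5 hqS

end Vale.Agent.P317
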