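import Vale.Agent.P317.LorBase

/-! The Bochner induction (job LorStep). -/

namespace Vale.Agent.P317

open Finset

section Bochner

variable {ι : Type} [Fintype ι]

lemma dir_form (W : ι → ι → ℝ) (hs : ∀ e f, W e f = W f e) (u v : ι → ℝ) :
    ∑ p : ι × ι, W p.1 p.2 * ((u p.1 - u p.2) * (v p.1 - v p.2)) =
      2 * (∑ e, (∑ f, W e f) * (u e * v e) - ∑ e, u e * ∑ f, W e f * v f) := by
  rw [Fintype.sum_prod_type]
  have h1 : ∑ e, ∑ f, W e f * (u f * v f) = ∑ e, (∑ f, W e f) * (u e * v e) := by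
    rw [sum_comm]
    refine sum_congr rfl fun e _ => ?_
    rw [sum_mul]
    exact sum_congr rfl fun f _ => by rw [hs]
  have h2 : ∑ e, ∑ f, W e f * (u e * v e) = ∑ e, (∑ f, W e f) * (u e * v e) :=
    sum_congr rfl fun e _ => by rw [sum_mul]
  have h3 : ∑ e, ∑ f, W e f * (u e * v f) = ∑ e, u e * ∑ f, W e f * v f :=
    sum_congr rfl fun e _ => by rw [mul_sum]; exact sum_congr rfl fun f _ => by ring
  have h4 : ∑ e, ∑ f, W e f * (u f * v e) = ∑ e, u e * ∑ f, W e f * v f := by
    rw [sum_comm, ← h3]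
    exact sum_congr rfl fun e _ => sum_congr rfl fun f _ => by rw [hs]
  have : ∑ e, ∑ f, W e f * ((u e - u f) * (v e - v f)) =
      ∑ e, ∑ f, W e f * (u e * v e) + ∑ e, ∑ f, W e f * (u f * v f)
        - ∑ e, ∑ f, W e f * (u e * v f) - ∑ e, ∑ f, W e f * (u f * v e) := by
    simp only [← sum_add_distrib, ← sum_sub_distrib]
    exact sum_congr rfl fun e _ => sum_congr rfl fun f _ => by ring
  simp only [this, h1, h2, h3, h4]
  ring

lemma bochner (W : ι → ι → ℝ) (hs : ∀ e f, W e f = W f e) (h0 : ∀ e f, 0 ≤ W e f)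
    (hp : ∀ e f, e ≠ f → 0 < W e f) (hm : ∀ e, 0 < ∑ f, W e f)
    (hB : ∀ u : ι → ℝ, ∑ e, u e * ∑ f, W e f * u f ≤
      ∑ e, (∑ f, W e f * u f) ^ 2 / ∑ f, W e f)
    (x : ι → ℝ) (hx : ∑ e, (∑ f, W e f) * x e = 0) : ∑ e, x e * ∑ f, W e f * x f ≤ 0 := by
  obtain ⟨m, hmd⟩ : ∃ m : ι → ℝ, m = fun e => ∑ f, W e f := ⟨_, rfl⟩
  have hme : ∀ e, ∑ f, W e f = m e := fun e => by rw [hmd]
  simp only [hme] at hm hB hx
  -- the operator
  let T : (ι → ℝ) →ₗ[ℝ] (ι → ℝ) :=
    { toFun := fun u e => u e - (∑ f, W e f * u f) / m e + ∑ f, m f * u f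
      map_add' := fun u v => by
        funext e
        simp only [Pi.add_apply, mul_add, sum_add_distrib]
        ring
      map_smul' := fun c u => by
        funext e
        simp only [Pi.smul_apply, smul_eq_mul, RingHom.id_apply]
        have h1 : ∑ f, W e f * (c * u f) = c * ∑ f, W e f * u f := by
          rw [mul_sum]; exact sum_congr rfl fun _ _ => by ring
        have h2 : ∑ f, m f * (c * u f) = c * ∑ f, m f * u f := by
          rw [mul_sum]; exact sum_congr rfl fun _ _ => by ring
        rw [h1, h2]; ring }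
  have hT : ∀ u e, T u e = u e - (∑ f, W e f * u f) / m e + ∑ f, m f * u f := fun _ _ => rfl
  have hdir := dir_form W hs
  simp only [hme] at hdir
  have hpair : ∀ u v : ι → ℝ, ∑ e, m e * (v e * T u e) =
      (∑ e, m e * (v e * u e) - ∑ e, v e * ∑ f, W e f * u f)
        + (∑ e, m e * v e) * ∑ f, m f * u f := by
    intro u v
    rw [sum_mul, ← sum_sub_distrib, ← sum_add_distrib]
    refine sum_congr rfl fun e _ => ?_
    rw [hT]
    have := (hm e).ne'
    field_simp
  have hnn : ∀ u : ι → ℝ, ∀ p : ι × ι, 0 ≤ W p.1 p.2 * ((u p.1 - u p.2) * (u p.1 - u p.2)) :=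
    fun u p => mul_nonneg (h0 _ _) (mul_self_nonneg _)
  have hinj : Function.Injective T := by
    rw [← LinearMap.ker_eq_bot, LinearMap.ker_eq_bot']
    intro u hu
    have h1 := hpair u u
    simp only [hu, Pi.zero_apply, mul_zero, sum_const_zero] at h1
    have h2 := hdir u u
    have h3 : 0 ≤ ∑ p : ι × ι, W p.1 p.2 * ((u p.1 - u p.2) * (u p.1 - u p.2)) :=
      sum_nonneg fun p _ => hnn u p
    have h4 := mul_self_nonneg (∑ e, m e * u e)
    have h5 : ∑ p : ι × ι, W p.1 p.2 * ((u p.1 - u p.2) * (u p.1 - u p.2)) = 0 := by linarith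
    have h6 : ∑ e, m e * u e = 0 := mul_self_eq_zero.1 (by linarith)
    have h7 : ∀ e f, u e = u f := by
      intro e f
      by_contra hne
      have hef : e ≠ f := fun h => hne (by rw [h])
      have := (sum_eq_zero_iff_of_nonneg fun p _ => hnn u p).1 h5 (e, f) (mem_univ _)
      rcases mul_eq_zero.1 this with h | h
      · exact (hp e f hef).ne' h
      · exact hne (sub_eq_zero.1 (mul_self_eq_zero.1 h))
    funext e
    have h8 : ∑ f, m f * u f = (∑ f, m f) * u e := by
      rw [sum_mul]; exact sum_congr rfl fun f _ => by rw [h7 f e]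
    have h9 : 0 < ∑ f, m f := sum_pos (fun f _ => hm f) ⟨e, mem_univ _⟩
    rw [h8] at h6
    exact (mul_eq_zero.1 h6).resolve_left h9.ne'
  obtain ⟨y, hy⟩ := LinearMap.surjective_of_injective hinj x
  have hy0 : ∑ f, m f * y f = 0 := by
    have h1 := hpair y fun _ => 1
    have h2 := hdir (fun _ => 1) y
    simp only [hy, one_mul, mul_one, sub_self, zero_mul, mul_zero, sum_const_zero] at h1 h2
    rw [hx] at h1
    have h3 : (∑ e, m e) * ∑ f, m f * y f = 0 := by linarith
    rcases mul_eq_zero.1 h3 with h | h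
    · have : ∀ e, m e = 0 := fun e =>
        (sum_eq_zero_iff_of_nonneg fun f _ => (hm f).le).1 h e (mem_univ _)
      simp [this]
    · exact h
  have hxe : ∀ e, x e = y e - (∑ f, W e f * y f) / m e := fun e => by
    rw [← hy, hT, hy0, add_zero]
  -- norms
  have hN1 := hpair y x
  rw [hy, hy0, mul_zero, add_zero] at hN1
  have hN2 : ∑ e, m e * (y e * y e) - ∑ e, y e * ∑ f, W e f * y f ≤ ∑ e, m e * (x e * x e) := by
    have h1 : ∑ e, m e * (x e * x e) = ∑ e, m e * (y e * y e)
        - 2 * ∑ e, y e * ∑ f, W e f * y f + ∑ e, (∑ f, W e f * y f) ^ 2 / m e := by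
      rw [mul_sum, ← sum_sub_distrib, ← sum_add_distrib]
      refine sum_congr rfl fun e _ => ?_
      rw [hxe e]
      have := (hm e).ne'
      field_simp
      ring
    have := hB y
    linarith
  have hCS := sum_sq_le_sum_mul_sum_of_sq_le_mul (univ : Finset (ι × ι))
    (r := fun p => W p.1 p.2 * ((x p.1 - x p.2) * (y p.1 - y p.2)))
    (f := fun p => W p.1 p.2 * ((x p.1 - x p.2) * (x p.1 - x p.2)))
    (g := fun p => W p.1 p.2 * ((y p.1 - y p.2) * (y p.1 - y p.2)))
    (fun p _ => hnn x p) (fun p _ => hnn y p) (fun p _ => le_of_eq (by ring))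
  have hx2 : 0 ≤ ∑ p : ι × ι, W p.1 p.2 * ((x p.1 - x p.2) * (x p.1 - x p.2)) :=
    sum_nonneg fun p _ => hnn x p
  rw [hdir x y, hdir x x, hdir y y, ← hN1] at hCS
  rw [hdir x x] at hx2
  have hN0 : 0 ≤ ∑ e, m e * (x e * x e) :=
    sum_nonneg fun e _ => mul_nonneg (hm e).le (mul_self_nonneg _)
  generalize ∑ e, m e * (x e * x e) = N at *
  generalize ∑ e, x e * ∑ f, W e f * x f = Q at *
  generalize ∑ e, m e * (y e * y e) - ∑ e, y e * ∑ f, W e f * y f = Y at *
  by_contra hQ
  have hQ : 0 < Q := not_le.1 hQ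
  have h1 : (N - Q) * Y ≤ (N - Q) * N := mul_le_mul_of_nonneg_left hN2 (by linarith)
  have h2 : 0 < N := by linarith
  nlinarith [mul_pos h2 hQ]

end Bochner

variable {E : Type} [Fintype E] [DecidableEq E]

lemma card_compl_insert {S : Finset E} {e : E} (he : e ∈ Sᶜ) :
    (insert e S)ᶜ.card + 1 = Sᶜ.card := by
  rw [compl_insert, card_erase_add_one he]

lemma DL_eq_zero (w : Finset E → ℝ) (L : List (E → ℝ)) :
    ∀ S : Finset E, Sᶜ.card < L.length → DL L w S = 0 := by
  induction L with
  | nil => intro S h; simp at h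
  | cons v L ih =>
    intro S h
    simp only [DL, D]
    refine sum_eq_zero fun e he => ?_
    have := card_compl_insert he
    rw [ih _ (by simp only [List.length_cons] at h; omega), mul_zero]

lemma DL_pos {w : Finset E → ℝ} (hw : ∀ S, 0 < w S) (L : List (E → ℝ))
    (hL : ∀ v ∈ L, ∀ e, 0 < v e) : ∀ S : Finset E, L.length ≤ Sᶜ.card → 0 < DL L w S := by
  induction L with
  | nil => intro S _; exact hw S
  | cons v L ih =>
    intro S h
    simp only [DL, D]
    simp only [List.length_cons] at h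
    refine sum_pos (fun e he => ?_) (card_pos.1 (by omega))
    have := card_compl_insert he
    exact mul_pos (hL v (by simp) e) (ih (fun u hu => hL u (by simp [hu])) _ (by omega))

lemma D_insert (x : E → ℝ) (g : Finset E → ℝ) {S : Finset E} {e : E} (he : e ∈ Sᶜ) :
    D x g (insert e S) =
      ∑ f ∈ Sᶜ, (if e = f then 0 else g (insert e (insert f S))) * x f := by
  rw [D, compl_insert, ← add_sum_erase _ _ he, if_pos rfl, zero_mul, zero_add]
  refine sum_congr rfl fun f hf => ?_
  rw [if_neg (ne_of_mem_erase hf).symm, insert_comm, mul_comm]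

lemma lorAt_DL_pos {w : Finset E → ℝ} (hw : ∀ S, 0 < w S) (h : ∀ S, LorAt w S)
    (L : List (E → ℝ)) (hL : ∀ v ∈ L, ∀ e, 0 < v e) : ∀ S, LorAt (DL L w) S := by
  induction L with
  | nil => exact h
  | cons A L ih =>
    intro S
    have ih := ih fun u hu => hL u (by simp [hu])
    have hA : ∀ e, 0 < A e := hL A (by simp)
    by_cases hc : Sᶜ.card < L.length + 3
    · intro x a ha
      have : DL (a :: a :: A :: L) w S = 0 := DL_eq_zero w _ S (by simp only [List.length_cons]; omega)
      exact absurd ha (by rw [show D a (D a (DL (A :: L) w)) S = 0 from this]; exact lt_irrefl _)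
    have hc : L.length + 3 ≤ Sᶜ.card := not_lt.1 hc
    have hh : ∀ e ∈ Sᶜ, 0 < D A (D A (DL L w)) (insert e S) := by
      intro e he
      have := card_compl_insert he
      exact DL_pos hw (A :: A :: L) (fun v hv => hL v (by simp at hv ⊢; tauto)) _
        (by simp only [List.length_cons]; omega)
    have hH : ∀ e ∈ Sᶜ, ∀ f ∈ Sᶜ, e ≠ f → 0 < D A (DL L w) (insert e (insert f S)) := by
      intro e he f hf hef
      have h1 := card_compl_insert hf
      have h2 : e ∈ (insert f S)ᶜ := by
        rw [compl_insert]; exact mem_erase.2 ⟨hef, he⟩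
      have h3 := card_compl_insert h2
      exact DL_pos hw (A :: L) hL _ (by simp only [List.length_cons]; omega)
    have hBo : ∀ x : E → ℝ, D x (D x (D A (DL L w))) S ≤
        ∑ e ∈ Sᶜ, A e * (D x (D A (DL L w)) (insert e S) ^ 2 /
          D A (D A (DL L w)) (insert e S)) := by
      intro x
      rw [D_comm x A, D_comm x A, D]
      refine sum_le_sum fun e he => mul_le_mul_of_nonneg_left ?_ (hA e).le
      rw [le_div_iff₀ (hh e he), ← D_comm x A]
      exact ih _ x A (hh e he)
    show LorAt (D A (DL L w)) S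
    generalize D A (DL L w) = g at *
    refine lorAt_of_hyperplane (fun e => if e ∈ S then 0 else D A g (insert e S)) fun y hy => ?_
    obtain ⟨W, hW⟩ : ∃ W : ↥(Sᶜ) → ↥(Sᶜ) → ℝ, W = fun e f : ↥(Sᶜ) =>
      A e * A f * (if (e : E) = f then 0 else g (insert (e : E) (insert (f : E) S))) := ⟨_, rfl⟩
    have hWx : ∀ (x : E → ℝ) (u : ↥(Sᶜ) → ℝ), (∀ e : ↥(Sᶜ), x e = A e * u e) →
        ∀ e : ↥(Sᶜ), ∑ f, W e f * u f = A e * D x g (insert (e : E) S) := by
      intro x u hxu e
      rw [D_insert x g e.2, ← sum_coe_sort Sᶜ, mul_sum, hW]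
      refine sum_congr rfl fun f _ => ?_
      rw [hxu f]; ring
    have hm : ∀ e : ↥(Sᶜ), ∑ f, W e f = A e * D A g (insert (e : E) S) := by
      intro e
      rw [← hWx A (fun _ => 1) (fun _ => (mul_one _).symm) e]
      simp
    have hQ : ∀ (x : E → ℝ) (u : ↥(Sᶜ) → ℝ), (∀ e : ↥(Sᶜ), x e = A e * u e) →
        ∑ e, u e * ∑ f, W e f * u f = D x (D x g) S := by
      intro x u hxu
      rw [D, ← sum_coe_sort Sᶜ]
      refine sum_congr rfl fun e _ => ?_
      rw [hWx x u hxu e, hxu e]; ring
    have hyu : ∀ e : ↥(Sᶜ), y e = A e * (y e / A e) := fun e => by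
      have := (hA e).ne'
      field_simp
    rw [← hQ y (fun e => y e / A e) hyu]
    refine bochner W ?_ ?_ ?_ ?_ ?_ _ ?_
    · intro e f
      rw [hW]
      by_cases hef : (e : E) = f
      · simp [hef]
      · simp only [if_neg hef, if_neg (Ne.symm hef)]
        rw [insert_comm, mul_comm (A e)]
    · intro e f
      rw [hW]
      by_cases hef : (e : E) = f
      · simp [hef]
      · simp only [if_neg hef]
        exact (mul_pos (mul_pos (hA _) (hA _)) (hH _ e.2 _ f.2 hef)).le
    · intro e f hef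
      have hef : (e : E) ≠ f := fun h => hef (Subtype.ext h)
      rw [hW]
      simp only [if_neg hef]
      exact mul_pos (mul_pos (hA _) (hA _)) (hH _ e.2 _ f.2 hef)
    · intro e
      rw [hm]
      exact mul_pos (hA _) (hh _ e.2)
    · intro u
      have hxu : ∀ e : ↥(Sᶜ),
          (fun e => if h : e ∈ Sᶜ then A e * u ⟨e, h⟩ else 0) (e : E) = A e * u e := by
        intro e
        simp only [dif_pos e.2]
      generalize (fun e => if h : e ∈ Sᶜ then A e * u ⟨e, h⟩ else 0) = x at hxu
      rw [hQ x u hxu]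
      refine (hBo x).trans (le_of_eq ?_)
      rw [← sum_coe_sort Sᶜ]
      refine sum_congr rfl fun e _ => ?_
      rw [hWx x u hxu e, hm]
      have h1 := (hA e).ne'
      have h2 := (hh _ e.2).ne'
      field_simp
    · rw [← hy, ← sum_add_sum_compl S,
        sum_eq_zero (s := S) fun e he => by simp only [if_pos he, zero_mul], zero_add,
        ← sum_coe_sort Sᶜ]
      refine sum_congr rfl fun e _ => ?_
      rw [hm, if_neg (mem_compl.1 e.2)]
      have h1 := (hA e).ne'
      field_simp

lemma continuous_D (v : ℝ → E → ℝ) (F : ℝ → Finset E → ℝ) (hv : ∀ e, Continuous fun t => v t e)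
    (hF : ∀ T, Continuous fun t => F t T) (S : Finset E) : Continuous fun t => D (v t) (F t) S := by
  simp only [D]
  exact continuous_finsetSum _ fun e _ => (hv e).mul (hF _)

lemma continuous_DL (w : Finset E → ℝ) (L : List (E → ℝ)) :
    ∀ S, Continuous fun t : ℝ => DL (L.map fun v e => v e + t) w S := by
  induction L with
  | nil => intro S; exact continuous_const
  | cons v L ih =>
    intro S
    simp only [List.map_cons, DL]
    exact continuous_D (fun t e => v e + t) _ (fun e => by fun_prop) ih S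

theorem lorentz_of_base {w : Finset E → ℝ} (hw : ∀ S, 0 < w S) (h : ∀ S, LorAt w S) :
    Lorentz w := by
  intro L hL S x a ha
  have hc : ∀ u v : E → ℝ, Filter.Tendsto
      (fun t : ℝ => D u (D v (DL (L.map fun v e => v e + t) w)) S) (nhdsWithin 0 (Set.Ioi 0))
      (nhds (D u (D v (DL L w)) S)) := by
    intro u v
    have h1 : Continuous fun t : ℝ => D u (D v (DL (L.map fun v e => v e + t) w)) S :=
      continuous_D (fun _ => u) _ (fun _ => continuous_const)
        (continuous_D (fun _ => v) _ (fun _ => continuous_const) (continuous_DL w L)) S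
    have h2 := (h1.tendsto 0).mono_left (nhdsWithin_le_nhds (s := Set.Ioi 0))
    simpa using h2
  refine le_of_tendsto_of_tendsto ((hc x x).mul (hc a a)) ((hc x a).pow 2) ?_
  filter_upwards [self_mem_nhdsWithin, (hc a a).eventually (lt_mem_nhds ha)] with t ht hta
  refine lorAt_DL_pos hw h _ (fun v hv e => ?_) S x a hta
  obtain ⟨u, hu, rfl⟩ := List.mem_map.1 hv
  exact add_pos_of_nonneg_of_pos (hL u hu e) ht

theorem lorentz_pow {ν : Finset E → ℕ} (hν : Nullity ν) {q : ℝ} (h0 : 0 < q) (h1 : q ≤ 1) :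
    Lorentz fun T => q ^ ν T :=
  lorentz_of_base (fun _ => pow_pos h0 _) (lorAt_pow hν h0 h1)

end Vale.Agent.P317
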