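import Vale.Agent.P317.Algo
import Vale.Agent.P317.Prob

/-! Matroid facts and the greedy rank computation (job Null). -/

namespace Vale.Agent.P317

open Prog Finset

namespace Nl

variable {n : ℕ}

/-- natural number valued rank -/
noncomputable def r (M : Matroid (Fin n)) (A : Set (Fin n)) : ℕ := (M.eRk A).toNat

lemma r_cast (M : Matroid (Fin n)) (A : Set (Fin n)) : (r M A : ℕ∞) = M.eRk A :=
  ENat.coe_toNat (ne_top_of_le_ne_top (Set.toFinite A).encard_lt_top.ne (M.eRk_le_encard A))

lemma r_mono (M : Matroid (Fin n)) {A B : Set (Fin n)} (h : A ⊆ B) : r M A ≤ r M B := by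
  have := M.eRk_mono h
  rw [← r_cast, ← r_cast] at this
  exact_mod_cast this

lemma r_insert (M : Matroid (Fin n)) (e : Fin n) (A : Set (Fin n)) :
    r M (insert e A) ≤ r M A + 1 := by
  have := M.eRk_insert_le_add_one e A
  rw [← r_cast, ← r_cast] at this
  exact_mod_cast this

lemma r_sub (M : Matroid (Fin n)) (A B : Set (Fin n)) :
    r M (A ∩ B) + r M (A ∪ B) ≤ r M A + r M B := by
  have := M.eRk_inter_add_eRk_union_le A B
  rw [← r_cast, ← r_cast, ← r_cast, ← r_cast] at this
  exact_mod_cast this

lemma r_le (M : Matroid (Fin n)) (A : Set (Fin n)) : r M A ≤ A.ncard := by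
  have := M.eRk_le_encard A
  rw [← r_cast, ← (Set.toFinite A).cast_ncard_eq] at this
  exact_mod_cast this

lemma r_two (M : Matroid (Fin n)) {e f : Fin n} {A : Set (Fin n)} (hef : e ≠ f) :
    r M A + r M (insert e (insert f A)) ≤ r M (insert e A) + r M (insert f A) := by
  have h := r_sub M (insert e A) (insert f A)
  have h1 : A ⊆ insert e A ∩ insert f A := fun x hx => ⟨Or.inr hx, Or.inr hx⟩
  have h2 : insert e A ∪ insert f A = insert e (insert f A) := by
    ext x; simp only [Set.mem_union, Set.mem_insert_iff]; tauto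
  have h3 := r_mono M h1
  rw [h2] at h
  omega

lemma card_eq (X : Fin n → Bool) :
    (univ.filter fun i => X i = true).card = {i | X i = true}.ncard := by
  rw [← Set.ncard_coe_finset]
  congr 1
  ext i
  simp

/-- the two parts of the nullity -/
noncomputable def nA (M : Matroid (Fin n)) (A : Set (Fin n)) : ℕ := A.ncard - r M A

noncomputable def nB (M : Matroid (Fin n)) (A : Set (Fin n)) : ℕ := r M Set.univ - r M A

lemma nul2_eq (M₁ M₂ : Matroid (Fin n)) (X Y : Fin n → Bool) :
    nul2 M₁ M₂ X Y = nA M₁ {i | X i = true} + nB M₂ {i | Y i = true} := by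
  rw [nul2, card_eq]
  simp [nA, nB, rk, r]

def XS (S : Finset (El n)) : Set (Fin n) := {i | (i, true) ∈ S}
def YS (S : Finset (El n)) : Set (Fin n) := {i | (i, false) ∉ S}

lemma nul_eq (M₁ M₂ : Matroid (Fin n)) (S : Finset (El n)) :
    nul M₁ M₂ S = nA M₁ (XS S) + nB M₂ (YS S) := by
  rw [nul, nul2_eq]
  simp [XS, YS]

lemma XS_true (i : Fin n) (S : Finset (El n)) : XS (insert (i, true) S) = insert i (XS S) := by
  ext j; simp [XS]

lemma XS_false (i : Fin n) (S : Finset (El n)) : XS (insert (i, false) S) = XS S := by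
  ext j; simp [XS]

lemma YS_true (i : Fin n) (S : Finset (El n)) : YS (insert (i, true) S) = YS S := by
  ext j; simp [YS]

lemma YS_false {i : Fin n} {S : Finset (El n)} (h : (i, false) ∉ S) :
    YS S = insert i (YS (insert (i, false) S)) := by
  ext j
  by_cases hj : j = i
  · subst hj; simp [YS, h]
  · simp [YS, hj]

lemma nA_insert (M : Matroid (Fin n)) {i : Fin n} {A : Set (Fin n)} (h : i ∉ A) :
    nA M (insert i A) + r M (insert i A) = nA M A + r M A + 1 := by
  have h1 := r_le M (insert i A)
  have h2 := r_le M A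
  have h3 := Set.ncard_insert_of_notMem h (Set.toFinite A)
  simp only [nA]
  omega

lemma nB_add (M : Matroid (Fin n)) (A : Set (Fin n)) : nB M A + r M A = r M Set.univ := by
  have := r_mono M (Set.subset_univ A)
  simp only [nB]
  omega

lemma step (M₁ M₂ : Matroid (Fin n)) (S : Finset (El n)) (e : El n) :
    nul M₁ M₂ S ≤ nul M₁ M₂ (insert e S) ∧ nul M₁ M₂ (insert e S) ≤ nul M₁ M₂ S + 1 := by
  by_cases he : e ∈ S
  · rw [insert_eq_of_mem he]; omega
  obtain ⟨i, c⟩ := e
  simp only [nul_eq]
  cases c
  · rw [XS_false]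
    have h1 := nB_add M₂ (YS S)
    have h2 := nB_add M₂ (YS (insert (i, false) S))
    have h3 := r_insert M₂ i (YS (insert (i, false) S))
    have h4 := r_mono M₂ (Set.subset_insert i (YS (insert (i, false) S)))
    rw [← YS_false he] at h3 h4
    omega
  · rw [XS_true, YS_true]
    have h1 := nA_insert M₁ (A := XS S) (i := i) he
    have h3 := r_insert M₁ i (XS S)
    have h4 := r_mono M₁ (Set.subset_insert i (XS S))
    omega

lemma set_ofFn (c : Fin n → Bool) (k : Fin n) (b : Bool) :
    (List.ofFn c).set k b = List.ofFn (Function.update c k b) := by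
  refine List.ext_getElem (by simp) fun i h1 h2 => ?_
  simp only [List.getElem_set, List.getElem_ofFn, Function.update_apply, Fin.ext_iff]
  by_cases h : (k : ℕ) = i
  · simp [h]
  · simp [h, Ne.symm h]

lemma getD_ofFn (c : Fin n → Bool) (k : Fin n) : (List.ofFn c).getD k false = c k := by
  simp [List.getD_eq_getElem?_getD]

lemma subsetOf_ofFn (c : Fin n → Bool) : subsetOf n (List.ofFn c) = {i | c i = true} := by
  ext i
  simp only [subsetOf, getD_ofFn]

lemma countP_ofFn (c : Fin n → Bool) :
    (List.ofFn c).countP (fun b => b) = (univ.filter fun i => c i = true).card := by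
  induction n with
  | zero => simp
  | succ n ih =>
    rw [List.ofFn_succ, List.countP_cons, ih, Fin.card_filter_univ_succ']
    cases c 0 <;> simp [add_comm]

lemma greedy {M : Matroid (Fin n)} (hM : M.E = Set.univ) {O : Qy → Bool} {side : Bool}
    (hO : ∀ c : Fin n → Bool, O (side, List.ofFn c) = true ↔ M.Indep {i | c i = true})
    (X : Fin n → Bool) : ∀ k ≤ n, ∃ c : Fin n → Bool, M.Indep {i | c i = true} ∧
      (∀ i, c i = true → X i = true ∧ i.val < k) ∧
      (∀ i, X i = true → i.val < k → i ∈ M.closure {i | c i = true}) ∧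
      ∀ g : List Bool → ℝ, E O (foldP (List.range k)
        (fun (cur : List Bool) i => if (List.ofFn X).getD i false = true then
          bind (askP (side, cur.set i true)) fun b =>
            .ret (if b = true then cur.set i true else cur)
          else .ret cur) (List.replicate n false)) g = g (List.ofFn c) := by
  intro k
  induction k with
  | zero =>
    intro _
    refine ⟨fun _ => false, by simp, by simp, by simp, fun g => ?_⟩
    simp [foldP, List.ofFn_const]
  | succ k ih =>
    intro hk
    obtain ⟨c, h1, h2, h3, h4⟩ := ih (by omega)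
    let κ : Fin n := ⟨k, by omega⟩
    have hκ : (List.ofFn X).getD k false = X κ := getD_ofFn X κ
    have hset : (List.ofFn c).set k true = List.ofFn (Function.update c κ true) := set_ofFn c κ true
    have hins : {i | Function.update c κ true i = true} = insert κ {i | c i = true} := by
      ext i
      by_cases h : i = κ
      · subst h; simp
      · simp [h]
    have hlt : ∀ i : Fin n, i.val < k + 1 → i ≠ κ → i.val < k := fun i hi hne => by
      have : i.val ≠ k := fun h => hne (Fin.ext h)
      omega
    by_cases hX : X κ = true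
    · by_cases hI : M.Indep (insert κ {i | c i = true})
      · refine ⟨Function.update c κ true, by rwa [hins], fun i hi => ?_, fun i hi hik => ?_,
          fun g => ?_⟩
        · by_cases h : i = κ
          · subst h; exact ⟨hX, Nat.lt_succ_self k⟩
          · rw [Function.update_of_ne h] at hi
            exact ⟨(h2 i hi).1, (h2 i hi).2.trans (Nat.lt_succ_self k)⟩
        · rw [hins]
          by_cases h : i = κ
          · subst h
            exact M.mem_closure_of_mem' (Set.mem_insert _ _) (by simp [hM])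
          · exact M.closure_subset_closure (Set.subset_insert _ _) (h3 i hi (hlt i hik h))
        · rw [E_foldP_range_succ, h4, hκ, if_pos hX, E_bind, E_askP, hset,
            (hO _).2 (by rwa [hins])]
          simp
      · refine ⟨c, h1, fun i hi => ⟨(h2 i hi).1, (h2 i hi).2.trans (Nat.lt_succ_self k)⟩,
          fun i hi hik => ?_, fun g => ?_⟩
        · by_cases h : i = κ
          · subst h
            exact h1.mem_closure_iff'.2 ⟨by simp [hM], fun h => absurd h hI⟩
          · exact h3 i hi (hlt i hik h)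
        · have hO' : O (side, List.ofFn (Function.update c κ true)) = false := by
            rw [← Bool.not_eq_true, hO, hins]; exact hI
          rw [E_foldP_range_succ, h4, hκ, if_pos hX, E_bind, E_askP, hset, hO']
          simp
    · refine ⟨c, h1, fun i hi => ⟨(h2 i hi).1, (h2 i hi).2.trans (Nat.lt_succ_self k)⟩,
        fun i hi hik => ?_, fun g => ?_⟩
      · by_cases h : i = κ
        · subst h; exact absurd hi hX
        · exact h3 i hi (hlt i hik h)
      · rw [E_foldP_range_succ, h4, hκ, if_neg hX]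
        rfl

end Nl

variable {n : ℕ} {M₁ M₂ : Matroid (Fin n)}

theorem nullity_nul (M₁ M₂ : Matroid (Fin n)) : Nullity (nul M₁ M₂) := by
  refine ⟨fun S e => (Nl.step M₁ M₂ S e).1, fun S e => (Nl.step M₁ M₂ S e).2, ?_⟩
  rintro S ⟨i, c⟩ ⟨j, d⟩ he hf hef
  simp only [Nl.nul_eq]
  cases c <;> cases d
  · have hij : i ≠ j := fun h => hef (by rw [h])
    simp only [Nl.XS_false]
    have hi : (i, false) ∉ insert (j, false) S := by simp [he, hij]
    have hj : (j, false) ∉ insert (i, false) S := by simp [hf, hij.symm]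
    have e1 := Nl.YS_false hi
    have e2 := Nl.YS_false hj
    have e3 := Nl.YS_false hf
    rw [insert_comm] at e2
    rw [e1] at e3
    have h := Nl.r_two M₂ (A := Nl.YS (insert (i, false) (insert (j, false) S))) hij.symm
    rw [← e3, ← e1, ← e2] at h
    have h1 := Nl.nB_add M₂ (Nl.YS S)
    have h2 := Nl.nB_add M₂ (Nl.YS (insert (i, false) S))
    have h3 := Nl.nB_add M₂ (Nl.YS (insert (j, false) S))
    have h4 := Nl.nB_add M₂ (Nl.YS (insert (i, false) (insert (j, false) S)))
    omega
  · rw [insert_comm]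
    simp only [Nl.XS_false, Nl.XS_true, Nl.YS_true]
    omega
  · simp only [Nl.XS_false, Nl.XS_true, Nl.YS_true]
    omega
  · have hij : i ≠ j := fun h => hef (by rw [h])
    simp only [Nl.XS_true, Nl.YS_true]
    have h := Nl.r_two M₁ (A := Nl.XS S) hij
    have h1 := Nl.nA_insert M₁ (A := Nl.XS S) (i := i) he
    have h2 := Nl.nA_insert M₁ (A := Nl.XS S) (i := j) hf
    have h3 := Nl.nA_insert M₁ (A := insert j (Nl.XS S)) (i := i) (by
      rintro (h | h)
      · exact hij h
      · exact he h)
    omega

lemma nul2_le (M₁ M₂ : Matroid (Fin n)) (X Y : Fin n → Bool) : nul2 M₁ M₂ X Y ≤ 2 * n := by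
  have hc : ∀ A : Set (Fin n), A.ncard ≤ n := fun A => by
    simpa using Set.ncard_le_card A
  have h1 := hc {i | X i = true}
  have h2 := (Nl.r_le M₂ Set.univ).trans (hc _)
  rw [Nl.nul2_eq, Nl.nA, Nl.nB]
  omega

lemma nul_St (M₁ M₂ : Matroid (Fin n)) (x : Fin n → Bool) :
    nul M₁ M₂ (St ∅ x) = nul2 M₁ M₂ x x := by
  rw [nul]
  congr 1 <;> funext i <;> simp [St]

lemma nul_al (M₁ M₂ : Matroid (Fin n)) (k : Fin n) (x : Fin n → Bool) (c : Bool) :
    nul M₁ M₂ (insert (k, c) (St {k} x)) =
      nul2 M₁ M₂ (Function.update x k c) (Function.update x k c) := by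
  rw [nul]
  congr 1 <;> funext i <;> by_cases h : i = k <;> cases c <;> simp [St, h]

lemma nul_ga (M₁ M₂ : Matroid (Fin n)) {k j : Fin n} (h : j ≠ k) (x : Fin n → Bool) :
    nul M₁ M₂ (insert (j, !x j) (St {k} x)) =
      nul2 M₁ M₂ (Function.update (Function.update x j true) k false)
        (Function.update (Function.update x j false) k true) := by
  rw [nul]
  congr 1 <;> funext i <;> by_cases hk : i = k
  · subst hk; simp [St, h.symm]
  · by_cases hj : i = j
    · subst hj; cases hx : x i <;> simp [St, hk, hx]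
    · simp [St, hk, hj]
  · subst hk; simp [St, h.symm]
  · by_cases hj : i = j
    · subst hj; cases hx : x i <;> simp [St, hk, hx]
    · simp [St, hk, hj]

lemma numCommon_eq (h₁ : M₁.E = Set.univ) (h₂ : M₂.E = Set.univ) (h : M₁.eRank = M₂.eRank) :
    numCommon M₁ M₂ = (univ.filter fun x : Fin n → Bool => nul2 M₁ M₂ x x = 0).card := by
  have key : ∀ B : Set (Fin n),
      Nl.nA M₁ B + Nl.nB M₂ B = 0 ↔ M₁.IsBase B ∧ M₂.IsBase B := by
    intro B
    have a1 := Nl.r_le M₁ B
    have a2 := Nl.nB_add M₂ B
    have a3 := Nl.r_le M₂ B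
    have a4 := Nl.r_mono M₁ (Set.subset_univ B)
    have a5 : Nl.r M₁ Set.univ = Nl.r M₂ Set.univ := by simp [Nl.r, h]
    have hfin := Set.toFinite B
    have ind : ∀ M : Matroid (Fin n), Nl.r M B = B.ncard → M.Indep B := fun M hM => by
      rw [Matroid.indep_iff_eRk_eq_encard_of_finite hfin, ← Nl.r_cast, hM, hfin.cast_ncard_eq]
    have bas : ∀ M : Matroid (Fin n), Nl.r M B = B.ncard → Nl.r M B = Nl.r M Set.univ →
        M.IsBase B := fun M hM hM' => (ind M hM).isBase_of_eRk_ge hfin (by
      rw [← M.eRk_univ_eq, ← Nl.r_cast, ← Nl.r_cast, hM'])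
    constructor
    · intro h0
      simp only [Nl.nA] at h0
      exact ⟨bas M₁ (by omega) (by omega), bas M₂ (by omega) (by omega)⟩
    · rintro ⟨b1, b2⟩
      have c1 : Nl.r M₁ B = B.ncard := by
        rw [Nl.r, b1.indep.eRk_eq_encard]; rfl
      have c2 : Nl.r M₂ B = Nl.r M₂ Set.univ := by
        rw [Nl.r, b2.eRk_eq_eRank, Nl.r, M₂.eRk_univ_eq]
      simp only [Nl.nA]
      omega
  rw [numCommon, ← Set.ncard_coe_finset]
  symm
  refine Set.ncard_congr (fun x _ => {i | x i = true}) (fun x hx => ?_) (fun x y _ _ hxy => ?_)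
    fun B hB => ?_
  · simp only [coe_filter, mem_univ, true_and, Set.mem_setOf_eq] at hx
    rw [Nl.nul2_eq] at hx
    exact (key _).1 hx
  · funext i
    have := Set.ext_iff.1 hxy i
    simp only [Set.mem_setOf_eq] at this
    exact Bool.eq_iff_iff.2 this
  · classical
    refine ⟨fun i => decide (i ∈ B), ?_, by ext i; simp⟩
    simp only [coe_filter, mem_univ, true_and, Set.mem_setOf_eq]
    rw [Nl.nul2_eq]
    have : {i | decide (i ∈ B) = true} = B := by ext i; simp
    rw [this]
    exact (key B).2 hB

lemma E_rankP (h₁ : M₁.E = Set.univ) (h₂ : M₂.E = Set.univ) (side : Bool) (X : Fin n → Bool)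
    (g : ℕ → ℝ) : E (oracle M₁ M₂) (rankP side n (List.ofFn X)) g =
      g (rk (if side = true then M₂ else M₁) X) := by
  have hM : (if side = true then M₂ else M₁).E = Set.univ := by split <;> assumption
  obtain ⟨c, h1, h2, h3, h4⟩ := Nl.greedy hM (O := oracle M₁ M₂) (side := side)
    (fun c => by simp [oracle, Nl.subsetOf_ofFn]) X n le_rfl
  rw [rankP, E_bind, h4, E_ret, Nl.countP_ofFn, Nl.card_eq]
  have hb := h1.isBasis_of_subset_of_subset_closure (X := {i | X i = true})
    (fun i hi => (h2 i hi).1) fun i hi => h3 i hi i.2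
  rw [rk, hb.eRk_eq_encard]
  rfl

lemma E_wtP (h₁ : M₁.E = Set.univ) (h₂ : M₂.E = Set.univ) (q : ℚ) (X Y : Fin n → Bool)
    (g : ℚ → ℝ) : E (oracle M₁ M₂) (wtP n q (List.ofFn X) (List.ofFn Y)) g =
      g (q ^ nul2 M₁ M₂ X Y) := by
  have h := nul2_le M₁ M₂ X Y
  rw [wtP, nulP, ← List.ofFn_const]
  simp only [E_bind, E_rankP h₁ h₂, E_ret, Nl.countP_ofFn, Bool.false_eq_true, if_false, if_true]
  rw [nul2] at h ⊢
  rw [min_eq_left h]

end Vale.Agent.P317
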