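import Vale.Agent.P317.Defs

/-! Programs with oracle calls and biased coins: definitions and basic laws. -/

namespace Vale.Agent.P317

/-- programs: return a value, ask the oracle, or toss a coin with a rational bias -/
inductive Prog (Q β : Type) : Type
  | ret : β → Prog Q β
  | ask : Q → (Bool → Prog Q β) → Prog Q β
  | coin : ℚ → (Bool → Prog Q β) → Prog Q β

namespace Prog

variable {Q α β γ σ : Type}

def bind : Prog Q β → (β → Prog Q γ) → Prog Q γ
  | .ret b, f => f b
  | .ask q k, f => .ask q fun a => bind (k a) f
  | .coin p k, f => .coin p fun a => bind (k a) f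

def askP (q : Q) : Prog Q Bool := .ask q .ret
def coinP (p : ℚ) : Prog Q Bool := .coin p .ret

/-- the bias, clamped to the unit interval -/
noncomputable def cl (p : ℚ) : ℝ := max 0 (min 1 (p : ℝ))

/-- expectation of `g` on the value returned (ideal coins) -/
noncomputable def E (O : Q → Bool) : Prog Q β → (β → ℝ) → ℝ
  | .ret b, g => g b
  | .ask q k, g => E O (k (O q)) g
  | .coin p k, g => cl p * E O (k true) g + (1 - cl p) * E O (k false) g

open Classical in
/-- probability of an event -/
noncomputable def Pr (O : Q → Bool) (p : Prog Q β) (G : β → Prop) : ℝ :=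
  E O p fun b => if G b then 1 else 0

/-- all leaves satisfy `P` -/
def All (P : β → Prop) : Prog Q β → Prop
  | .ret b => P b
  | .ask _ k => ∀ a, All P (k a)
  | .coin _ k => ∀ a, All P (k a)

def depth : Prog Q β → ℕ
  | .ret _ => 0
  | .ask _ k => max (depth (k true)) (depth (k false)) + 1
  | .coin _ k => max (depth (k true)) (depth (k false)) + 1

def foldP : List γ → (σ → γ → Prog Q σ) → σ → Prog Q σ
  | [], _, s => .ret s
  | c :: l, f, s => bind (f s c) fun s' => foldP l f s'

def mapP (l : List γ) (f : γ → Prog Q β) : Prog Q (List β) :=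
  foldP l (fun acc c => bind (f c) fun b => .ret (acc ++ [b])) []

/-- `N` independent runs -/
def rep (N : ℕ) (p : Prog Q β) : Prog Q (List β) := mapP (List.range N) fun _ => p

/-- choose an index with probability proportional to the weights -/
def choose (ws : List ℚ) : Prog Q ℕ :=
  bind (foldP (List.range ws.length)
    (fun (s : Option ℕ) i => if s.isSome = true then .ret s else
      bind (coinP (ws.getD i 0 / (ws.drop i).sum)) fun b => .ret (if b = true then some i else none))
    none) fun s => .ret (s.getD 0)

/-- a median of a list -/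
def median (vs : List ℚ) : ℚ :=
  (vs.find? fun v => decide (vs.length ≤ 2 * vs.countP fun u => decide (u ≤ v)) &&
    decide (vs.length ≤ 2 * vs.countP fun u => decide (v ≤ u))).getD 0

lemma cl_nonneg (p : ℚ) : 0 ≤ cl p := le_max_left _ _
lemma cl_le_one (p : ℚ) : cl p ≤ 1 := max_le zero_le_one (min_le_left _ _)
lemma cl_eq {p : ℚ} (h0 : 0 ≤ p) (h1 : p ≤ 1) : cl p = p := by
  have h0' : (0 : ℝ) ≤ p := by exact_mod_cast h0
  have h1' : (p : ℝ) ≤ 1 := by exact_mod_cast h1
  simp [cl, h0', h1']

variable (O : Q → Bool)

@[simp] lemma E_ret (b : β) (g : β → ℝ) : E O (.ret b) g = g b := rfl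

@[simp] lemma E_bind (p : Prog Q β) (f : β → Prog Q γ) (g : γ → ℝ) :
    E O (bind p f) g = E O p fun b => E O (f b) g := by
  induction p with
  | ret b => rfl
  | ask q k ih => simp only [bind, E, ih]
  | coin p k ih => simp only [bind, E, ih]

@[simp] lemma E_askP (q : Q) (g : Bool → ℝ) : E O (askP q) g = g (O q) := rfl

lemma E_coinP (p : ℚ) (g : Bool → ℝ) :
    E O (coinP p) g = cl p * g true + (1 - cl p) * g false := rfl

@[simp] lemma E_const (p : Prog Q β) (c : ℝ) : E O p (fun _ => c) = c := by
  induction p with
  | ret b => rfl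
  | ask q k ih => simp only [E, ih]
  | coin p k ih => simp only [E, ih]; ring

lemma E_add (p : Prog Q β) (f g : β → ℝ) :
    E O p (fun b => f b + g b) = E O p f + E O p g := by
  induction p with
  | ret b => rfl
  | ask q k ih => simp only [E, ih]
  | coin p k ih => simp only [E, ih]; ring

lemma E_mul (p : Prog Q β) (c : ℝ) (g : β → ℝ) : E O p (fun b => c * g b) = c * E O p g := by
  induction p with
  | ret b => rfl
  | ask q k ih => simp only [E, ih]
  | coin p k ih => simp only [E, ih]; ring

lemma E_sub (p : Prog Q β) (f g : β → ℝ) :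
    E O p (fun b => f b - g b) = E O p f - E O p g := by
  induction p with
  | ret b => rfl
  | ask q k ih => simp only [E, ih]
  | coin p k ih => simp only [E, ih]; ring

lemma E_sum {ι : Type} (s : Finset ι) (p : Prog Q β) (g : ι → β → ℝ) :
    E O p (fun b => ∑ i ∈ s, g i b) = ∑ i ∈ s, E O p (g i) := by
  classical
  induction s using Finset.induction_on with
  | empty => simp
  | insert i s hi ih => simp only [Finset.sum_insert hi, E_add, ih]

lemma E_mono_all {P : β → Prop} {p : Prog Q β} (hp : All P p) {f g : β → ℝ}
    (h : ∀ b, P b → f b ≤ g b) : E O p f ≤ E O p g := by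
  induction p with
  | ret b => exact h b hp
  | ask q k ih => exact ih _ (hp _)
  | coin p k ih =>
    have h1 := ih true (hp _)
    have h2 := ih false (hp _)
    have h3 := cl_nonneg p
    have h4 := sub_nonneg.2 (cl_le_one p)
    simp only [E]
    gcongr

lemma All_true (p : Prog Q β) : All (fun _ => True) p := by
  induction p with
  | ret b => trivial
  | ask q k ih => exact ih
  | coin p k ih => exact ih

lemma E_mono (p : Prog Q β) {f g : β → ℝ} (h : ∀ b, f b ≤ g b) : E O p f ≤ E O p g :=
  E_mono_all O (All_true p) fun b _ => h b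

lemma E_congr_all {P : β → Prop} {p : Prog Q β} (hp : All P p) {f g : β → ℝ}
    (h : ∀ b, P b → f b = g b) : E O p f = E O p g :=
  le_antisymm (E_mono_all O hp fun b hb => (h b hb).le) (E_mono_all O hp fun b hb => (h b hb).ge)

lemma E_nonneg (p : Prog Q β) {g : β → ℝ} (h : ∀ b, 0 ≤ g b) : 0 ≤ E O p g := by
  simpa using E_mono O p (f := fun _ => 0) h

lemma E_le_one (p : Prog Q β) {g : β → ℝ} (h : ∀ b, g b ≤ 1) : E O p g ≤ 1 := by
  simpa using E_mono O p (g := fun _ => 1) h

variable {O}

lemma All.mono {P P' : β → Prop} {p : Prog Q β} (hp : All P p) (h : ∀ b, P b → P' b) :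
    All P' p := by
  induction p with
  | ret b => exact h b hp
  | ask q k ih => exact fun a => ih a (hp a)
  | coin p k ih => exact fun a => ih a (hp a)

lemma All.and {P P' : β → Prop} {p : Prog Q β} (hp : All P p) (hp' : All P' p) :
    All (fun b => P b ∧ P' b) p := by
  induction p with
  | ret b => exact ⟨hp, hp'⟩
  | ask q k ih => exact fun a => ih a (hp a) (hp' a)
  | coin p k ih => exact fun a => ih a (hp a) (hp' a)

@[simp] lemma All_ret {P : β → Prop} {b : β} : All P (.ret b : Prog Q β) ↔ P b := Iff.rfl

lemma All.bind {P : β → Prop} {P' : γ → Prop} {p : Prog Q β} {f : β → Prog Q γ} (hp : All P p)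
    (hf : ∀ b, P b → All P' (f b)) : All P' (bind p f) := by
  induction p with
  | ret b => exact hf b hp
  | ask q k ih => exact fun a => ih a (hp a)
  | coin p k ih => exact fun a => ih a (hp a)

lemma All.bind' {P' : γ → Prop} (p : Prog Q β) {f : β → Prog Q γ} (hf : ∀ b, All P' (f b)) :
    All P' (Prog.bind p f) :=
  (All_true p).bind fun b _ => hf b

/-- invariants of a loop, indexed by the number of rounds made -/
lemma All_foldP (l : List γ) (f : σ → γ → Prog Q σ) (I : ℕ → σ → Prop)
    (h : ∀ k s, ∀ c ∈ l, I k s → All (I (k + 1)) (f s c)) :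
    ∀ k s, I k s → All (I (k + l.length)) (foldP l f s) := by
  induction l with
  | nil => intro k s hs; exact hs
  | cons c l ih =>
    intro k s hs
    refine (h k s c List.mem_cons_self hs).bind fun s' hs' => ?_
    have := ih (fun k s c hc => h k s c (List.mem_cons_of_mem _ hc)) (k + 1) s' hs'
    rwa [add_assoc, add_comm 1] at this

lemma foldP_append (l l' : List γ) (f : σ → γ → Prog Q σ) (g : σ → ℝ) (s : σ) :
    E O (foldP (l ++ l') f s) g = E O (foldP l f s) fun s' => E O (foldP l' f s') g := by
  induction l generalizing s with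
  | nil => rfl
  | cons c l ih => simp only [List.cons_append, foldP, E_bind, ih]

lemma E_foldP_range_succ (N : ℕ) (f : σ → ℕ → Prog Q σ) (g : σ → ℝ) (s : σ) :
    E O (foldP (List.range (N + 1)) f s) g =
      E O (foldP (List.range N) f s) fun s' => E O (f s' N) g := by
  rw [List.range_succ, foldP_append]
  simp [foldP]

lemma depth_bind_le {P : β → Prop} {p : Prog Q β} (hp : All P p) {f : β → Prog Q γ} {D : ℕ}
    (hf : ∀ b, P b → depth (f b) ≤ D) : depth (bind p f) ≤ depth p + D := by
  induction p with
  | ret b => simpa [bind, depth] using hf b hp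
  | ask q k ih =>
    have h1 := ih true (hp _)
    have h2 := ih false (hp _)
    simp only [bind, depth]; omega
  | coin p k ih =>
    have h1 := ih true (hp _)
    have h2 := ih false (hp _)
    simp only [bind, depth]; omega

end Prog

end Vale.Agent.P317
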