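import Vale.Agent.P317.Prog
import Vale.Agent.Lib.PTime.Rat

/-! Replay semantics of programs and the class `PP` of polynomial-time programs (definitions). -/

namespace Vale.Agent.P317

open Vale.Agent.PT

namespace Prog

variable {Q α β γ σ : Type}

/-- Run a program on a string of random bits and a list of oracle answers; a coin uses `B` random
bits. The result is either the first query without an answer (first component `some q`), or the
value together with the unused bits and answers (second component). -/
def run (B : ℕ) : Prog Q β → List Bool × List Bool → Option Q × Option (β × List Bool × List Bool)
  | .ret b, s => (none, some (b, s))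
  | .ask q k, s => lcas s.2 (some q, none) fun a as => run B (k a) (s.1, as)
  | .coin p k, s => run B (k (decide ((val (s.1.take B) : ℚ) < p * 2 ^ B))) (s.1.drop B, s.2)

/-- polynomial-time families of programs -/
structure PP [TEnc Q] [TEnc α] [TEnc β] (P : α → Prog Q β) : Prop where
  time : PTime fun z : α × List Unit × List Bool × List Bool => run z.2.1.length (P z.1) z.2.2
  dep : PB fun a => depth (P a)
  leaf : ∃ s : α → ℕ, PB s ∧ ∀ a, All (fun b => sz b ≤ s a) (P a)

end Prog

end Vale.Agent.P317
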