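import Vale.Agent.P317.Sem
import Vale.Agent.P317.Chain
import Vale.Agent.P317.LorStep

/-! Accuracy of the samplers (job Samp). -/

namespace Vale.Agent.P317

open Prog Finset

variable {n m : ℕ} {M₁ M₂ : Matroid (Fin n)} {q : ℚ} {ρ : List (List ℚ)}

lemma wq_pos {r : ℝ} (hr : 0 < r) (S : Finset (El n)) : 0 < wq M₁ M₂ r S := pow_pos hr _

lemma wq_lorentz {r : ℝ} (h0 : 0 < r) (h1 : r ≤ 1) : Lorentz (wq M₁ M₂ r) :=
  lorentz_pow (nullity_nul M₁ M₂) h0 h1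

lemma rr_nonneg {l : List ℚ} (h : ∀ r ∈ l, 0 ≤ r) (j : Fin n) : 0 ≤ rr n l j := by
  unfold rr
  rw [Rat.cast_nonneg, List.getD_eq_getElem?_getD]
  cases hj : l[j.val]? with
  | none => exact le_rfl
  | some r => exact h r (List.mem_of_getElem? hj)

lemma rr_map (l : List ℚ) (lam : ℚ) (j : Fin n) :
    rr n (l.map fun r => lam * r) j = lam * rr n l j := by
  unfold rr
  rw [List.getD_eq_getElem?_getD, List.getD_eq_getElem?_getD, List.getElem?_map]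
  cases l[j.val]? <;> simp

lemma sum_Iio_le {w : Finset (El n) → ℝ} (hw : ∀ S, 0 < w S) (hρ : GoodRho w ρ) (hm : n + 4 ≤ m)
    (k : Fin n) : ∑ j ∈ Iio k, rr n (ρ.getD k []) j * WW w k j ≤ 2 * (m - 1) * ZZ w k := by
  have hZ := ZZ_pos hw k
  have hk : (k : ℝ) ≤ m - 1 := by
    have : k.val + 1 ≤ m := by omega
    have : ((k.val + 1 : ℕ) : ℝ) ≤ m := by exact_mod_cast this
    push_cast at this
    linarith
  calc ∑ j ∈ Iio k, rr n (ρ.getD k []) j * WW w k j ≤ ∑ _j ∈ Iio k, 2 * ZZ w k :=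
        sum_le_sum fun j hj => (hρ.2 k j (mem_Iio.1 hj)).2
    _ = k * (2 * ZZ w k) := by rw [sum_const, Fin.card_Iio, nsmul_eq_mul]
    _ ≤ 2 * (m - 1) * ZZ w k := by nlinarith

lemma LL_pos (hm : n + 4 ≤ m) : 0 < LL m := by
  have : 0 < m := by omega
  unfold LL
  positivity

/-- one level of the sampler -/
lemma level_close {w : Finset (El n) → ℝ} (hw : ∀ S, 0 < w S) (hL : Lorentz w) (hm : n + 4 ≤ m)
    (hρ : GoodRho w ρ) (k : Fin n) {g : (Fin n → Bool) → ℝ} (hg : ∀ x, 0 ≤ g x ∧ g x ≤ 1) :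
    |nuE w k (Pbar w k (rr n ((ρ.getD k []).map fun r => lamb m * r)) (LL m) (Lf w k g)) -
      nuE w (k + 1) g| ≤ 1 / (256 * (m : ℝ) ^ 4) := by
  set σ := rr n ((ρ.getD k []).map fun r => lamb m * r) with hσ
  have hm4 : (4 : ℝ) ≤ m := by exact_mod_cast (by omega : 4 ≤ m)
  have hm0 : (0 : ℝ) < m := by linarith
  have hkm : (k : ℝ) ≤ m := by exact_mod_cast (by omega : k.val ≤ m)
  have hlam : ((lamb m : ℚ) : ℝ) = 1 / (2048 * (m : ℝ) ^ 5) := by simp [lamb]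
  have hl0 : (0 : ℝ) < (lamb m : ℚ) := by rw [hlam]; positivity
  have hσj : ∀ j, σ j = (lamb m : ℚ) * rr n (ρ.getD k []) j := fun j => rr_map _ _ j
  have hσ0 : ∀ j, 0 ≤ σ j := fun j => by
    rw [hσj]; exact mul_nonneg hl0.le (rr_nonneg (hρ.1 k) j)
  have hZ := ZZ_pos hw k
  have hS : ∑ j ∈ Iio k, σ j * WW w k j ≤ 1 / (1024 * (m : ℝ) ^ 4) * ZZ w k := by
    simp only [hσj, mul_assoc]
    rw [← mul_sum]
    refine (mul_le_mul_of_nonneg_left (sum_Iio_le hw hρ hm k) hl0.le).trans ?_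
    rw [← mul_assoc, hlam]
    refine mul_le_mul_of_nonneg_right ?_ hZ.le
    rw [div_mul_eq_mul_div, div_le_div_iff₀ (by positivity) (by positivity)]
    nlinarith [pow_pos hm0 4]
  have hm1 : 1 / (1024 * (m : ℝ) ^ 4) ≤ 1 / 2 := by
    refine one_div_le_one_div_of_le two_pos ?_
    nlinarith [one_le_pow₀ (by linarith : (1 : ℝ) ≤ m) (n := 4)]
  have hOm : Om w k σ ≤ 2 * ZZ w k := by
    rw [Om_eq]
    nlinarith [mul_le_mul_of_nonneg_right hm1 hZ.le]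
  have h1 := walk_close hw hL k hσ0 (c := (lamb m : ℚ) / 4) (θ := 1 / (512 * (m : ℝ) ^ 5))
    (by positivity) (by positivity) (fun j hj => by
      have := mul_le_mul_of_nonneg_left (hρ.2 k j hj).1 hl0.le
      have := mul_le_mul_of_nonneg_left hOm hl0.le
      rw [hσj, mul_assoc]
      linarith) (LL_pos hm) (Lf_mem hw k hg)
  have h2 := lift_close hw k hσ0 hg
  have e1 : 1 / (((lamb m : ℚ) : ℝ) / 4 * (LL m : ℕ) * (1 / (512 * (m : ℝ) ^ 5))) =
      1 / (512 * (m : ℝ) ^ 4) := by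
    rw [hlam, LL]
    push_cast
    field_simp
    norm_num
  have e2 : (k : ℝ) * (1 / (512 * (m : ℝ) ^ 5)) ≤ 1 / (512 * (m : ℝ) ^ 4) := by
    rw [mul_one_div, div_le_div_iff₀ (by positivity) (by positivity)]
    nlinarith [pow_pos hm0 4]
  have e3 : 2 * (∑ j ∈ Iio k, σ j * WW w k j) / ZZ w k ≤ 1 / (512 * (m : ℝ) ^ 4) := by
    rw [div_le_iff₀ hZ]
    have : 1 / (512 * (m : ℝ) ^ 4) = 2 * (1 / (1024 * (m : ℝ) ^ 4)) := by field_simp; norm_num
    rw [this]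
    linarith
  have e4 : 1 / (256 * (m : ℝ) ^ 4) = 2 * (1 / (512 * (m : ℝ) ^ 4)) := by field_simp; norm_num
  rw [e1] at h1
  have h3 := abs_sub_le (nuE w k (Pbar w k σ (LL m) (Lf w k g))) (omE w k σ (Lf w k g))
    (nuE w (k + 1) g)
  linarith

theorem sample_close (h₁ : M₁.E = Set.univ) (h₂ : M₂.E = Set.univ) (hq : 0 < q) (hq1 : q ≤ 1)
    (hm : n + 4 ≤ m) (hρ : GoodRho (wq M₁ M₂ q) ρ) {k : ℕ} (hk : k ≤ n) {g : List Bool → ℝ}
    (hg : ∀ x : Fin n → Bool, 0 ≤ g (List.ofFn x) ∧ g (List.ofFn x) ≤ 1) :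
    |E (oracle M₁ M₂) (sampleP n q ρ (lamb m) (LL m) k) g -
      nuE (wq M₁ M₂ q) k fun y => g (List.ofFn y)| ≤ k / (256 * (m : ℝ) ^ 4) := by
  have hq' : (0 : ℝ) < q := by exact_mod_cast hq
  have hq1' : (q : ℝ) ≤ 1 := by exact_mod_cast hq1
  have hw : ∀ S, 0 < wq M₁ M₂ q S := wq_pos hq'
  induction k generalizing g with
  | zero =>
    rw [nuE_zero hw]
    simp [sampleP, foldP]
  | succ k ih =>
    have hkn : k < n := hk
    have hrow : ∀ r ∈ (ρ.getD k []).map fun r => lamb m * r, 0 ≤ r := by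
      intro r hr
      obtain ⟨r', hr', rfl⟩ := List.mem_map.1 hr
      refine mul_nonneg ?_ (hρ.1 k r' hr')
      unfold lamb
      positivity
    have hl := fun x => E_liftP h₁ h₂ hq hrow ⟨k, hkn⟩ (LL_pos hm) x g
    have h1 := ih hkn.le (g := fun s => E (oracle M₁ M₂)
      (liftP n q k ((ρ.getD k []).map fun r => lamb m * r) (LL m) s) g) (fun x => by
        rw [hl x]
        exact Pbar_mem hw _ (rr_nonneg hrow) _ (Lf_mem hw _ hg) x)
    have h2 := level_close hw (wq_lorentz hq' hq1') hm hρ ⟨k, hkn⟩ hg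
    simp only [hl] at h1
    have e : E (oracle M₁ M₂) (sampleP n q ρ (lamb m) (LL m) (k + 1)) g =
        E (oracle M₁ M₂) (sampleP n q ρ (lamb m) (LL m) k) fun s => E (oracle M₁ M₂)
          (liftP n q k ((ρ.getD k []).map fun r => lamb m * r) (LL m) s) g := by
      simp only [sampleP]
      rw [min_eq_left hk, min_eq_left hkn.le, E_foldP_range_succ]
    rw [e]
    refine (abs_sub_le _ _ _).trans ((add_le_add h1 h2).trans_eq ?_)
    push_cast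
    ring

theorem est_close (h₁ : M₁.E = Set.univ) (h₂ : M₂.E = Set.univ) (hq : 0 < q) (hq1 : q ≤ 1)
    (hm : n + 4 ≤ m) (hρ : GoodRho (wq M₁ M₂ q) ρ) (k : Fin n) {g : ℕ → ℝ}
    (hg : ∀ i, 0 ≤ g i ∧ g i ≤ 1) :
    |E (oracle M₁ M₂) (estP n q ρ (lamb m) (LL m) k) g -
      omE (wq M₁ M₂ q) k (rr n (ρ.getD k [])) (Op (wq M₁ M₂ q) k (rr n (ρ.getD k [])) g)| ≤
      1 / (128 * (m : ℝ) ^ 3) := by
  have hq' : (0 : ℝ) < q := by exact_mod_cast hq
  have hq1' : (q : ℝ) ≤ 1 := by exact_mod_cast hq1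
  have hw : ∀ S, 0 < wq M₁ M₂ q S := wq_pos hq'
  have hm4 : (4 : ℝ) ≤ m := by exact_mod_cast (by omega : 4 ≤ m)
  have hm0 : (0 : ℝ) < m := by linarith
  have hkm : (k : ℝ) ≤ m := by exact_mod_cast (by omega : k.val ≤ m)
  have hr0 := rr_nonneg (n := n) (hρ.1 k)
  have hl : ∀ x : Fin n → Bool, E (oracle M₁ M₂) (walkP n q k (ρ.getD k []) (LL m) (List.ofFn x))
      (fun y => E (oracle M₁ M₂) (optP n q k (ρ.getD k []) y) g) =
      Pbar (wq M₁ M₂ q) k (rr n (ρ.getD k [])) (LL m)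
        (Op (wq M₁ M₂ q) k (rr n (ρ.getD k [])) g) x := fun x => by
    rw [E_walkP h₁ h₂ hq (hρ.1 k) k (LL_pos hm)]
    simp only [E_optP h₁ h₂ hq (hρ.1 k)]
  have h1 := sample_close h₁ h₂ hq hq1 hm hρ k.isLt.le
    (g := fun x => E (oracle M₁ M₂) (walkP n q k (ρ.getD k []) (LL m) x)
      fun y => E (oracle M₁ M₂) (optP n q k (ρ.getD k []) y) g) (fun x => by
        rw [hl x]
        exact Pbar_mem hw _ hr0 _ (Op_mem hw k hr0 hg) x)
  simp only [hl] at h1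
  have hZ := ZZ_pos hw k
  have hOm : Om (wq M₁ M₂ q) k (rr n (ρ.getD k [])) ≤ 4 * m * ZZ (wq M₁ M₂ q) k := by
    have := sum_Iio_le hw hρ hm k
    rw [Om_eq]
    nlinarith
  have h2 := walk_close hw (wq_lorentz hq' hq1') k hr0 (c := 1 / (8 * (m : ℝ)))
    (θ := 1 / (256 * (m : ℝ) ^ 4)) (by positivity) (by positivity) (fun j hj => by
      refine le_trans ?_ (hρ.2 k j hj).1
      rw [one_div, inv_mul_le_iff₀ (by positivity)]
      linarith) (LL_pos hm) (Op_mem hw k hr0 hg)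
  have e1 : 1 / (1 / (8 * (m : ℝ)) * (LL m : ℕ) * (1 / (256 * (m : ℝ) ^ 4))) ≤
      1 / (256 * (m : ℝ) ^ 3) := by
    have : 1 / (8 * (m : ℝ)) * (LL m : ℕ) * (1 / (256 * (m : ℝ) ^ 4)) = 2 ^ 20 * (m : ℝ) ^ 9 := by
      rw [LL]
      push_cast
      field_simp
      norm_num
    rw [this]
    refine one_div_le_one_div_of_le (by positivity) ?_
    have h6 : (1 : ℝ) ≤ m ^ 6 := one_le_pow₀ (by linarith)
    have h3 := pow_pos hm0 3
    calc 256 * (m : ℝ) ^ 3 ≤ 2 ^ 20 * (m ^ 3 * m ^ 6) := by nlinarith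
      _ = 2 ^ 20 * (m : ℝ) ^ 9 := by ring
  have e2 : (k : ℝ) * (1 / (256 * (m : ℝ) ^ 4)) ≤ 1 / (256 * (m : ℝ) ^ 3) := by
    rw [mul_one_div, div_le_div_iff₀ (by positivity) (by positivity)]
    nlinarith [pow_pos hm0 3]
  have e4 : 1 / (128 * (m : ℝ) ^ 3) = 2 * (1 / (256 * (m : ℝ) ^ 3)) := by field_simp; norm_num
  rw [mul_one_div] at e2
  simp only [estP, E_bind]
  refine (abs_sub_le _ _ _).trans ((add_le_add h1 h2).trans ?_)
  rw [mul_one_div]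
  linarith

theorem ratio_close (h₁ : M₁.E = Set.univ) (h₂ : M₂.E = Set.univ) (hq : 0 < q) (hq1 : q ≤ 1)
    (hm : n + 4 ≤ m) (hρ : GoodRho (wq M₁ M₂ q) ρ) {κ : ℚ} (hκ : 0 ≤ κ) (hκ1 : κ ≤ 1) :
    |Pr (oracle M₁ M₂) (ratioP n q κ ρ (lamb m) (LL m)) (fun b => b = true) -
      Za (wq M₁ M₂ ((q : ℝ) * κ)) n / Za (wq M₁ M₂ q) n| ≤ 1 / (256 * (m : ℝ) ^ 3) := by
  have hm4 : (4 : ℝ) ≤ m := by exact_mod_cast (by omega : 4 ≤ m)
  have hm0 : (0 : ℝ) < m := by linarith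
  have hnm : (n : ℝ) ≤ m := by exact_mod_cast (by omega : n ≤ m)
  have hκ' : (0 : ℝ) ≤ κ := by exact_mod_cast hκ
  have hκ1' : (κ : ℝ) ≤ 1 := by exact_mod_cast hκ1
  have hl : ∀ x : Fin n → Bool, E (oracle M₁ M₂) (wtP n κ (List.ofFn x) (List.ofFn x))
      (fun p => E (oracle M₁ M₂) (coinP p) fun b => if b = true then 1 else 0) =
      (κ : ℝ) ^ nul2 M₁ M₂ x x := fun x => by
    rw [E_wtP h₁ h₂, E_coinP, cl_eq (pow_nonneg hκ _) (pow_le_one₀ hκ hκ1)]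
    simp
  have h1 := sample_close h₁ h₂ hq hq1 hm hρ le_rfl
    (g := fun x => E (oracle M₁ M₂) (wtP n κ x x)
      fun p => E (oracle M₁ M₂) (coinP p) fun b => if b = true then 1 else 0) (fun x => by
        rw [hl x]
        exact ⟨pow_nonneg hκ' _, pow_le_one₀ hκ' hκ1'⟩)
  simp only [hl] at h1
  have e1 : nuE (wq M₁ M₂ q) n (fun x => (κ : ℝ) ^ nul2 M₁ M₂ x x) =
      Za (wq M₁ M₂ ((q : ℝ) * κ)) n / Za (wq M₁ M₂ q) n := by
    rw [nuE]
    congr 1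
    refine sum_congr rfl fun x _ => ?_
    simp only [wt, wq, nul_St, mul_pow]
  have e2 : (n : ℝ) / (256 * (m : ℝ) ^ 4) ≤ 1 / (256 * (m : ℝ) ^ 3) := by
    rw [div_le_div_iff₀ (by positivity) (by positivity)]
    nlinarith [pow_pos hm0 3]
  rw [e1] at h1
  refine le_trans (le_of_eq ?_) (h1.trans e2)
  have e3 : ∀ p : Prog Qy Bool, Pr (oracle M₁ M₂) p (fun b => b = true) =
      E (oracle M₁ M₂) p fun b => if b = true then 1 else 0 := fun p => by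
    unfold Pr
    congr 1
    funext b
    cases b <;> simp
  simp only [e3, ratioP, E_bind]

end Vale.Agent.P317
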