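import Vale.Agent.P317.Null

/-! Semantics of the chain programs (job Sem). -/

namespace Vale.Agent.P317

open Prog Finset

variable {n : ℕ} {M₁ M₂ : Matroid (Fin n)} {q : ℚ} {ρ : List ℚ}

namespace Sm

lemma set_ofFn (x : Fin n → Bool) (k : Fin n) (c : Bool) :
    (List.ofFn x).set k c = List.ofFn (Function.update x k c) := by
  refine List.ext_getElem (by simp) fun i h1 h2 => ?_
  rw [List.getElem_set, List.getElem_ofFn, List.getElem_ofFn]
  by_cases e : (k : ℕ) = i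
  · subst e; simp
  · rw [if_neg e, Function.update_of_ne fun e' => e (by rw [← e'])]

lemma getD_ofFn (x : Fin n → Bool) (k : Fin n) : (List.ofFn x).getD k false = x k := by
  rw [List.getD_eq_getElem _ _ (by simp)]; simp

lemma sum_Iio (k : Fin n) (f : ℕ → ℝ) : ∑ i ∈ range k, f i = ∑ j ∈ Iio k, f j := by
  rw [← Nat.Iio_eq_range, ← Fin.map_valEmbedding_Iio, sum_map]; rfl

/-- the rational weight of an option -/
noncomputable def aq (M₁ M₂ : Matroid (Fin n)) (q : ℚ) (k : Fin n) (x : Fin n → Bool) (c : Bool) :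
    ℚ := q ^ nul2 M₁ M₂ (Function.update x k c) (Function.update x k c)

noncomputable def gq (M₁ M₂ : Matroid (Fin n)) (q : ℚ) (ρ : List ℚ) (k : Fin n)
    (x : Fin n → Bool) (j : ℕ) : ℚ :=
  if h : j < n then ρ.getD j 0 * q ^ nul2 M₁ M₂
    (Function.update (Function.update x ⟨j, h⟩ true) k false)
    (Function.update (Function.update x ⟨j, h⟩ false) k true) else 0

lemma aq_eq (k : Fin n) (x : Fin n → Bool) (c : Bool) :
    ((aq M₁ M₂ q k x c : ℚ) : ℝ) = al (wq M₁ M₂ q) k x c := by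
  rw [aq, al, wq, nul_al]; push_cast; rfl

lemma gq_eq {k j : Fin n} (h : j ≠ k) (x : Fin n → Bool) :
    ((gq M₁ M₂ q ρ k x j : ℚ) : ℝ) = rr n ρ j * ga (wq M₁ M₂ q) k j x := by
  rw [gq, dif_pos j.2, ga, wq, nul_ga M₁ M₂ h]; push_cast; rfl

lemma aq_pos (hq : 0 < q) (k : Fin n) (x : Fin n → Bool) (c : Bool) : 0 < aq M₁ M₂ q k x c :=
  pow_pos hq _

lemma gq_nonneg (hq : 0 < q) (hρ : ∀ r ∈ ρ, 0 ≤ r) (k : Fin n) (x : Fin n → Bool) (j : ℕ) :
    0 ≤ gq M₁ M₂ q ρ k x j := by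
  rw [gq]
  split_ifs
  · refine mul_nonneg ?_ (pow_pos hq _).le
    by_cases hj : j < ρ.length
    · rw [List.getD_eq_getElem _ _ hj]; exact hρ _ (List.getElem_mem _)
    · rw [List.getD_eq_default _ _ (not_lt.1 hj)]
  · exact le_rfl

lemma E_optW (h₁ : M₁.E = Set.univ) (h₂ : M₂.E = Set.univ) (k : Fin n) (x : Fin n → Bool)
    (G : List ℚ → ℝ) : E (oracle M₁ M₂) (optW n q k ρ (List.ofFn x)) G =
      G ((aq M₁ M₂ q k x false + aq M₁ M₂ q k x true) ::
        (List.range k).map (gq M₁ M₂ q ρ k x)) := by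
  rw [optW, E_bind, set_ofFn, E_wtP h₁ h₂, E_bind, set_ofFn, E_wtP h₁ h₂, E_bind,
    min_eq_left k.2.le, E_mapP_det _ _ (gq M₁ M₂ q ρ k x)]
  · rfl
  · intro j hj g
    have hjn : j < n := (List.mem_range.1 hj).trans k.2
    have e1 := set_ofFn x ⟨j, hjn⟩ true
    have e2 := set_ofFn x ⟨j, hjn⟩ false
    simp only at e1 e2
    rw [E_bind, e1, e2, set_ofFn, set_ofFn, E_wtP h₁ h₂, E_ret, gq, dif_pos hjn]

lemma list_sum_range (N : ℕ) (f : ℕ → ℚ) :
    ((((List.range N).map f).sum : ℚ) : ℝ) = ∑ i ∈ range N, (f i : ℝ) := by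
  induction N with
  | zero => simp
  | succ N ih => rw [List.range_succ, List.map_append, List.sum_append, sum_range_succ, ← ih]; simp

lemma iter_foldP {σ : Type} {O : Qy → Bool} (f : σ → Prog Qy σ) (τ : ℕ) :
    ∀ (L : ℕ) (g : σ → ℝ) (y : σ),
      E O (foldP (List.range L) (fun y t => if t < τ then f y else .ret y) y) g =
        (fun (g : σ → ℝ) y => E O (f y) g)^[min L τ] g y
  | 0, g, y => by simp [foldP]
  | L + 1, g, y => by
    rw [E_foldP_range_succ, iter_foldP f τ L]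
    by_cases h : L < τ
    · simp only [if_pos h]
      rw [min_eq_left h.le, min_eq_left (Nat.succ_le_of_lt h), Function.iterate_succ_apply]
    · simp only [if_neg h, E_ret]
      rw [min_eq_right (not_lt.1 h), min_eq_right ((not_lt.1 h).trans L.le_succ)]

lemma All_stepP (n : ℕ) (q : ℚ) (k : ℕ) (ρ : List ℚ) {N : ℕ} (x : List Bool) (hx : x.length = N) :
    All (fun y => y.length = N) (stepP n q k ρ x) :=
  All.bind' _ fun o => by
    rw [All_ret]; split_ifs <;> simp [hx]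

lemma All_walkP (n : ℕ) (q : ℚ) (k : ℕ) (ρ : List ℚ) (L : ℕ) {N : ℕ} (x : List Bool)
    (hx : x.length = N) : All (fun y => y.length = N) (walkP n q k ρ L x) :=
  All.bind' _ fun τ => All_foldP _ _ (fun _ (y : List Bool) => y.length = N) (fun _ y t _ hy => by
    split_ifs
    · exact All_stepP n q k ρ y hy
    · exact hy) 0 x hx

end Sm

open Sm

lemma E_optP (h₁ : M₁.E = Set.univ) (h₂ : M₂.E = Set.univ) (hq : 0 < q) (hρ : ∀ r ∈ ρ, 0 ≤ r)
    (k : Fin n) (x : Fin n → Bool) (g : ℕ → ℝ) :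
    E (oracle M₁ M₂) (optP n q k ρ (List.ofFn x)) g = Op (wq M₁ M₂ q) k (rr n ρ) g x := by
  have h0 := add_pos (aq_pos (M₁ := M₁) (M₂ := M₂) hq k x false)
    (aq_pos (M₁ := M₁) (M₂ := M₂) hq k x true)
  have hg : ∀ r ∈ (List.range k).map (gq M₁ M₂ q ρ k x), 0 ≤ r := fun r hr => by
    obtain ⟨j, -, rfl⟩ := List.mem_map.1 hr
    exact gq_nonneg hq hρ k x j
  rw [optP, E_bind, E_optW h₁ h₂, E_choose _ (fun r hr => by
    rcases List.mem_cons.1 hr with rfl | hr
    · exact h0.le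
    · exact hg r hr) (by
      rw [List.sum_cons]; exact add_pos_of_pos_of_nonneg h0 (List.sum_nonneg hg)), Op, om]
  congr 1
  · rw [List.length_cons, List.length_map, List.length_range, sum_range_succ', add_comm]
    congr 1
    · simp [aq_eq]
    · rw [sum_congr rfl (g := fun i => ((gq M₁ M₂ q ρ k x i : ℚ) : ℝ) * g (i + 1)) fun i hi => by
        rw [List.getD_cons_succ, List.getD_eq_getElem _ _ (by simpa using hi)]; simp,
        sum_Iio k fun i => ((gq M₁ M₂ q ρ k x i : ℚ) : ℝ) * g (i + 1)]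
      exact sum_congr rfl fun j hj => by rw [gq_eq (mem_Iio.1 hj).ne]
  · rw [List.sum_cons, Rat.cast_add, Rat.cast_add, aq_eq, aq_eq, list_sum_range,
      sum_Iio k fun i => ((gq M₁ M₂ q ρ k x i : ℚ) : ℝ)]
    congr 1
    exact sum_congr rfl fun j hj => gq_eq (mem_Iio.1 hj).ne x

lemma E_stepP (h₁ : M₁.E = Set.univ) (h₂ : M₂.E = Set.univ) (hq : 0 < q) (hρ : ∀ r ∈ ρ, 0 ≤ r)
    (k : Fin n) (x : Fin n → Bool) (g : List Bool → ℝ) :
    E (oracle M₁ M₂) (stepP n q k ρ (List.ofFn x)) g =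
      Pk (wq M₁ M₂ q) k (rr n ρ) (fun y => g (List.ofFn y)) x := by
  rw [stepP, E_bind, E_optP h₁ h₂ hq hρ, Op, Pk]
  simp only [E_ret, if_true, Nat.add_one_ne_zero, if_false, Nat.add_sub_cancel, getD_ofFn,
    set_ofFn, flp]

lemma E_walkP (h₁ : M₁.E = Set.univ) (h₂ : M₂.E = Set.univ) (hq : 0 < q) (hρ : ∀ r ∈ ρ, 0 ≤ r)
    (k : Fin n) {L : ℕ} (hL : 0 < L) (x : Fin n → Bool) (g : List Bool → ℝ) :
    E (oracle M₁ M₂) (walkP n q k ρ L (List.ofFn x)) g =
      Pbar (wq M₁ M₂ q) k (rr n ρ) L (fun y => g (List.ofFn y)) x := by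
  have hit : ∀ (t : ℕ) (g : List Bool → ℝ) (x : Fin n → Bool),
      (fun (g : List Bool → ℝ) y => E (oracle M₁ M₂) (stepP n q k ρ y) g)^[t] g (List.ofFn x) =
        (Pk (wq M₁ M₂ q) k (rr n ρ))^[t] (fun y => g (List.ofFn y)) x := by
    intro t
    induction t with
    | zero => intro g x; rfl
    | succ t ih =>
      intro g x
      rw [Function.iterate_succ_apply, Function.iterate_succ_apply, ih,
        funext fun y => E_stepP h₁ h₂ hq hρ k y g]
  rw [walkP, E_bind, E_choose _ (fun r hr => by rw [List.eq_of_mem_replicate hr]; norm_num)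
    (by simpa using hL), Pbar]
  congr 1
  · rw [List.length_replicate]
    refine sum_congr rfl fun t ht => ?_
    have ht' := mem_range.1 ht
    rw [iter_foldP (stepP n q k ρ), min_eq_right ht'.le, hit,
      List.getD_eq_getElem _ _ (by simpa using ht')]
    simp
  · simp

lemma E_liftP (h₁ : M₁.E = Set.univ) (h₂ : M₂.E = Set.univ) (hq : 0 < q) (hρ : ∀ r ∈ ρ, 0 ≤ r)
    (k : Fin n) {L : ℕ} (hL : 0 < L) (x : Fin n → Bool) (g : List Bool → ℝ) :
    E (oracle M₁ M₂) (liftP n q k ρ L (List.ofFn x)) g =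
      Pbar (wq M₁ M₂ q) k (rr n ρ) L (Lf (wq M₁ M₂ q) k fun y => g (List.ofFn y)) x := by
  rw [liftP, E_bind, E_walkP h₁ h₂ hq hρ k hL]
  congr 1
  funext y
  have h0 := aq_pos (M₁ := M₁) (M₂ := M₂) hq k y false
  have h1 := aq_pos (M₁ := M₁) (M₂ := M₂) hq k y true
  rw [E_bind, set_ofFn, E_wtP h₁ h₂, E_bind, set_ofFn, E_wtP h₁ h₂, E_bind, E_coinP, E_ret, E_ret,
    set_ofFn, set_ofFn, Lf, ← aq_eq, ← aq_eq]
  change cl (aq M₁ M₂ q k y true / (aq M₁ M₂ q k y false + aq M₁ M₂ q k y true)) * _ +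
    (1 - cl (aq M₁ M₂ q k y true / (aq M₁ M₂ q k y false + aq M₁ M₂ q k y true))) * _ = _
  rw [cl_eq (by positivity) (by rw [div_le_one (by positivity)]; linarith)]
  have h0' : (0 : ℝ) < (aq M₁ M₂ q k y false : ℚ) := by exact_mod_cast h0
  have h1' : (0 : ℝ) < (aq M₁ M₂ q k y true : ℚ) := by exact_mod_cast h1
  push_cast
  field_simp
  ring

/-- every value returned by the sampler is a list of length `n` -/
lemma All_sampleP (n : ℕ) (q : ℚ) (ρ : List (List ℚ)) (lam : ℚ) (L k : ℕ) :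
    All (fun x => x.length = n) (sampleP n q ρ lam L k) :=
  All_foldP _ _ (fun _ (y : List Bool) => y.length = n) (fun _ y i _ hy =>
    (All_walkP n q i _ L y hy).bind fun z hz => All.bind' _ fun _ => All.bind' _ fun _ =>
      All.bind' _ fun c => by simpa using hz) 0 _ (by simp)

end Vale.Agent.P317
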