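import Vale.Agent.P317.Samp

/-! One annealing stage (job Stage). -/

namespace Vale.Agent.P317

open Prog Finset

variable {n m : ℕ} {M₁ M₂ : Matroid (Fin n)}

/-- the invariant after `t` stages -/
def Inv (M₁ M₂ : Matroid (Fin n)) (m t : ℕ) (s : List (List ℚ) × ℚ) : Prop :=
  GoodRho (wq M₁ M₂ ((kap m ^ t : ℚ) : ℝ)) s.1 ∧
    (1 - 1 / (64 * (m : ℝ) ^ 3)) ^ t * Za (wq M₁ M₂ ((kap m ^ t : ℚ) : ℝ)) n ≤ s.2 ∧
    (s.2 : ℝ) ≤ (1 + 1 / (64 * (m : ℝ) ^ 3)) ^ t * Za (wq M₁ M₂ ((kap m ^ t : ℚ) : ℝ)) n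

namespace Sg

lemma kap_pos (hm : n + 4 ≤ m) : 0 < kap m := by
  have h : (4 : ℚ) ≤ m := by exact_mod_cast (by omega : 4 ≤ m)
  rw [kap, sub_pos, div_lt_one (by linarith)]
  linarith

lemma kap_le (m : ℕ) : kap m ≤ 1 := by
  rw [kap, sub_le_self_iff]
  positivity

lemma kap_pow (hm : n + 4 ≤ m) {c : ℕ} (hc : c ≤ 2 * n) : (3 / 4 : ℝ) ≤ ((kap m : ℚ) : ℝ) ^ c := by
  have h : (n : ℝ) + 4 ≤ m := by exact_mod_cast hm
  have hn : (0 : ℝ) ≤ n := Nat.cast_nonneg n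
  have hc' : (c : ℝ) ≤ 2 * n := by exact_mod_cast hc
  have hm0 : (0 : ℝ) < 8 * m := by linarith
  have h1 : 1 / (8 * (m : ℝ)) ≤ 1 := by rw [div_le_one hm0]; linarith
  have h2 := one_add_mul_le_pow (a := -(1 / (8 * (m : ℝ)))) (by linarith) c
  have h3 : (c : ℝ) * (1 / (8 * m)) ≤ 1 / 4 := by
    rw [mul_one_div, div_le_iff₀ hm0]; linarith
  have h4 : ((kap m : ℚ) : ℝ) = 1 + -(1 / (8 * (m : ℝ))) := by
    rw [kap]; push_cast; ring
  rw [h4]
  linarith

lemma wq_pos {q : ℝ} (hq : 0 < q) (S : Finset (El n)) : 0 < wq M₁ M₂ q S := pow_pos hq _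

lemma wq_cmp (hm : n + 4 ≤ m) {q : ℝ} (hq : 0 < q) (S : Finset (El n)) :
    3 / 4 * wq M₁ M₂ q S ≤ wq M₁ M₂ (q * (kap m : ℚ)) S ∧
      wq M₁ M₂ (q * (kap m : ℚ)) S ≤ wq M₁ M₂ q S := by
  have h1 := kap_pow hm (nul2_le M₁ M₂ (fun i => decide ((i, true) ∈ S))
    fun i => decide ((i, false) ∉ S))
  have h0 : (0 : ℝ) < (kap m : ℚ) := by exact_mod_cast kap_pos hm
  have h2 : ((kap m : ℚ) : ℝ) ≤ 1 := by exact_mod_cast kap_le m
  have h3 := pow_le_one₀ h0.le h2 (n := nul M₁ M₂ S)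
  have h4 := pow_pos hq (nul M₁ M₂ S)
  simp only [wq, mul_pow]
  rw [← nul] at h1
  constructor <;> nlinarith

variable {w w' : Finset (El n) → ℝ}

lemma Za_cmp (h : ∀ S, 3 / 4 * w S ≤ w' S ∧ w' S ≤ w S) (k : ℕ) :
    3 / 4 * Za w k ≤ Za w' k ∧ Za w' k ≤ Za w k := by
  simp only [Za, mul_sum]
  exact ⟨sum_le_sum fun x _ => (h _).1, sum_le_sum fun x _ => (h _).2⟩

lemma ZZ_cmp (h : ∀ S, 3 / 4 * w S ≤ w' S ∧ w' S ≤ w S) (k : Fin n) :
    3 / 4 * ZZ w k ≤ ZZ w' k ∧ ZZ w' k ≤ ZZ w k := by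
  rw [ZZ_eq, ZZ_eq]
  exact Za_cmp h _

lemma WW_cmp (h : ∀ S, 3 / 4 * w S ≤ w' S ∧ w' S ≤ w S) (k j : Fin n) :
    3 / 4 * WW w k j ≤ WW w' k j ∧ WW w' k j ≤ WW w k j := by
  have h1 : 3 / 4 * ∑ x ∈ U n k, ga w k j x ≤ ∑ x ∈ U n k, ga w' k j x := by
    rw [mul_sum]
    exact sum_le_sum fun x _ => (h _).1
  have h2 : ∑ x ∈ U n k, ga w' k j x ≤ ∑ x ∈ U n k, ga w k j x :=
    sum_le_sum fun x _ => (h _).2
  simp only [WW]
  constructor <;> linarith

/-- Chebyshev with the parameters of the algorithm -/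
lemma cheb' {β : Type} {O : Qy → Bool} (hm : n + 4 ≤ m) (p : Prog Qy β) (f : β → Bool) :
    Pr O (rep (MM m) p) (fun bs => 1 / (256 * (m : ℝ) ^ 3) <
      |(bs.countP f : ℝ) / (MM m : ℕ) - Pr O p fun b => f b = true|) ≤
      1 / (128 * (m : ℝ) ^ 4) := by
  have hm0 : 0 < m := by omega
  have hm' : (0 : ℝ) < m := by exact_mod_cast hm0
  refine (cheb p f (N := MM m) (by rw [MM]; positivity) (by positivity)).trans (le_of_eq ?_)
  rw [MM]
  push_cast
  field_simp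
  norm_num

/-- relative error of a frequency -/
lemma rel (hm : n + 4 ≤ m) {a b μ : ℝ} (h1 : |a - b| ≤ 1 / (256 * (m : ℝ) ^ 3))
    (h2 : |b - μ| ≤ 1 / (128 * (m : ℝ) ^ 3)) (h3 : 1 ≤ (1 + 4 * n) * μ) :
    9 / 10 * μ ≤ a ∧ a ≤ 11 / 10 * μ := by
  have h : (n : ℝ) + 4 ≤ m := by exact_mod_cast hm
  have hn : (0 : ℝ) ≤ n := Nat.cast_nonneg n
  have hm0 : (0 : ℝ) < m := by linarith
  have hμ : 0 < μ := by
    by_contra hc
    have := mul_nonneg (show (0 : ℝ) ≤ 1 + 4 * n by linarith) (neg_nonneg.2 (not_lt.1 hc))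
    linarith
  have h4 : 1 ≤ 4 * m * μ := by nlinarith
  have h5 : 1 / (128 * (m : ℝ) ^ 3) ≤ μ / 20 := by
    rw [div_le_div_iff₀ (by positivity) (by norm_num)]
    have h6 : (1 : ℝ) ≤ m ^ 2 := by nlinarith
    have h7 : 4 * m * μ ≤ 4 * m * μ * m ^ 2 := le_mul_of_one_le_right (by positivity) h6
    nlinarith
  have h6 : 1 / (256 * (m : ℝ) ^ 3) ≤ 1 / (128 * (m : ℝ) ^ 3) :=
    one_div_le_one_div_of_le (by positivity) (by nlinarith [pow_pos hm0 3])
  rw [abs_le] at h1 h2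
  constructor <;> linarith [h1.1, h1.2, h2.1, h2.2]

lemma new_rho {ρ W Z Om c0 c1 N : ℝ} (hN : 0 < N) (hOm : 0 < Om) (hZ : 0 < Z) (hρW : Z / 2 ≤ ρ * W)
    (h0 : 9 / 10 * (Z / Om) ≤ c0 / N ∧ c0 / N ≤ 11 / 10 * (Z / Om))
    (h1 : 9 / 10 * (2 * (ρ * W) / Om) ≤ c1 / N ∧ c1 / N ≤ 11 / 10 * (2 * (ρ * W) / Om)) :
    9 / 11 * Z ≤ ρ * (2 * c0) / c1 * W ∧ ρ * (2 * c0) / c1 * W ≤ 11 / 9 * Z := by
  set y := 2 * (ρ * W) with hy
  have hy0 : 0 < y := by linarith
  have a0 : 9 / 10 * Z * N ≤ c0 * Om := by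
    have := h0.1; rw [← mul_div_assoc, div_le_div_iff₀ hOm hN] at this; exact this
  have a1 : c0 * Om ≤ 11 / 10 * Z * N := by
    have := h0.2; rw [← mul_div_assoc, div_le_div_iff₀ hN hOm] at this; exact this
  have b0 : 9 / 10 * y * N ≤ c1 * Om := by
    have := h1.1; rw [← mul_div_assoc, div_le_div_iff₀ hOm hN] at this; exact this
  have b1 : c1 * Om ≤ 11 / 10 * y * N := by
    have := h1.2; rw [← mul_div_assoc, div_le_div_iff₀ hN hOm] at this; exact this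
  have hc1 : 0 < c1 := by
    have : 0 < c1 * Om := lt_of_lt_of_le (by positivity) b0
    exact (mul_pos_iff_of_pos_right hOm).1 this
  have e : ρ * (2 * c0) / c1 * W = y * (c0 * Om) / (c1 * Om) := by
    rw [hy]; field_simp
  rw [e, le_div_iff₀ (by positivity), div_le_iff₀ (by positivity)]
  constructor
  · have := mul_le_mul_of_nonneg_left a0 hy0.le
    have := mul_le_mul_of_nonneg_left b1 hZ.le
    nlinarith
  · have := mul_le_mul_of_nonneg_left a1 hy0.le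
    have := mul_le_mul_of_nonneg_left b0 hZ.le
    nlinarith

/-- a good row for the weights `w` -/
def GR (w : Finset (El n) → ℝ) (k : ℕ) (row : List ℚ) : Prop :=
  (∀ r ∈ row, 0 ≤ r) ∧ ∀ k' j : Fin n, k'.val = k → j < k' →
    ZZ w k' / 2 ≤ rr n row j * WW w k' j ∧ rr n row j * WW w k' j ≤ 2 * ZZ w k'

lemma getD_nonneg {l : List ℚ} (h : ∀ r ∈ l, 0 ≤ r) (j : ℕ) : 0 ≤ l.getD j 0 := by
  rw [List.getD_eq_getElem?_getD]
  cases hj : l[j]? with
  | none => simp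
  | some r => exact h r (List.mem_of_getElem? hj)

lemma row_good (h₁ : M₁.E = Set.univ) (h₂ : M₂.E = Set.univ) (hm : n + 4 ≤ m) {q : ℚ}
    (hq : 0 < q) (hq1 : q ≤ 1) {ρ : List (List ℚ)} (hρ : GoodRho (wq M₁ M₂ q) ρ) (k : Fin n) :
    1 - n * (1 / (128 * (m : ℝ) ^ 4)) ≤ Pr (oracle M₁ M₂) (rowP n q ρ (lamb m) (LL m) (MM m) k)
      (GR (wq M₁ M₂ ((q : ℝ) * (kap m : ℚ))) k) := by
  have hq' : (0 : ℝ) < q := by exact_mod_cast hq
  set w := wq M₁ M₂ (q : ℝ) with hw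
  have hw0 : ∀ S, 0 < w S := wq_pos hq'
  set p := estP n q ρ (lamb m) (LL m) k with hp
  set ρk := rr n (ρ.getD k []) with hρk
  have hρ0 : ∀ j, 0 ≤ ρk j := fun j => by
    simp only [hρk, rr]; exact_mod_cast getD_nonneg (hρ.1 k) j
  have hZ : 0 < ZZ w k := by rw [ZZ_eq]; exact Za_pos hw0 _
  have hkn : (k : ℝ) ≤ n := by exact_mod_cast k.2.le
  have hOm1 : ZZ w k ≤ Om w k ρk := by
    rw [Om_eq]
    have := sum_nonneg fun j (_ : j ∈ Iio k) => mul_nonneg (hρ0 j) (WW_pos hw0 k j).le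
    linarith
  have hOm : 0 < Om w k ρk := hZ.trans_le hOm1
  have hOm2 : Om w k ρk ≤ (1 + 4 * n) * ZZ w k := by
    rw [Om_eq]
    have h1 := sum_le_sum fun j (hj : j ∈ Iio k) => (hρ.2 k j (mem_Iio.1 hj)).2
    rw [sum_const, Fin.card_Iio, nsmul_eq_mul] at h1
    nlinarith
  have hclose : ∀ i : ℕ, |Pr (oracle M₁ M₂) p (fun o => decide (o = i) = true) -
      (ZZ w k * (if 0 = i then 1 else 0) + ∑ j ∈ Iio k,
        2 * (ρk j * WW w k j) * (if j.val + 1 = i then 1 else 0)) / Om w k ρk| ≤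
      1 / (128 * (m : ℝ) ^ 3) := by
    intro i
    have h := est_close h₁ h₂ hq hq1 hm hρ k (g := fun o => if o = i then 1 else 0)
      (fun o => by split <;> norm_num)
    rw [omE_Op hw0 k hρ0] at h
    have e : Pr (oracle M₁ M₂) p (fun o => decide (o = i) = true) =
        E (oracle M₁ M₂) p fun o => if o = i then 1 else 0 := by
      rw [Pr]
      congr 1
      funext o
      by_cases ho : o = i <;> simp [ho]
    rw [e]
    exact h
  rw [rowP, Pr_bind_ret]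
  have hU := Pr_union (O := oracle M₁ M₂) (range (k.val + 1)) (rep (MM m) p)
    (fun i os => 1 / (256 * (m : ℝ) ^ 3) < |(os.countP (fun o => decide (o = i)) : ℝ) / (MM m : ℕ) -
      Pr (oracle M₁ M₂) p fun o => decide (o = i) = true|)
  have hS := sum_le_sum fun i (_ : i ∈ range (k.val + 1)) =>
    cheb' (O := oracle M₁ M₂) hm p fun o => decide (o = i)
  rw [sum_const, card_range, nsmul_eq_mul] at hS
  have hk1 : ((k.val + 1 : ℕ) : ℝ) ≤ n := by exact_mod_cast k.2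
  have hη : (0 : ℝ) ≤ 1 / (128 * (m : ℝ) ^ 4) := by positivity
  have hk2 := mul_le_mul_of_nonneg_right hk1 hη
  refine le_trans (by linarith) (hU.trans (Pr_mono _ fun os hos => ⟨fun r hr => ?_, ?_⟩))
  · obtain ⟨j, -, rfl⟩ := List.mem_map.1 hr
    exact div_nonneg (mul_nonneg (getD_nonneg (hρ.1 k) j) (by positivity)) (by positivity)
  · intro k' j hk' hj
    obtain rfl : k' = k := Fin.ext hk'
    have hN : (0 : ℝ) < (MM m : ℕ) := by
      have : 0 < m := by omega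
      have : 0 < MM m := by rw [MM]; positivity
      exact_mod_cast this
    have hjk : j.val < k'.val := hj
    have a0 := hclose 0
    have a1 := hclose (j.val + 1)
    have s0 : ∑ j ∈ Iio k', 2 * (ρk j * WW w k' j) * (if j.val + 1 = 0 then (1 : ℝ) else 0) = 0 :=
      sum_eq_zero fun j _ => by simp
    have s1 : ∑ i ∈ Iio k', 2 * (ρk i * WW w k' i) *
        (if i.val + 1 = j.val + 1 then (1 : ℝ) else 0) = 2 * (ρk j * WW w k' j) := by
      rw [sum_eq_single j (fun i _ hi => by simp [Fin.val_inj, hi])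
        (fun h => absurd (mem_Iio.2 hj) h)]
      simp
    rw [s0, if_pos rfl, mul_one, add_zero] at a0
    rw [s1, if_neg (by omega), mul_zero, zero_add] at a1
    have g := hρ.2 k' j hj
    have r0 := rel hm (not_lt.1 (hos 0 (by simp))) a0 (by
      rw [← mul_div_assoc, le_div_iff₀ hOm]; linarith)
    have r1 := rel hm (not_lt.1 (hos (j.val + 1) (by simp; omega))) a1 (by
      rw [← mul_div_assoc, le_div_iff₀ hOm]
      have hn : (0 : ℝ) ≤ 1 + 4 * n := by positivity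
      have := mul_le_mul_of_nonneg_left (show ZZ w k' ≤ 2 * (ρk j * WW w k' j) by
        linarith [g.1]) hn
      linarith)
    have nr := new_rho hN hOm hZ g.1 r0 r1
    have er : rr n ((List.range (min k'.val n)).map fun j => (ρ.getD k' []).getD j 0 *
        (2 * (os.countP fun o => decide (o = 0) : ℕ)) /
          (os.countP fun o => decide (o = j + 1) : ℕ)) j =
        ρk j * (2 * (os.countP fun o => decide (o = 0) : ℕ)) /
          (os.countP fun o => decide (o = j.val + 1) : ℕ) := by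
      have hl : j.val < min k'.val n := lt_min hjk j.2
      simp only [rr, hρk]
      rw [List.getD_eq_getElem _ _ (by simpa using hl)]
      simp
    rw [er]
    have cz := ZZ_cmp (fun S => wq_cmp (M₁ := M₁) (M₂ := M₂) hm hq' S) k'
    have cw := WW_cmp (fun S => wq_cmp (M₁ := M₁) (M₂ := M₂) hm hq' S) k' j
    have hx : 0 ≤ ρk j * (2 * (os.countP fun o => decide (o = 0) : ℕ)) /
        (os.countP fun o => decide (o = j.val + 1) : ℕ) :=
      div_nonneg (mul_nonneg (hρ0 j) (by positivity)) (by positivity)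
    have m1 := mul_le_mul_of_nonneg_left cw.1 hx
    have m2 := mul_le_mul_of_nonneg_left cw.2 hx
    rw [← hw] at cz m1 m2
    constructor <;> linarith [nr.1, nr.2, cz.1, cz.2]

lemma good_of_rows {ρ : List (List ℚ)} (h : List.Forall₂ (GR w) (List.range n) ρ) :
    GoodRho w ρ := by
  obtain ⟨hl, hg⟩ := List.forall₂_iff_get.1 h
  have hl' : ρ.length = n := by simpa using hl.symm
  have hG : ∀ k < n, GR w k (ρ.getD k []) := fun k hk => by
    have := hg k (by simpa using hk) (by omega)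
    rw [List.getD_eq_getElem _ _ (by omega)]
    simpa using this
  refine ⟨fun k r hr => ?_, fun k j hj => (hG k k.2).2 k j rfl hj⟩
  by_cases hk : k < n
  · exact (hG k hk).1 r hr
  · rw [List.getD_eq_default _ _ (by omega)] at hr
    simp at hr

end Sg

lemma inv_zero (M₁ M₂ : Matroid (Fin n)) (m : ℕ) :
    Inv M₁ M₂ m 0 (List.replicate n (List.replicate n 4), 2 ^ n) := by
  have hw : wq M₁ M₂ ((kap m ^ 0 : ℚ) : ℝ) = fun _ => 1 := by
    funext S; simp [wq]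
  have hZ : Za (n := n) (fun _ => (1 : ℝ)) n = 2 ^ n := by
    have : U n n = univ := by
      rw [U, filter_true_of_mem]
      intro x _ i hi
      exact absurd i.2 (by omega)
    simp [Za, wt, this]
  rw [Inv, hw, hZ]
  refine ⟨⟨fun k r hr => ?_, fun k j _ => ?_⟩, by simp, by simp⟩
  · by_cases hk : k < n
    · rw [List.getD_eq_getElem _ _ (by simpa using hk)] at hr
      simp only [List.getElem_replicate, List.mem_replicate] at hr
      rw [hr.2]; norm_num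
    · rw [List.getD_eq_default _ _ (by simpa using hk)] at hr
      simp at hr
  · have e : rr n ((List.replicate n (List.replicate n (4 : ℚ))).getD k []) j = 4 := by
      simp [rr, List.getD_eq_getElem?_getD]
    have hc : (0 : ℝ) ≤ (U n k).card := Nat.cast_nonneg _
    simp only [e, ZZ, WW, al, ga, sum_const, nsmul_eq_mul]
    constructor <;> linarith

theorem stage_good (h₁ : M₁.E = Set.univ) (h₂ : M₂.E = Set.univ) (hm : n + 4 ≤ m) (t : ℕ)
    (ht : t < TT m)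
    (s : List (List ℚ) × ℚ) (hs : Inv M₁ M₂ m t s) :
    1 - 1 / (128 * (m : ℝ) ^ 2) ≤ Pr (oracle M₁ M₂) (stageP n m s t) (Inv M₁ M₂ m (t + 1)) := by
  obtain ⟨hρ, hlo, hhi⟩ := hs
  have hκ := Sg.kap_pos hm
  have hq : 0 < kap m ^ t := pow_pos hκ t
  have hq1 : kap m ^ t ≤ 1 := pow_le_one₀ hκ.le (Sg.kap_le m)
  have hq' : (0 : ℝ) < (kap m ^ t : ℚ) := by exact_mod_cast hq
  have hnm : (n : ℝ) + 4 ≤ m := by exact_mod_cast hm
  have hn : (0 : ℝ) ≤ n := Nat.cast_nonneg n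
  have hm0 : (0 : ℝ) < m := by linarith
  have hη : (0 : ℝ) ≤ 1 / (128 * (m : ℝ) ^ 4) := by positivity
  have ecast : ((kap m ^ (t + 1) : ℚ) : ℝ) = ((kap m ^ t : ℚ) : ℝ) * (kap m : ℚ) := by
    push_cast; ring
  rw [stageP, min_eq_left ht.le]
  have hA := Pr_mapP (O := oracle M₁ M₂) (List.range n)
    (rowP n (kap m ^ t) s.1 (lamb m) (LL m) (MM m))
    (Sg.GR (wq M₁ M₂ (((kap m ^ t : ℚ) : ℝ) * (kap m : ℚ)))) (mul_nonneg hn hη)
    fun c hc => Sg.row_good h₁ h₂ hm hq hq1 hρ ⟨c, List.mem_range.1 hc⟩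
  refine le_trans ?_ (Pr_bind hA (η' := 1 / (128 * (m : ℝ) ^ 4)) (fun ρ' hρ' => ?_) hη)
  · rw [List.length_range]
    have h1 : (n : ℝ) * n + 1 ≤ m ^ 2 := by nlinarith
    have h2 := mul_le_mul_of_nonneg_right h1 hη
    have h3 : (m : ℝ) ^ 2 * (1 / (128 * (m : ℝ) ^ 4)) = 1 / (128 * (m : ℝ) ^ 2) := by
      field_simp
    linarith
  · rw [Pr_bind_ret]
    set p := ratioP n (kap m ^ t) (kap m) s.1 (lamb m) (LL m) with hp
    have hU := Pr_union (O := oracle M₁ M₂) ({()} : Finset Unit) (rep (MM m) p)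
      (fun _ bs => 1 / (256 * (m : ℝ) ^ 3) < |(bs.countP (fun b => b) : ℝ) / (MM m : ℕ) -
        Pr (oracle M₁ M₂) p fun b => b = true|)
    have hC := Sg.cheb' (O := oracle M₁ M₂) hm p fun b => b
    rw [sum_singleton] at hU
    refine le_trans (by linarith) (hU.trans (Pr_mono _ fun bs hbs => ?_))
    have a := not_lt.1 (hbs () (mem_singleton_self _))
    have b := ratio_close h₁ h₂ hq hq1 hm hρ hκ.le (Sg.kap_le m)
    rw [← hp] at b
    have cz := Sg.Za_cmp (fun S => Sg.wq_cmp (M₁ := M₁) (M₂ := M₂) hm hq' S) n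
    have hZ := Za_pos (Sg.wq_pos (M₁ := M₁) (M₂ := M₂) hq') n
    refine ⟨by rw [ecast]; exact Sg.good_of_rows hρ', ?_⟩
    rw [ecast]
    push_cast at cz hZ b hlo hhi ⊢
    rw [mul_div_assoc]
    generalize Za (wq M₁ M₂ ((kap m : ℝ) ^ t * (kap m : ℝ))) n = Z' at cz b ⊢
    generalize Za (wq M₁ M₂ ((kap m : ℝ) ^ t)) n = Z at cz hZ b hlo hhi
    generalize ((List.countP (fun b => b) bs : ℕ) : ℝ) / ((MM m : ℕ) : ℝ) = c at a ⊢
    have e : 1 / (256 * (m : ℝ) ^ 3) = 1 / (64 * (m : ℝ) ^ 3) / 4 := by field_simp; norm_num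
    have hδ : 0 < 1 / (64 * (m : ℝ) ^ 3) := by positivity
    have hδ1 : 1 / (64 * (m : ℝ) ^ 3) ≤ 1 := by
      rw [div_le_one (by positivity)]
      have : (1 : ℝ) ≤ m ^ 3 := one_le_pow₀ (by linarith)
      linarith
    rw [e] at a b
    generalize 1 / (64 * (m : ℝ) ^ 3) = δ at a b hδ hδ1 hlo hhi ⊢
    have hR : 3 / 4 ≤ Z' / Z := by rw [le_div_iff₀ hZ]; exact cz.1
    have hZ' : Z' = Z * (Z' / Z) := by field_simp
    generalize Z' / Z = R at b hR hZ'
    rw [abs_le] at a b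
    have c1 : (1 - δ) * R ≤ c := by nlinarith [a.1, b.1]
    have c2 : c ≤ (1 + δ) * R := by nlinarith [a.2, b.2]
    have p1 : 0 ≤ (1 - δ) ^ t * Z := mul_nonneg (pow_nonneg (by linarith) t) hZ.le
    have p2 : 0 ≤ (1 - δ) * R := mul_nonneg (by linarith) (by linarith)
    subst hZ'
    constructor
    · calc (1 - δ) ^ (t + 1) * (Z * R) = (1 - δ) ^ t * Z * ((1 - δ) * R) := by ring
        _ ≤ s.2 * c := mul_le_mul hlo c1 p2 (p1.trans hlo)
    · calc (s.2 : ℝ) * c ≤ (1 + δ) ^ t * Z * ((1 + δ) * R) :=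
            mul_le_mul hhi c2 (p2.trans c1) ((p1.trans hlo).trans hhi)
        _ = (1 + δ) ^ (t + 1) * (Z * R) := by ring

end Vale.Agent.P317
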